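import Crest.Agent.R34.Defs

/-! # Row 34: elementary facts on counting and on the affine plane -/

set_option autoImplicit false

namespace Crest.Agent.R34

open Finset

section cnt
variable {Ω : Type} [Fintype Ω]

theorem cnt_eq (p : Ω → Prop) [DecidablePred p] : cnt p = (univ.filter p).card := by
  unfold cnt; convert rfl

theorem cnt_mono {p r : Ω → Prop} (h : ∀ ω, p ω → r ω) : cnt p ≤ cnt r := by
  classical
  rw [cnt_eq, cnt_eq]
  exact card_le_card fun ω hω => by
    simp only [mem_filter, mem_univ, true_and] at hω ⊢; exact h ω hω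

theorem cnt_congr {p r : Ω → Prop} (h : ∀ ω, p ω ↔ r ω) : cnt p = cnt r :=
  le_antisymm (cnt_mono fun ω => (h ω).1) (cnt_mono fun ω => (h ω).2)

theorem cnt_le_card (p : Ω → Prop) : cnt p ≤ Fintype.card Ω := by
  classical
  rw [cnt_eq]; exact card_le_univ _

theorem cnt_or_le (p r : Ω → Prop) : cnt (fun ω => p ω ∨ r ω) ≤ cnt p + cnt r := by
  classical
  rw [cnt_eq, cnt_eq, cnt_eq, filter_or]; exact card_union_le _ _

theorem cnt_add_cnt_not (p : Ω → Prop) : cnt p + cnt (fun ω => ¬ p ω) = Fintype.card Ω := by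
  classical
  rw [cnt_eq, cnt_eq, card_filter_add_card_filter_not]; rfl

/-- Union bound. -/
theorem cnt_exists_le {ι : Type} (s : Finset ι) (p : ι → Ω → Prop) :
    cnt (fun ω => ∃ i ∈ s, p i ω) ≤ ∑ i ∈ s, cnt (p i) := by
  classical
  rw [cnt_eq]
  have : (univ.filter fun ω => ∃ i ∈ s, p i ω) = s.biUnion fun i => univ.filter (p i) := by
    ext ω; simp
  rw [this]
  refine card_biUnion_le.trans (le_of_eq ?_)
  exact sum_congr rfl fun i _ => (cnt_eq _).symm

theorem cnt_eq_sum (p : Ω → Prop) [DecidablePred p] :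
    (cnt p : ℝ) = ∑ ω, if p ω then (1 : ℝ) else 0 := by
  rw [cnt_eq, sum_boole]

theorem exists_of_cnt_lt {p r : Ω → Prop} (h : cnt r < cnt p) : ∃ ω, p ω ∧ ¬ r ω := by
  by_contra hc
  push Not at hc
  exact absurd (cnt_mono hc) (not_le.mpr h)

/-- Markov's inequality for counting. -/
theorem cnt_mul_le_sum (f : Ω → ℝ) (hf : ∀ ω, 0 ≤ f ω) (t : ℝ) :
    (cnt (fun ω => t ≤ f ω) : ℝ) * t ≤ ∑ ω, f ω := by
  classical
  rw [cnt_eq]
  calc ((univ.filter fun ω => t ≤ f ω).card : ℝ) * t
      = ∑ _ω ∈ univ.filter fun ω => t ≤ f ω, t := by rw [sum_const, nsmul_eq_mul]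
    _ ≤ ∑ ω ∈ univ.filter fun ω => t ≤ f ω, f ω :=
        sum_le_sum fun ω hω => (mem_filter.1 hω).2
    _ ≤ ∑ ω, f ω := sum_le_sum_of_subset_of_nonneg (filter_subset _ _) fun ω _ _ => hf ω

end cnt

theorem Rare.mono {C : ℕ}
    {p r : ∀ (F : Type) [Field F] [Fintype F] [DecidableEq F], Conf F C → Prop}
    (hr : Rare C r) (q₁ : ℕ)
    (h : ∀ (F : Type) [Field F] [Fintype F] [DecidableEq F], q₁ ≤ Fintype.card F →
      ∀ ω, p F ω → r F ω) : Rare C p := by
  intro ε hε
  obtain ⟨q₀, hq₀⟩ := hr ε hε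
  refine ⟨max q₀ q₁, fun F _ _ _ hq => le_trans ?_ (hq₀ F (le_trans (le_max_left _ _) hq))⟩
  exact_mod_cast cnt_mono (h F (le_trans (le_max_right _ _) hq))

theorem Rare.or {C : ℕ}
    {p r : ∀ (F : Type) [Field F] [Fintype F] [DecidableEq F], Conf F C → Prop}
    (hp : Rare C p) (hr : Rare C r) : Rare C (fun F _ _ _ ω => p F ω ∨ r F ω) := by
  intro ε hε
  obtain ⟨q₀, hq₀⟩ := hp (ε / 2) (by positivity)
  obtain ⟨q₁, hq₁⟩ := hr (ε / 2) (by positivity)
  refine ⟨max q₀ q₁, fun F _ _ _ hq => ?_⟩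
  have h1 := hq₀ F (le_trans (le_max_left _ _) hq)
  have h2 := hq₁ F (le_trans (le_max_right _ _) hq)
  have h3 : (cnt (fun ω => p F ω ∨ r F ω) : ℝ) ≤ cnt (p F) + cnt (r F) := by
    exact_mod_cast cnt_or_le (p F) (r F)
  linarith

variable {F : Type} [Field F] [Fintype F] [DecidableEq F]

@[simp] theorem mem_pts {x : Line F} {X : Pt F} : X ∈ pts x ↔ co x.1 X = x.2 := by
  simp [pts]

@[simp] theorem mem_unc {B : Finset (Line F)} {X : Pt F} :
    X ∈ unc B ↔ ∀ x ∈ B, co x.1 X ≠ x.2 := by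
  simp [unc]

omit [Fintype F] [DecidableEq F] in
@[simp] theorem thru_fst (d : Dir F) (X : Pt F) : (thru d X).1 = d := rfl

omit [Fintype F] [DecidableEq F] in
@[simp] theorem thru_snd (d : Dir F) (X : Pt F) : (thru d X).2 = co d X := rfl

omit [Fintype F] [DecidableEq F] in
theorem thru_eq_iff {d : Dir F} {X : Pt F} {x : Line F} :
    thru d X = x ↔ d = x.1 ∧ co x.1 X = x.2 := by
  rcases x with ⟨e, c⟩
  simp only [thru, Prod.mk.injEq]
  constructor
  · rintro ⟨rfl, h⟩; exact ⟨rfl, h⟩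
  · rintro ⟨rfl, h⟩; exact ⟨rfl, h⟩

omit [Fintype F] [DecidableEq F] in
theorem thru_of_on {X : Pt F} {x : Line F} (h : co x.1 X = x.2) : thru x.1 X = x :=
  thru_eq_iff.2 ⟨rfl, h⟩

theorem mem_unc_iff_thru {B : Finset (Line F)} {X : Pt F} : X ∈ unc B ↔ ∀ d, thru d X ∉ B := by
  rw [mem_unc]
  constructor
  · intro h d hd; exact h _ hd rfl
  · intro h x hx hX; exact h x.1 (by rwa [thru_of_on hX])

theorem unc_anti {B B' : Finset (Line F)} (h : B ⊆ B') : unc B' ⊆ unc B := by
  intro X hX; rw [mem_unc] at hX ⊢; exact fun x hx => hX x (h hx)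

omit [Fintype F] [DecidableEq F] in
/-- Two lines of different directions have at most one common point. -/
theorem co_inj {d e : Dir F} (h : d ≠ e) {X Y : Pt F} (hd : co d X = co d Y)
    (he : co e X = co e Y) : X = Y := by
  rcases X with ⟨x1, x2⟩
  rcases Y with ⟨y1, y2⟩
  rcases d with _ | m <;> rcases e with _ | n
  · exact absurd rfl h
  · simp only [co] at hd he; subst hd
    have : x2 = y2 := by linear_combination he
    rw [this]
  · simp only [co] at hd he; subst he
    have : x2 = y2 := by linear_combination hd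
    rw [this]
  · simp only [co] at hd he
    have hmn : m - n ≠ 0 := fun h0 => h (by rw [sub_eq_zero.1 h0])
    have h1 : x1 = y1 := by
      have : (m - n) * (x1 - y1) = 0 := by linear_combination he - hd
      rcases mul_eq_zero.1 this with h2 | h2
      · exact absurd h2 hmn
      · exact sub_eq_zero.1 h2
    subst h1
    have : x2 = y2 := by linear_combination hd
    rw [this]

omit [Fintype F] [DecidableEq F] in
/-- Two lines of different directions have a common point. -/
theorem exists_meet {d e : Dir F} (h : d ≠ e) (c c' : F) :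
    ∃ X : Pt F, co d X = c ∧ co e X = c' := by
  rcases d with _ | m <;> rcases e with _ | n
  · exact absurd rfl h
  · exact ⟨(c, c' + n * c), rfl, by simp [co]⟩
  · exact ⟨(c', c + m * c'), by simp [co], rfl⟩
  · have hmn : n - m ≠ 0 := fun h0 => h (by rw [sub_eq_zero.1 h0])
    refine ⟨((c - c') / (n - m), c + m * ((c - c') / (n - m))), by simp [co], ?_⟩
    simp only [co]; field_simp; ring

omit [Fintype F] [DecidableEq F] in
theorem meet_spec {x y : Line F} (h : x.1 ≠ y.1) :
    co x.1 (meet x y) = x.2 ∧ co y.1 (meet x y) = y.2 := by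
  exact Classical.epsilon_spec (exists_meet h x.2 y.2)

omit [Fintype F] [DecidableEq F] in
theorem meet_left {x y : Line F} (h : x.1 ≠ y.1) : co x.1 (meet x y) = x.2 := (meet_spec h).1

omit [Fintype F] [DecidableEq F] in
theorem meet_right {x y : Line F} (h : x.1 ≠ y.1) : co y.1 (meet x y) = y.2 := (meet_spec h).2

omit [Fintype F] [DecidableEq F] in
theorem eq_meet {x y : Line F} (h : x.1 ≠ y.1) {X : Pt F} (hx : co x.1 X = x.2)
    (hy : co y.1 X = y.2) : X = meet x y :=
  co_inj h (by rw [hx, meet_left h]) (by rw [hy, meet_right h])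

omit [Fintype F] [DecidableEq F] in
/-- Two points lie on a common line. -/
theorem exists_join (X Y : Pt F) : ∃ d : Dir F, co d X = co d Y := by
  by_cases h : X.1 = Y.1
  · exact ⟨none, h⟩
  · have h' : X.1 - Y.1 ≠ 0 := sub_ne_zero.2 h
    refine ⟨some ((X.2 - Y.2) / (X.1 - Y.1)), ?_⟩
    simp only [co]; field_simp; ring

omit [Fintype F] [DecidableEq F] in
/-- Two distinct lines have at most one common point. -/
theorem eq_of_on_of_ne {x y : Line F} (h : x ≠ y) {X Y : Pt F} (hx : co x.1 X = x.2)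
    (hy : co y.1 X = y.2) (hx' : co x.1 Y = x.2) (hy' : co y.1 Y = y.2) : X = Y := by
  by_cases hd : x.1 = y.1
  · exact absurd (Prod.ext hd (by rw [← hx, ← hy, hd])) h
  · exact co_inj hd (by rw [hx, hx']) (by rw [hy, hy'])

theorem card_inter_pts_le_one {x y : Line F} (h : x ≠ y) : (pts x ∩ pts y).card ≤ 1 := by
  rw [card_le_one]
  intro X hX Y hY
  simp only [mem_inter, mem_pts] at hX hY
  exact eq_of_on_of_ne h hX.1 hX.2 hY.1 hY.2

omit [Field F] [DecidableEq F] in
theorem card_dir : Fintype.card (Dir F) = Fintype.card F + 1 := by simp [Dir]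

omit [Field F] [DecidableEq F] in
theorem card_pt : Fintype.card (Pt F) = Fintype.card F ^ 2 := by simp [Pt, sq]

omit [Field F] [DecidableEq F] in
theorem card_line : Fintype.card (Line F) = (Fintype.card F + 1) * Fintype.card F := by
  simp [Line]

omit [Field F] [DecidableEq F] in
theorem card_var (C : ℕ) : Fintype.card (Var F C) = (Fintype.card F + 1) * C := by
  simp [Var]

omit [Field F] in
theorem card_conf (C : ℕ) :
    Fintype.card (Conf F C) = Fintype.card F ^ ((Fintype.card F + 1) * C) := by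
  rw [← card_var]; simp [Conf]

omit [DecidableEq F] in
theorem two_le_card : 2 ≤ Fintype.card F := Fintype.one_lt_card

omit [Fintype F] [DecidableEq F] in
theorem exists_dir_ne (d : Dir F) : ∃ e : Dir F, e ≠ d := by
  rcases d with _ | m
  · exact ⟨some 0, by simp⟩
  · exact ⟨none, by simp⟩

@[simp] theorem card_pts (x : Line F) : (pts x).card = Fintype.card F := by
  obtain ⟨e, he⟩ := exists_dir_ne x.1
  rw [← Finset.card_univ]
  refine card_bij (fun X _ => co e X) (fun _ _ => mem_univ _) ?_ ?_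
  · intro X hX Y hY h
    rw [mem_pts] at hX hY
    exact co_inj he h (by rw [hX, hY])
  · intro c _
    obtain ⟨X, h1, h2⟩ := exists_meet he c x.2
    exact ⟨X, mem_pts.2 h2, h1⟩

/-- The lines of one direction partition the plane. -/
theorem sum_pts_dir (d : Dir F) (w : Pt F → ℝ) :
    ∑ c : F, ∑ X ∈ pts (d, c), w X = ∑ X, w X := by
  unfold pts
  exact sum_fiberwise_of_maps_to (s := univ) (t := univ) (g := fun X => co d X)
    (fun _ _ => mem_univ _) w

theorem card_join_dirs (X Y : Pt F) :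
    (univ.filter fun d : Dir F => co d X = co d Y).card =
      if X = Y then Fintype.card F + 1 else 1 := by
  split_ifs with h
  · subst h; simp
  · rw [card_eq_one]
    obtain ⟨d, hd⟩ := exists_join X Y
    refine ⟨d, ?_⟩
    ext e
    simp only [mem_filter, mem_univ, true_and, mem_singleton]
    constructor
    · intro he; by_contra hne; exact h (co_inj hne he hd)
    · rintro rfl; exact hd

theorem sum_sq_pts (w : Pt F → ℝ) :
    ∑ x : Line F, (∑ X ∈ pts x, w X) ^ 2 =
      Fintype.card F * ∑ X, w X ^ 2 + (∑ X, w X) ^ 2 := by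
  have h1 : ∀ x : Line F, (∑ X ∈ pts x, w X) ^ 2 =
      ∑ X, ∑ Y, if co x.1 X = x.2 ∧ co x.1 Y = x.2 then w X * w Y else 0 := by
    intro x
    rw [sq, sum_mul_sum]
    unfold pts
    rw [sum_filter]
    refine sum_congr rfl fun X _ => ?_
    rw [sum_filter]
    split_ifs with h
    · simp [h]
    · simp [h]
  have h2 : ∀ X Y : Pt F, ∑ x : Line F,
      (if co x.1 X = x.2 ∧ co x.1 Y = x.2 then w X * w Y else 0) =
        (if X = Y then (Fintype.card F : ℝ) * w X ^ 2 else 0) + w X * w Y := by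
    intro X Y
    rw [Fintype.sum_prod_type]
    have h3 : ∀ d : Dir F, ∑ c : F, (if co d X = c ∧ co d Y = c then w X * w Y else 0) =
        if co d X = co d Y then w X * w Y else 0 := by
      intro d
      rw [sum_eq_single (co d X)]
      · simp [eq_comm]
      · intro c _ hc; rw [if_neg]; exact fun h => hc h.1.symm
      · simp
    simp only [h3]
    rw [← sum_filter, sum_const, card_join_dirs, nsmul_eq_mul]
    split_ifs with h
    · subst h; push_cast; ring
    · simp
  simp only [h1]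
  rw [sum_comm]
  have h4 : ∀ X : Pt F, ∑ x : Line F, ∑ Y : Pt F,
      (if co x.1 X = x.2 ∧ co x.1 Y = x.2 then w X * w Y else 0) =
        (Fintype.card F : ℝ) * w X ^ 2 + w X * ∑ Y, w Y := by
    intro X
    rw [sum_comm]
    simp only [h2]
    rw [sum_add_distrib, sum_ite_eq, if_pos (mem_univ _), mul_sum]
  simp only [h4]
  rw [sum_add_distrib, ← mul_sum, ← sum_mul, sq (∑ X, w X)]

/-- Variance bound for the line sums of a weight function. -/
theorem variance (w : Pt F → ℝ) :
    ∑ x : Line F, (∑ X ∈ pts x, w X - (∑ X, w X) / Fintype.card F) ^ 2 ≤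
      Fintype.card F * ∑ X, w X ^ 2 := by
  have hq : (0 : ℝ) < Fintype.card F := by
    have := two_le_card (F := F); positivity
  set W := ∑ X, w X with hW
  have h1 : ∑ x : Line F, ∑ X ∈ pts x, w X = (Fintype.card F + 1) * W := by
    rw [Fintype.sum_prod_type]
    simp only [sum_pts_dir]
    rw [sum_const, card_univ, card_dir, nsmul_eq_mul]; push_cast; ring
  have h2 : ∀ x : Line F, (∑ X ∈ pts x, w X - W / Fintype.card F) ^ 2 =
      (∑ X ∈ pts x, w X) ^ 2 - 2 * (W / Fintype.card F) * ∑ X ∈ pts x, w X +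
        (W / Fintype.card F) ^ 2 := fun x => by ring
  simp only [h2]
  rw [sum_add_distrib, sum_sub_distrib, ← mul_sum, h1, sum_sq_pts, sum_const, card_univ,
    card_line, nsmul_eq_mul, ← hW]
  push_cast
  have h3 : W ^ 2 - 2 * (W / Fintype.card F) * ((Fintype.card F + 1) * W) +
      (Fintype.card F + 1) * Fintype.card F * (W / Fintype.card F) ^ 2 =
        - (W ^ 2 / Fintype.card F) := by field_simp; ring
  have h4 : 0 ≤ W ^ 2 / Fintype.card F := by positivity
  linarith

/-- Few lines have an atypical weight. -/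
theorem card_dev_le (w : Pt F → ℝ) (t : ℝ) (ht : 0 ≤ t) (A : Finset (Line F))
    (hA : ∀ x ∈ A, t ≤ |∑ X ∈ pts x, w X - (∑ X, w X) / Fintype.card F|) :
    (A.card : ℝ) * t ^ 2 ≤ Fintype.card F * ∑ X, w X ^ 2 := by
  refine le_trans ?_ (variance w)
  calc (A.card : ℝ) * t ^ 2 = ∑ _x ∈ A, t ^ 2 := by rw [sum_const, nsmul_eq_mul]
    _ ≤ ∑ x ∈ A, (∑ X ∈ pts x, w X - (∑ X, w X) / Fintype.card F) ^ 2 := by
        refine sum_le_sum fun x hx => ?_
        rw [← sq_abs (∑ X ∈ pts x, w X - _)]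
        exact pow_le_pow_left₀ ht (hA x hx) 2
    _ ≤ _ := sum_le_sum_of_subset_of_nonneg (subset_univ _) fun x _ _ => sq_nonneg _

/-- Few lines meet a point set atypically. -/
theorem card_dev_set_le (T : Finset (Pt F)) (t : ℝ) (ht : 0 ≤ t) (A : Finset (Line F))
    (hA : ∀ x ∈ A, t ≤ |((T ∩ pts x).card : ℝ) - T.card / Fintype.card F|) :
    (A.card : ℝ) * t ^ 2 ≤ Fintype.card F * T.card := by
  have h1 : ∀ s : Finset (Pt F), ∑ X ∈ s, (if X ∈ T then (1 : ℝ) else 0) = (T ∩ s).card := by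
    intro s
    rw [sum_boole, filter_mem_eq_inter, inter_comm]
  have := card_dev_le (fun X => if X ∈ T then (1 : ℝ) else 0) t ht A (by
    intro x hx
    rw [h1, h1, inter_univ]; exact hA x hx)
  have h2 : ∑ X : Pt F, (if X ∈ T then (1 : ℝ) else 0) ^ 2 = T.card := by
    have : ∀ X : Pt F, (if X ∈ T then (1 : ℝ) else 0) ^ 2 = if X ∈ T then (1 : ℝ) else 0 := by
      intro X; split_ifs <;> simp
    simp only [this]; rw [h1, inter_univ]
  rwa [h2] at this

variable {C : ℕ}

omit [Field F] in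
theorem mem_KK {ω : Conf F C} {x : Line F} : x ∈ KK ω ↔ ∃ i, ω (x.1, i) = x.2 := by
  simp only [KK, mem_image, mem_univ, true_and]
  constructor
  · rintro ⟨v, rfl⟩; exact ⟨v.2, rfl⟩
  · rintro ⟨i, hi⟩; exact ⟨(x.1, i), Prod.ext rfl hi⟩

theorem mem_unc_KK {ω : Conf F C} {X : Pt F} :
    X ∈ unc (KK ω) ↔ ∀ v : Var F C, ω v ≠ co v.1 X := by
  rw [mem_unc_iff_thru]
  simp only [mem_KK, thru_fst, thru_snd, not_exists]
  exact ⟨fun h v => h v.1 v.2, fun h d i => h (d, i)⟩

theorem unc_inter_pts {ω : Conf F C} {x : Line F} (hx : x ∉ KK ω) :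
    unc (KK ω) ∩ pts x = dS ω x := by
  ext X
  simp only [mem_inter, mem_unc_KK, mem_pts, dS, mem_filter]
  constructor
  · rintro ⟨h1, h2⟩; exact ⟨h2, fun v _ => h1 v⟩
  · rintro ⟨h1, h2⟩
    refine ⟨fun v hv => ?_, h1⟩
    by_cases hd : v.1 = x.1
    · refine hx (mem_KK.2 ⟨v.2, ?_⟩)
      rw [← h1, ← hd]; exact hv
    · exact h2 v hd hv

theorem one_sub_inv_pow_ge {q : ℕ} (hq : 2 ≤ q) : (1 / 4 : ℝ) ≤ (1 - 1 / (q : ℝ)) ^ q := by
  have hq' : (2 : ℝ) ≤ q := by exact_mod_cast hq
  have h0 : (0 : ℝ) < q := by linarith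
  -- (1 - 1/q)^q = ((1-1/q)^2)^(q/2); use Bernoulli on pairs
  have key : ∀ n : ℕ, 2 ≤ n → ∀ x : ℝ, 0 ≤ x → x ≤ 1 / 2 → n * x ≤ 1 → (1 / 4 : ℝ) ≤ (1 - x) ^ n := by
    intro n _ x hx0 hx1 hnx
    have h1 : Real.exp (-(Real.log 4) * x) ≤ 1 - x := by
      have hc := convexOn_exp.2 (Set.mem_univ (0 : ℝ)) (Set.mem_univ (-(Real.log 2)))
        (show (0 : ℝ) ≤ 1 - 2 * x by linarith) (show (0 : ℝ) ≤ 2 * x by linarith) (by ring)
      have h4 : Real.log 4 = 2 * Real.log 2 := by
        rw [show (4 : ℝ) = 2 ^ 2 by norm_num, Real.log_pow]; norm_num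
      simp only [smul_eq_mul, mul_zero, zero_add, Real.exp_zero, mul_one, Real.exp_neg,
        Real.exp_log (show (0 : ℝ) < 2 by norm_num)] at hc
      rw [h4, show -(2 * Real.log 2) * x = 2 * x * -Real.log 2 by ring]
      linarith
    calc (1 / 4 : ℝ) = Real.exp (-(Real.log 4) * 1) := by
          rw [mul_one, Real.exp_neg, Real.exp_log (by norm_num)]; norm_num
      _ ≤ Real.exp (-(Real.log 4) * (n * x)) := by
          apply Real.exp_le_exp.2
          have : 0 ≤ Real.log 4 := Real.log_nonneg (by norm_num)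
          nlinarith
      _ = Real.exp (-(Real.log 4) * x) ^ n := by rw [← Real.exp_nat_mul]; ring_nf
      _ ≤ (1 - x) ^ n := pow_le_pow_left₀ (Real.exp_pos _).le h1 n
  refine key q hq (1 / q) (by positivity) ?_ ?_
  · exact one_div_le_one_div_of_le (by norm_num) hq'
  · rw [mul_one_div_cancel h0.ne']

omit [DecidableEq F] in
theorem alpha_ge (C : ℕ) : (1 / 4 : ℝ) ^ C ≤ alpha F C := by
  unfold alpha
  rw [mul_comm, pow_mul]
  exact pow_le_pow_left₀ (by norm_num) (one_sub_inv_pow_ge two_le_card) C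

omit [DecidableEq F] in
theorem alpha_pos (C : ℕ) : 0 < alpha F C := lt_of_lt_of_le (by positivity) (alpha_ge C)

omit [DecidableEq F] in
theorem alpha_le_one (C : ℕ) : alpha F C ≤ 1 := by
  unfold alpha
  have hq : (2 : ℝ) ≤ Fintype.card F := by exact_mod_cast two_le_card (F := F)
  have h1 : 1 / (Fintype.card F : ℝ) ≤ 1 / 2 := one_div_le_one_div_of_le (by norm_num) hq
  have h2 : 0 ≤ 1 / (Fintype.card F : ℝ) := by positivity
  exact pow_le_one₀ (by linarith) (by linarith)

end Crest.Agent.R34
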