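import Crest.Agent.R34.ClassifyAux

/-! # Row 34: the four regimes for a cover -/

set_option autoImplicit false

namespace Crest.Agent.R34

open Finset

variable {F : Type} [Field F] [Fintype F] [DecidableEq F]

/-- Let `B` (at most `q` lines) cover all points missed by `K`.  Suppose `δ = |unc B| < c q²`.
By `metsch`, `s (q - s) ≤ δ` for `x ∉ B`, `s = |unc B ∩ pts x|`, so `s ≤ 2cq` or `s ≥ (1-2c) q`
(heavy).  Heavy lines are in `K` (`hS`, disjointness inside `pts x`) and there are `h₁ ≤ 4cq` of them
(`card_dev_set_le` with `t = (1-3c) q`).  Put `B̃ = B ∪ heavy`, `T = tauB c B`, `s = sigB c B`.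
* `T ≠ ∅`: for `x ∉ B̃`, `|T ∩ pts x| ≤ 2cq`, so `metsch` for `B̃` (size `≤ q + h₁`) gives
  `|T| ≥ s q (1 - 6c) ≥ s q / 2`; counting along the `q+1` lines through a point of `T` gives
  `|T| ≤ 1 + (q+1)(s-1)`; together `q ≤ s (6cq + 1) ≤ 7 c q s`.  Third alternative.
* `T = ∅`: take a minimal `W ⊆ B̃` with `unc W = ∅`; `|W| = q + h`, `0 ≤ h ≤ h₁`, `|W ∩ K| ≥ |W \ B| ≥ h`.
  For `x ∈ W`, `unc (W.erase x)` is a nonempty subset of `pts x`, and `metsch` gives that its size is
  `≥ q - h`, so at most `h` points of `x` lie on other lines of `W`.  If `q ≤ h² + 1`: `SmallCover`.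
  Otherwise fix `x ∈ W`; the other `q + h - 1` lines are parallel to `x` or pass through one of at most
  `h` points of `x`, so one of these `≤ h + 1` classes has more than `h` lines (as `q + h - 1 > h (h+1)`).
  If it is the class of a point `O` and `thru d O ∉ W`, the `q - 1` other points of `thru d O` lie on
  distinct lines of `W` not through `O`, but there are `≤ q + h - (h + 2)` of those; the parallel class
  is similar.  So `W ⊆ B ∪ K` has a pencil. -/
theorem classify (K B : Finset (Line F)) (c : ℝ) (hc : 0 < c) (hc' : c ≤ 1 / 2000)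
    (hq : 1 ≤ c * Fintype.card F)
    (hS : ∀ x ∉ K, 2 * c * Fintype.card F < ((unc K ∩ pts x).card : ℝ))
    (hB : B.card ≤ Fintype.card F) (hcov : Disjoint (unc B) (unc K)) :
    HasPencil (B ∪ K) ∨ c * Fintype.card F * Fintype.card F ≤ ((unc B).card : ℝ) ∨
      (1 / (7 * c) ≤ (sigB c B : ℝ) ∧
        1 / 2 * Fintype.card F * (sigB c B : ℝ) ≤ ((tauB c B).card : ℝ)) ∨ SmallCover K := by
  classical
  by_cases hδ : c * Fintype.card F * Fintype.card F ≤ ((unc B).card : ℝ)
  · exact Or.inr (Or.inl hδ)
  push Not at hδ
  set q : ℝ := (Fintype.card F : ℝ) with hqdef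
  have hq0 : 0 < q := by
    have := two_le_card (F := F)
    rw [hqdef]; positivity
  have hBq : (B.card : ℝ) ≤ q := by rw [hqdef]; exact_mod_cast hB
  -- dichotomy
  have hdich : ∀ x : Line F, ((unc B ∩ pts x).card : ℝ) < (1 - 2 * c) * q →
      ((unc B ∩ pts x).card : ℝ) ≤ 2 * c * q := by
    intro x hx
    by_contra hc2
    push Not at hc2
    have h := metsch_int B x
    have h' : ((unc B ∩ pts x).card : ℝ) * (2 * q - B.card - (unc B ∩ pts x).card) ≤
        (unc B).card := by
      rw [hqdef]; exact_mod_cast h
    set s : ℝ := ((unc B ∩ pts x).card : ℝ)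
    have hs0 : 0 ≤ s := by positivity
    have h1 : s * (q - s) ≤ s * (2 * q - B.card - s) :=
      mul_le_mul_of_nonneg_left (by linarith) hs0
    have h2 : 0 ≤ (s - 2 * c * q) * ((1 - 2 * c) * q - s) :=
      mul_nonneg (by linarith) (by linarith)
    have h3 : 0 ≤ c * q * q * (1 - 4 * c) :=
      mul_nonneg (by positivity) (by linarith)
    nlinarith
  have hheavy : ∀ x, x ∈ heavy c B ↔ x ∉ B ∧ (1 - 2 * c) * q ≤ ((unc B ∩ pts x).card : ℝ) := by
    intro x; simp [heavy, hqdef]
  have hHK : heavy c B ⊆ K := by
    intro x hx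
    by_contra hxK
    have h1 := hS x hxK
    have h2 := ((hheavy x).1 hx).2
    have h3 : (unc B ∩ pts x).card + (unc K ∩ pts x).card ≤ Fintype.card F := by
      rw [← card_union_of_disjoint, ← card_pts x]
      · exact card_le_card (union_subset inter_subset_right inter_subset_right)
      · exact hcov.mono inter_subset_left inter_subset_left
    have h4 : ((unc B ∩ pts x).card : ℝ) + (unc K ∩ pts x).card ≤ q := by
      rw [hqdef]; exact_mod_cast h3
    linarith
  have hH : ((heavy c B).card : ℝ) ≤ 4 * c * q := by
    have h1 := card_dev_set_le (unc B) ((1 - 3 * c) * q) (mul_nonneg (by linarith) hq0.le)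
      (heavy c B) (by
        intro x hx
        have h2 := ((hheavy x).1 hx).2
        have h3 : ((unc B).card : ℝ) / q ≤ c * q := by
          rw [div_le_iff₀ hq0]; exact hδ.le
        refine le_trans ?_ (le_abs_self _)
        rw [← hqdef]
        linarith)
    rw [← hqdef] at h1
    have h2 : q * ((unc B).card : ℝ) ≤ q * (c * q * q) := mul_le_mul_of_nonneg_left hδ.le hq0.le
    have h3 : (1 / 4 : ℝ) * q ^ 2 ≤ ((1 - 3 * c) * q) ^ 2 := by
      rw [mul_pow]
      apply mul_le_mul_of_nonneg_right _ (by positivity)
      nlinarith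
    have h4 : ((heavy c B).card : ℝ) * ((1 / 4 : ℝ) * q ^ 2) ≤ q * (c * q * q) :=
      le_trans (mul_le_mul_of_nonneg_left h3 (by positivity)) (h1.trans h2)
    have h5 : ((heavy c B).card : ℝ) * q ^ 2 ≤ (4 * c * q) * q ^ 2 := by nlinarith
    exact le_of_mul_le_mul_right h5 (by positivity)
  have hBt : ((B ∪ heavy c B).card : ℝ) ≤ q + 4 * c * q := by
    have : ((B ∪ heavy c B).card : ℝ) ≤ B.card + (heavy c B).card := by
      exact_mod_cast card_union_le _ _
    linarith
  by_cases hT : (tauB c B).Nonempty
  · right; right; left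
    obtain ⟨x, -, hx⟩ := exists_mem_eq_sup (univ : Finset (Line F)) univ_nonempty
      (fun x : Line F => (tauB c B ∩ pts x).card)
    have hsx : sigB c B = (tauB c B ∩ pts x).card := hx
    have hle : ∀ y : Line F, (tauB c B ∩ pts y).card ≤ sigB c B := fun y =>
      le_sup (f := fun x : Line F => (tauB c B ∩ pts x).card) (mem_univ y)
    have hs2 : (sigB c B : ℝ) ≤ 2 * c * q := by
      rw [hsx]
      by_cases hxB : x ∈ B ∪ heavy c B
      · have : tauB c B ∩ pts x = ∅ := by
          apply eq_empty_of_forall_notMem
          intro X hX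
          rw [mem_inter, tauB, mem_unc, mem_pts] at hX
          exact hX.1 x hxB hX.2
        rw [this]; simp only [card_empty, Nat.cast_zero]; positivity
      · rw [mem_union, not_or, hheavy] at hxB
        have h1 : ((unc B ∩ pts x).card : ℝ) < (1 - 2 * c) * q := by
          by_contra hc2
          exact hxB.2 ⟨hxB.1, not_lt.1 hc2⟩
        refine le_trans ?_ (hdich x h1)
        have : tauB c B ∩ pts x ⊆ unc B ∩ pts x :=
          inter_subset_inter_right (unc_anti subset_union_left)
        exact_mod_cast card_le_card this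
    have hm : (sigB c B : ℝ) * (2 * q - (B ∪ heavy c B).card - sigB c B) ≤ (tauB c B).card := by
      have h := metsch_int (B ∪ heavy c B) x
      rw [hsx, hqdef]
      exact_mod_cast h
    have hs0 : (0 : ℝ) ≤ sigB c B := by positivity
    have hlow : (sigB c B : ℝ) * ((1 - 6 * c) * q) ≤ (tauB c B).card :=
      le_trans (mul_le_mul_of_nonneg_left (by linarith) hs0) hm
    obtain ⟨O, hO⟩ := hT
    have hup : (tauB c B).card + Fintype.card F ≤ (Fintype.card F + 1) * sigB c B := by
      have h1 : (tauB c B).erase O ⊆
          univ.biUnion fun d : Dir F => (tauB c B ∩ pts (thru d O)).erase O := by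
        intro X hX
        rw [mem_erase] at hX
        obtain ⟨d, hd⟩ := exists_join X O
        exact mem_biUnion.2 ⟨d, mem_univ _, mem_erase.2 ⟨hX.1, mem_inter.2 ⟨hX.2, mem_pts.2 hd⟩⟩⟩
      have h2 : (univ.biUnion fun d : Dir F => (tauB c B ∩ pts (thru d O)).erase O).card ≤
          (univ : Finset (Dir F)).card * (sigB c B - 1) := by
        apply card_biUnion_le_card_mul
        intro d _
        rw [card_erase_of_mem (mem_inter.2 ⟨hO, mem_pts.2 rfl⟩)]
        have := hle (thru d O)
        omega
      have h3 := (card_le_card h1).trans h2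
      rw [card_erase_of_mem hO, card_univ, card_dir] at h3
      have h4 : 1 ≤ sigB c B := by
        refine le_trans ?_ (hle (thru none O))
        exact card_pos.2 ⟨O, mem_inter.2 ⟨hO, mem_pts.2 rfl⟩⟩
      have h5 : 1 ≤ (tauB c B).card := card_pos.2 ⟨O, hO⟩
      obtain ⟨s, hs⟩ := Nat.exists_eq_add_of_le h4
      rw [hs] at h3 ⊢
      rw [Nat.add_sub_cancel_left] at h3
      rw [mul_add]
      omega
    have hup' : ((tauB c B).card : ℝ) + q ≤ (q + 1) * sigB c B := by
      rw [hqdef]; exact_mod_cast hup
    constructor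
    · rw [div_le_iff₀ (by positivity)]
      have h1 : q ≤ (sigB c B : ℝ) * (7 * c * q) := by nlinarith
      have h2 : 1 * q ≤ ((sigB c B : ℝ) * (7 * c)) * q := by linarith
      exact le_of_mul_le_mul_right h2 hq0
    · refine le_trans ?_ hlow
      have : 1 / 2 * q ≤ (1 - 6 * c) * q := mul_le_mul_of_nonneg_right (by linarith) hq0.le
      nlinarith
  · rw [not_nonempty_iff_eq_empty] at hT
    obtain ⟨W, hWsub, hW, hmin⟩ := exists_minimal_subcover (B ∪ heavy c B) hT
    have hWq := card_le_of_cover W hW
    obtain ⟨h, hh⟩ := Nat.exists_eq_add_of_le hWq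
    have hWBK : W ⊆ B ∪ K := hWsub.trans (union_subset_union_right hHK)
    by_cases hsm : Fintype.card F ≤ h ^ 2 + 1
    · right; right; right
      refine ⟨W, h, hh, hsm, ?_, hW, ?_, ?_⟩
      · have h1 : (W.card : ℝ) ≤ (B ∪ heavy c B).card := by exact_mod_cast card_le_card hWsub
        have h2 : (W.card : ℝ) = q + h := by rw [hh, hqdef]; push_cast; ring
        have h3 : 4 * c * q ≤ 4 * (1 / 2000) * q :=
          mul_le_mul_of_nonneg_right (by linarith) hq0.le
        have h4 : (500 * h : ℝ) ≤ q := by linarith
        rw [hqdef] at h4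
        exact_mod_cast h4
      · intro x hx
        have h1 := private_points W hW x hx (hmin x hx)
        have h2 : ((pts x).filter fun X => ∃ y ∈ W, y ≠ x ∧ co y.1 X = y.2).card +
            (unc (W.erase x)).card ≤ Fintype.card F := by
          rw [← card_union_of_disjoint, ← card_pts x]
          · apply card_le_card
            apply union_subset (filter_subset _ _)
            intro P hP
            rw [mem_pts]
            by_contra hc2
            have : P ∈ unc W := by
              rw [mem_unc] at hP ⊢
              intro l hl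
              by_cases hlm : l = x
              · rw [hlm]; exact hc2
              · exact hP l (mem_erase.2 ⟨hlm, hl⟩)
            rw [hW] at this
            exact notMem_empty _ this
          · rw [disjoint_left]
            intro P hP hP'
            obtain ⟨y, hy, hyx, hyP⟩ := (mem_filter.1 hP).2
            exact mem_unc.1 hP' y (mem_erase.2 ⟨hyx, hy⟩) hyP
        omega
      · have h1 : W ⊆ B ∪ (W ∩ K) := by
          intro x hx
          rcases mem_union.1 (hWBK hx) with h2 | h2
          · exact mem_union_left _ h2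
          · exact mem_union_right _ (mem_inter.2 ⟨hx, h2⟩)
        have h2 := (card_le_card h1).trans (card_union_le _ _)
        omega
    · left
      by_contra hp
      unfold HasPencil at hp
      push Not at hp
      have hq2 := two_le_card (F := F)
      obtain ⟨m, hm⟩ : W.Nonempty := card_pos.1 (by omega)
      have := bruen_of_essential W hW h hh m hm (hmin m hm)
        (fun d => (hp.2 d).imp fun t ht hc2 => ht (hWBK hc2))
        (fun X => (hp.1 X).imp fun t ht hc2 => ht (hWBK hc2))
      omega

end Crest.Agent.R34
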