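import Crest.Agent.R34.Metsch

/-! # Row 34: minimal covers of the affine plane (private points, Bruen's bound) -/

set_option autoImplicit false

namespace Crest.Agent.R34

open Finset

variable {F : Type} [Field F] [Fintype F] [DecidableEq F]

theorem co_unique {P Q : Pt F} (hPQ : P ≠ Q) {d e : Dir F} (hd : co d P = co d Q)
    (he : co e P = co e Q) : d = e := by
  by_contra hde
  exact hPQ (co_inj hde hd he)

theorem card_filter_co (d : Dir F) (t : F) :
    (univ.filter (fun P : Pt F => co d P = t)).card = Fintype.card F := card_pts (d, t)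

/-- If `B` covers the plane and `m ∈ B` is essential, then `m` has at least `2q - |B|` private
points (`= q - h` for `|B| = q + h`). -/
theorem private_points (B : Finset (Line F)) (hB : unc B = ∅) (m : Line F)
    (hm : m ∈ B) (hne : (unc (B.erase m)).Nonempty) :
    2 * Fintype.card F ≤ B.card + (unc (B.erase m)).card := by
  have h := metsch_int (B.erase m) m
  have h1 : unc (B.erase m) ∩ pts m = unc (B.erase m) := by
    apply inter_eq_left.2
    intro P hP
    rw [mem_pts]
    by_contra hc
    have : P ∈ unc B := by
      rw [mem_unc] at hP ⊢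
      intro l hl
      by_cases hlm : l = m
      · rw [hlm]; exact hc
      · exact hP l (mem_erase.2 ⟨hlm, hl⟩)
    rw [hB] at this
    exact notMem_empty _ this
  rw [h1, card_erase_of_mem hm] at h
  have h2 : 0 < (unc (B.erase m)).card := card_pos.2 hne
  have h3 : 0 < B.card := card_pos.2 ⟨m, hm⟩
  rw [Nat.cast_sub h3] at h
  have h4 : (2 * Fintype.card F - ((B.card : ℤ) - (1 : ℕ)) - (unc (B.erase m)).card : ℤ) ≤ 1 := by
    by_contra hc
    push Not at hc
    have : (0 : ℤ) < (unc (B.erase m)).card := by exact_mod_cast h2
    nlinarith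
  omega

/-- In a cover missing a line of direction `d`, at least `q` lines have another direction. -/
theorem card_dir_le (B : Finset (Line F)) (hB : unc B = ∅) (d : Option F) (t : F)
    (hd : (d, t) ∉ B) :
    (B.filter (fun l => l.1 = d)).card + Fintype.card F ≤ B.card := by
  have h1 : ∀ P : Pt F, ∃ l ∈ B, co l.1 P = l.2 := by
    intro P
    by_contra hc
    push Not at hc
    have : P ∈ unc B := mem_unc.2 hc
    rw [hB] at this
    exact notMem_empty _ this
  choose g hg hg' using h1
  have h2 : (univ.filter (fun P : Pt F => co d P = t)).card ≤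
      (B.filter (fun l => ¬ l.1 = d)).card := by
    apply card_le_card_of_injOn g
    · intro P hP
      have hP : co d P = t := by simpa using hP
      simp only [coe_filter, Set.mem_ofPred_eq]
      refine ⟨hg P, fun h => hd ?_⟩
      have := hg' P
      rw [h, hP] at this
      have h3 : g P = (d, t) := Prod.ext h this.symm
      rw [← h3]; exact hg P
    · intro P hP Q hQ h
      have hP : co d P = t := by simpa using hP
      have hQ : co d Q = t := by simpa using hQ
      by_contra hPQ
      have h3 : co (g P).1 P = co (g P).1 Q := by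
        rw [hg' P, h, hg' Q]
      have h4 := co_unique hPQ h3 (hP.trans hQ.symm)
      apply hd
      have := hg' P
      rw [h4, hP] at this
      have h5 : g P = (d, t) := Prod.ext h4 this.symm
      rw [← h5]; exact hg P
  rw [card_filter_co] at h2
  have := card_filter_add_card_filter_not (s := B) (fun l => l.1 = d)
  omega

/-- In a cover missing a line through `X`, at least `q - 1` lines avoid `X`. -/
theorem card_thru_le (B : Finset (Line F)) (hB : unc B = ∅) (X : Pt F) (d : Option F)
    (hd : (d, co d X) ∉ B) :
    (B.filter (fun l => co l.1 X = l.2)).card + Fintype.card F ≤ B.card + 1 := by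
  have h1 : ∀ P : Pt F, ∃ l ∈ B, co l.1 P = l.2 := by
    intro P
    by_contra hc
    push Not at hc
    have : P ∈ unc B := mem_unc.2 hc
    rw [hB] at this
    exact notMem_empty _ this
  choose g hg hg' using h1
  have hgd : ∀ P, co d P = co d X → (g P).1 ≠ d := by
    intro P hP h
    apply hd
    have := hg' P
    rw [h, hP] at this
    have h3 : g P = (d, co d X) := Prod.ext h this.symm
    rw [← h3]; exact hg P
  have h2 : ((univ.filter (fun P : Pt F => co d P = co d X)).erase X).card ≤
      (B.filter (fun l => ¬ co l.1 X = l.2)).card := by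
    apply card_le_card_of_injOn g
    · intro P hP
      have hP : P ≠ X ∧ co d P = co d X := by simpa [and_comm] using hP
      simp only [coe_filter, Set.mem_ofPred_eq]
      refine ⟨hg P, fun h => hgd P hP.2 ?_⟩
      exact co_unique hP.1 ((hg' P).trans h.symm) hP.2
    · intro P hP Q hQ h
      have hP : P ≠ X ∧ co d P = co d X := by simpa [and_comm] using hP
      have hQ : Q ≠ X ∧ co d Q = co d X := by simpa [and_comm] using hQ
      by_contra hPQ
      have h3 : co (g P).1 P = co (g P).1 Q := by
        rw [hg' P, h, hg' Q]
      exact hgd P hP.2 (co_unique hPQ h3 (hP.2.trans hQ.2.symm))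
  rw [card_erase_of_mem (by simp), card_filter_co] at h2
  have := card_filter_add_card_filter_not (s := B) (fun l => co l.1 X = l.2)
  have h3 : 0 < Fintype.card F := Fintype.card_pos
  omega

/-- **Bruen's bound**, version with an essential line: a cover by `q + h` lines with an essential
line `m`, containing no parallel class and no pencil, has `q ≤ h ^ 2`. -/
theorem bruen_of_essential (B : Finset (Line F)) (hB : unc B = ∅) (h : ℕ)
    (hcard : B.card = Fintype.card F + h) (m : Line F) (hm : m ∈ B)
    (hne : (unc (B.erase m)).Nonempty)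
    (hpar : ∀ d : Option F, ∃ t, (d, t) ∉ B) (hpen : ∀ X : Pt F, ∃ d, (d, co d X) ∉ B) :
    Fintype.card F ≤ h ^ 2 := by
  have hpriv := private_points B hB m hm hne
  -- non-private points of `m`
  set N := (univ.filter (fun P : Pt F => co m.1 P = m.2)) \ unc (B.erase m) with hN
  have hsub : unc (B.erase m) ⊆ univ.filter (fun P : Pt F => co m.1 P = m.2) := by
    intro P hP
    simp only [mem_filter, mem_univ, true_and]
    by_contra hc
    have : P ∈ unc B := by
      rw [mem_unc] at hP ⊢
      intro l hl
      by_cases hlm : l = m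
      · rw [hlm]; exact hc
      · exact hP l (mem_erase.2 ⟨hlm, hl⟩)
    rw [hB] at this
    exact notMem_empty _ this
  have hNc : N.card ≤ h := by
    rw [hN, card_sdiff_of_subset hsub, card_filter_co]
    omega
  have hcov : B ⊆ B.filter (fun l => l.1 = m.1) ∪
      N.biUnion (fun X => (B.filter (fun l => co l.1 X = l.2)).erase m) := by
    intro l hl
    by_cases hd : l.1 = m.1
    · exact mem_union_left _ (mem_filter.2 ⟨hl, hd⟩)
    · apply mem_union_right
      obtain ⟨X, hX1, hX2⟩ := exists_meet hd l.2 m.2
      have hlm : l ≠ m := fun h => hd (by rw [h])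
      refine mem_biUnion.2 ⟨X, ?_, mem_erase.2 ⟨hlm, mem_filter.2 ⟨hl, hX1⟩⟩⟩
      rw [hN, mem_sdiff]
      refine ⟨by simpa using hX2, fun hc => ?_⟩
      exact mem_unc.1 hc l (mem_erase.2 ⟨hlm, hl⟩) hX1
  have h1 : (B.filter (fun l => l.1 = m.1)).card ≤ h := by
    obtain ⟨t, ht⟩ := hpar m.1
    have := card_dir_le B hB m.1 t ht
    omega
  have h2 : (N.biUnion (fun X => (B.filter (fun l => co l.1 X = l.2)).erase m)).card ≤
      N.card * h := by
    apply card_biUnion_le_card_mul
    intro X hX
    obtain ⟨d, hd⟩ := hpen X
    have h3 := card_thru_le B hB X d hd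
    have hX' : co m.1 X = m.2 := by
      rw [hN, mem_sdiff] at hX
      simpa using hX.1
    rw [card_erase_of_mem (mem_filter.2 ⟨hm, hX'⟩)]
    omega
  have h3 := (card_le_card hcov).trans (card_union_le _ _)
  have h4 : N.card * h ≤ h * h := Nat.mul_le_mul_right _ hNc
  rw [sq]
  omega

/-- Every cover contains a minimal subcover. -/
lemma exists_minimal_subcover (B : Finset (Line F)) (hB : unc B = ∅) :
    ∃ B' ⊆ B, unc B' = ∅ ∧ ∀ m ∈ B', (unc (B'.erase m)).Nonempty := by
  obtain ⟨B', hB', hmin⟩ := exists_min_image (B.powerset.filter (fun B' => unc B' = ∅))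
    Finset.card ⟨B, by simp [hB]⟩
  rw [mem_filter, mem_powerset] at hB'
  refine ⟨B', hB'.1, hB'.2, fun m hm => ?_⟩
  rw [nonempty_iff_ne_empty]
  intro hc
  have := hmin (B'.erase m)
    (mem_filter.2 ⟨mem_powerset.2 ((erase_subset _ _).trans hB'.1), hc⟩)
  rw [card_erase_of_mem hm] at this
  have : 0 < B'.card := card_pos.2 ⟨m, hm⟩
  omega

/-- A cover has at least `q` lines. -/
lemma card_le_of_cover (B : Finset (Line F)) (hB : unc B = ∅) :
    Fintype.card F ≤ B.card := by
  by_cases h : ∀ t, ((none : Option F), t) ∈ B
  · calc Fintype.card F = (univ.image (fun t : F => ((none : Option F), t))).card := by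
          rw [card_image_of_injective _ (fun a b h => (Prod.ext_iff.1 h).2), card_univ]
      _ ≤ B.card := card_le_card (by
          intro l hl
          obtain ⟨t, _, rfl⟩ := mem_image.1 hl
          exact h t)
  · push Not at h
    obtain ⟨t, ht⟩ := h
    have := card_dir_le B hB none t ht
    omega

/-- **Bruen's bound**: a cover of `AG(2,q)` by at most `q + h` lines containing no parallel class
and no pencil has `q ≤ h ^ 2`. -/
theorem bruen (B : Finset (Line F)) (hB : unc B = ∅) (h : ℕ)
    (hcard : B.card ≤ Fintype.card F + h)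
    (hpar : ∀ d : Option F, ∃ t, (d, t) ∉ B) (hpen : ∀ X : Pt F, ∃ d, (d, co d X) ∉ B) :
    Fintype.card F ≤ h ^ 2 := by
  obtain ⟨B', hsub, hB', hmin⟩ := exists_minimal_subcover B hB
  have h1 := card_le_of_cover B' hB'
  have h2 : 0 < Fintype.card F := Fintype.card_pos
  obtain ⟨m, hm⟩ : B'.Nonempty := card_pos.1 (by omega)
  have h3 := card_le_card hsub
  have h4 := bruen_of_essential B' hB' (B'.card - Fintype.card F) (by omega) m hm (hmin m hm)
    (fun d => (hpar d).imp fun t ht hc => ht (hsub hc))
    (fun X => (hpen X).imp fun t ht hc => ht (hsub hc))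
  exact h4.trans (Nat.pow_le_pow_left (by omega) 2)

end Crest.Agent.R34
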