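import Mathlib

/-!
# Row 34 (Ryser's conjecture fails for intersecting hypergraphs): definitions

Affine plane over a finite field `F` (`q = |F|`): points `F × F`, directions `Option F`,
lines `(d, c) = {X | co d X = c}`.  A random configuration `ω` chooses `C` lines in every
direction; `KK ω` is the set of these lines and `unc (KK ω)` the set of points missed by them.
-/

set_option autoImplicit false

namespace Crest.Agent.R34

open Finset

/-- Points of the affine plane. -/
abbrev Pt (F : Type) := F × F
/-- Directions (`none` is vertical, `some m` is slope `m`). -/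
abbrev Dir (F : Type) := Option F
/-- Lines: a direction and an offset. -/
abbrev Line (F : Type) := Option F × F
/-- Random variables: `C` lines per direction; index `0` is the main line. -/
abbrev Var (F : Type) (C : ℕ) := Option F × Fin C
/-- Configurations: an offset for every variable. -/
abbrev Conf (F : Type) (C : ℕ) := Var F C → F

/-- Number of elements of a finite type with a property. -/
noncomputable def cnt {Ω : Type} [Fintype Ω] (p : Ω → Prop) : ℕ := by
  classical exact (univ.filter p).card

/-- A family of events (one for every finite field) whose probability tends to `0`. -/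
def Rare (C : ℕ)
    (bad : ∀ (F : Type) [Field F] [Fintype F] [DecidableEq F], Conf F C → Prop) : Prop :=
  ∀ ε : ℝ, 0 < ε → ∃ q₀ : ℕ, ∀ (F : Type) [Field F] [Fintype F] [DecidableEq F],
    q₀ ≤ Fintype.card F → (cnt (bad F) : ℝ) ≤ ε * Fintype.card (Conf F C)

/-- Average number of exceptional steps when the elements of `B` (of size `n`) are revealed in a
uniformly random order and the container `Γ B'` is expected to contain the next element. -/
noncomputable def Phi {L : Type} [DecidableEq L] (Γ : Finset L → Finset L) : ℕ → Finset L → ℝ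
  | 0, _ => 0
  | n + 1, B =>
      (∑ x ∈ B, (Phi Γ n (B.erase x) + if x ∈ Γ (B.erase x) then 0 else 1)) / (n + 1)

variable {F : Type} [Field F] [Fintype F] [DecidableEq F]

/-- Offset of the line through `X` in direction `d`. -/
def co : Dir F → Pt F → F
  | none, X => X.1
  | some m, X => X.2 - m * X.1

/-- The line through `X` in direction `d`. -/
def thru (d : Dir F) (X : Pt F) : Line F := (d, co d X)

/-- The points of a line. -/
def pts (x : Line F) : Finset (Pt F) := univ.filter fun X => co x.1 X = x.2

/-- The points on none of the lines of `B`. -/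
def unc (B : Finset (Line F)) : Finset (Pt F) := univ.filter fun X => ∀ x ∈ B, co x.1 X ≠ x.2

/-- The common point of two lines (junk for parallel lines). -/
noncomputable def meet (x y : Line F) : Pt F :=
  @Classical.epsilon (Pt F) ⟨(0, 0)⟩ fun X => co x.1 X = x.2 ∧ co y.1 X = y.2

/-- `W` contains all lines through an affine point or all lines of a direction. -/
def HasPencil (W : Finset (Line F)) : Prop :=
  (∃ O : Pt F, ∀ d, thru d O ∈ W) ∨ (∃ d : Dir F, ∀ c : F, (d, c) ∈ W)

/-- Lines outside `B` almost all of whose points are missed by `B`. -/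
noncomputable def heavy (c : ℝ) (B : Finset (Line F)) : Finset (Line F) := by
  classical
  exact univ.filter fun x =>
    x ∉ B ∧ (1 - 2 * c) * Fintype.card F ≤ ((unc B ∩ pts x).card : ℝ)

/-- Points missed by `B` and by the heavy lines. -/
noncomputable def tauB (c : ℝ) (B : Finset (Line F)) : Finset (Pt F) := unc (B ∪ heavy c B)

/-- Largest number of points of `tauB c B` on a line. -/
noncomputable def sigB (c : ℝ) (B : Finset (Line F)) : ℕ :=
  univ.sup fun x : Line F => (tauB c B ∩ pts x).card

/-- A small non-trivial cover of the plane with many lines in `K`. -/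
def SmallCover (K : Finset (Line F)) : Prop :=
  ∃ (W : Finset (Line F)) (h : ℕ), W.card = Fintype.card F + h ∧ Fintype.card F ≤ h ^ 2 + 1 ∧
    500 * h ≤ Fintype.card F ∧ unc W = ∅ ∧
    (∀ x ∈ W, ((pts x).filter fun X => ∃ y ∈ W, y ≠ x ∧ co y.1 X = y.2).card ≤ h) ∧
    h ≤ (W ∩ K).card

/-- `X` lies on at most one line of `K`. -/
def Single (K : Finset (Line F)) (X : Pt F) : Prop :=
  ∀ e e', thru e X ∈ K → thru e' X ∈ K → e = e'

/-- Two special points on a line of `K` in every direction `d`, each lying on exactly ten further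
lines of `K`, no line of `K` containing special points of two different directions. -/
structure Special (K : Finset (Line F)) where
  sp : Dir F → Bool → Pt F
  dir : Dir F → Bool → Fin 10 → Dir F
  sp_line : ∀ d, co d (sp d true) = co d (sp d false)
  sp_ne : ∀ d, sp d false ≠ sp d true
  dir_ne : ∀ d ε a, dir d ε a ≠ d
  dir_inj : ∀ d ε, Function.Injective (dir d ε)
  dir_ne' : ∀ d a, dir d false a ≠ dir d true a
  mem_K : ∀ d ε e, thru e (sp d ε) ∈ K ↔ e = d ∨ ∃ a, e = dir d ε a
  disj : ∀ d ε d' ε' e, d ≠ d' → co e (sp d ε) = co e (sp d' ε') → thru e (sp d ε) ∉ K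

/-- The grid point: `a`-th auxiliary line through `sp d ε` meets the parallel through `P` to the
`b`-th auxiliary line. -/
noncomputable def vpt {K : Finset (Line F)} (Sp : Special K) (d : Dir F) (ε : Bool)
    (a b : Fin 10) (P : Pt F) : Pt F :=
  meet (thru (Sp.dir d ε a) (Sp.sp d ε)) (thru (Sp.dir d ε b) P)

/-- The points marked by the gadget of direction `d` with parameters `P`. -/
noncomputable def gmark {K : Finset (Line F)} (Sp : Special K) (d : Dir F) (P : Fin 10 → Pt F) :
    Finset (Pt F) :=
  univ.image P ∪ (univ.filter fun t : Bool × Fin 10 × Fin 10 => t.2.1 ≠ t.2.2).image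
    fun t => vpt Sp d t.1 t.2.1 t.2.2 (P t.2.2)

/-- Good parameters for the gadget of direction `d`. -/
structure GoodTuple {K : Finset (Line F)} (Sp : Special K) (d : Dir F) (P : Fin 10 → Pt F) :
    Prop where
  line : ∀ b, co d (P b) = co d (Sp.sp d false)
  inj : Function.Injective P
  ne : ∀ b ε, P b ≠ Sp.sp d ε
  single : ∀ X ∈ gmark Sp d P, Single K X
  on : ∀ X ∈ gmark Sp d P, ∃ ε e, co e X = co e (Sp.sp d ε) ∧ thru e X ∈ K
  nine : ∀ ε e, thru e (Sp.sp d ε) ∈ K → 9 ≤ (gmark Sp d P ∩ pts (thru e (Sp.sp d ε))).card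
  row : ∀ ε, ∀ X ∈ gmark Sp d P, ∀ e, co e X = co e (Sp.sp d ε) → thru e X ∈ K →
    ∃ b, co (Sp.dir d ε b) X = co (Sp.dir d ε b) (P b)
  rigid : ∀ ε (Cv : Finset (Line F)), Cv.card ≤ 10 →
    (∀ X ∈ gmark Sp d P, ∀ e, co e X = co e (Sp.sp d ε) → thru e X ∈ K →
      ∃ y ∈ Cv, co y.1 X = y.2) →
    ∀ b, thru (Sp.dir d ε b) (P b) ∈ Cv

/-- Everything needed to build the hypergraph: special points, gadget parameters and the set `M`
of marked points. -/
structure Design (K : Finset (Line F)) extends Special K where
  P : Dir F → Fin 10 → Pt F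
  M : Finset (Pt F)
  P_line : ∀ d b, co d (P d b) = co d (sp d false)
  P_inj : ∀ d, Function.Injective (P d)
  P_ne : ∀ d b ε, P d b ≠ sp d ε
  nine : ∀ x ∈ K, 9 ≤ (M ∩ pts x).card
  row : ∀ d ε, ∀ X ∈ M, ∀ e, co e X = co e (sp d ε) → thru e X ∈ K →
    ∃ b, co (dir d ε b) X = co (dir d ε b) (P d b)
  rigid : ∀ d ε (Cv : Finset (Line F)), Cv.card ≤ 10 →
    (∀ X ∈ M, ∀ e, co e X = co e (sp d ε) → thru e X ∈ K → ∃ y ∈ Cv, co y.1 X = y.2) →
    ∀ b, thru (dir d ε b) (P d b) ∈ Cv
  gen_aff : ∀ O : Pt F, (∀ d ε, O ≠ sp d ε) → ∀ y : Line F, co y.1 O ≠ y.2 →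
    ((M ∩ pts y).filter fun X => ∃ e, co e X = co e O ∧ thru e O ∈ K).card ≤ 8
  gen_inf : ∀ (d : Dir F) (y : Line F), y.1 ≠ d →
    ((M ∩ pts y).filter fun X => thru d X ∈ K).card ≤ 8

variable {C : ℕ}

/-- The lines of a configuration. -/
def KK (ω : Conf F C) : Finset (Line F) := univ.image fun v : Var F C => (v.1, ω v)

/-- The lines of each direction are distinct. -/
def Inj (ω : Conf F C) : Prop := ∀ d i j, ω (d, i) = ω (d, j) → i = j

/-- Points of `x` missed by all variables of the other directions. -/
def dS (ω : Conf F C) (x : Line F) : Finset (Pt F) :=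
  (pts x).filter fun X => ∀ v : Var F C, v.1 ≠ x.1 → ω v ≠ co v.1 X

/-- Probability that a point of a line is missed by the variables of the other directions. -/
noncomputable def alpha (F : Type) [Fintype F] (C : ℕ) : ℝ :=
  (1 - 1 / (Fintype.card F : ℝ)) ^ (C * Fintype.card F)

/-- Every line has about `alpha * q` points missed by the other directions. -/
def Reg1 (ω : Conf F C) : Prop :=
  ∀ x, |((dS ω x).card : ℝ) - alpha F C * Fintype.card F| ≤ (Fintype.card F : ℝ) ^ ((3 : ℝ) / 5)

/-- Auxiliary variables (index `≠ 0`) of direction `≠ d` whose line contains `X`. -/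
def auxHits [NeZero C] (ω : Conf F C) (d : Dir F) (X : Pt F) : Finset (Var F C) :=
  univ.filter fun v => v.1 ≠ d ∧ v.2 ≠ 0 ∧ ω v = co v.1 X

/-- Directions `≠ d` whose main line contains `X`. -/
def mainHits [NeZero C] (ω : Conf F C) (d : Dir F) (X : Pt F) : Finset (Dir F) :=
  univ.filter fun e => e ≠ d ∧ ω (e, 0) = co e X

/-- Candidates for special points (when `x` is a main line). -/
def N1 [NeZero C] (ω : Conf F C) (x : Line F) : Finset (Pt F) :=
  (pts x).filter fun X => (mainHits ω x.1 X).card = 0 ∧ (auxHits ω x.1 X).card = 10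

/-- Contains the candidates lying on `x` (when `x` is an auxiliary line). -/
def N2 [NeZero C] (ω : Conf F C) (x : Line F) : Finset (Pt F) :=
  (pts x).filter fun X => (mainHits ω x.1 X).card = 1 ∧ (auxHits ω x.1 X).card = 9

/-- Many candidates compared with the conflicts. -/
def Reg2 [NeZero C] (ω : Conf F C) : Prop :=
  ∀ x x', 80 * (N2 ω x').card < (N1 ω x).card

/-- For twenty projections of a line `x₀` onto lines, a positive fraction of the points of `x₀`
has all its projections on no other line of the configuration. -/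
def Reg3 (ω : Conf F C) (β : ℝ) : Prop :=
  ∀ (x₀ : Line F) (G : Bool × Fin 10 → Line F × Dir F),
    (∀ a, (G a).2 ≠ x₀.1 ∧ (G a).2 ≠ (G a).1.1) →
    β * Fintype.card F ≤ (((pts x₀).filter fun P => ∀ a, ∀ y ∈ KK ω,
      co y.1 (meet (G a).1 (thru (G a).2 P)) = y.2 → y = (G a).1).card : ℝ)

/-- Few concurrent five-tuples. -/
def Reg4 (ω : Conf F C) (δ : ℝ) : Prop :=
  (cnt (fun p : Pt F × (Fin 5 → Var F C) =>
    Function.Injective p.2 ∧ ∀ i, ω (p.2 i) = co (p.2 i).1 p.1) : ℝ) ≤
      δ * (Fintype.card F : ℝ) ^ 3

/-- Signed weight of a point, computed from the variables outside `I`. -/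
noncomputable def wgt (I : Finset (Var F C)) (ω : Conf F C) (X : Pt F) : ℝ :=
  (-1 / (4 * (C : ℝ) - 1)) ^ (univ.filter fun v : Var F C => v ∉ I ∧ ω v = co v.1 X).card

/-- The container: lines on which the weight of the points covered by `B'` is atypical. -/
noncomputable def Gam (I : Finset (Var F C)) (ω : Conf F C) (B' : Finset (Line F)) :
    Finset (Line F) := by
  classical
  exact univ.filter fun x =>
    alpha F C * B'.card / 4 <
      |∑ X ∈ pts x \ unc B', wgt I ω X - (∑ X ∈ (unc B')ᶜ, wgt I ω X) / Fintype.card F|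

/-- Points of `T` missed by the variables outside `I`. -/
def rest (I : Finset (Var F C)) (ω : Conf F C) (T : Finset (Pt F)) : Finset (Pt F) :=
  T.filter fun X => ∀ v : Var F C, v ∉ I → ω v ≠ co v.1 X

end Crest.Agent.R34
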