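import Crest.Agent.R34.Basic

/-! # Row 34: auxiliary lemmas for `exists_design` -/

set_option autoImplicit false

namespace Crest.Agent.R34.DesignEx

open Finset

/-- independence of five coordinates of a uniform element of a product -/
theorem prod_count {U α : Type} [Fintype U] [DecidableEq U] [DecidableEq α] (Val : U → Finset α)
    (u : Fin 5 → U) (hu : Function.Injective u) (S : Fin 5 → α → Prop) [∀ i, DecidablePred (S i)]
    (p : ℝ) (h : ∀ i, (((Val (u i)).filter (S i)).card : ℝ) ≤ p * (Val (u i)).card) :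
    (((Fintype.piFinset Val).filter fun t => ∀ i, S i (t (u i))).card : ℝ) ≤
      p ^ 5 * (Fintype.piFinset Val).card := by
  have h1 : ((Fintype.piFinset Val).filter fun t => ∀ i, S i (t (u i))) =
      Fintype.piFinset (fun w => (Val w).filter fun a => ∀ i, u i = w → S i a) := by
    ext t
    simp only [mem_filter, Fintype.mem_piFinset]
    constructor
    · rintro ⟨h1, h2⟩ w
      exact ⟨h1 w, fun i hi => hi ▸ h2 i⟩
    · intro h1
      exact ⟨fun w => (h1 w).1, fun i => (h1 (u i)).2 i rfl⟩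
  rw [h1, Fintype.card_piFinset, Fintype.card_piFinset]
  push_cast
  have h2 : p ^ 5 = ∏ w : U, (if w ∈ univ.image u then p else 1) := by
    rw [prod_ite_mem, univ_inter, prod_const, card_image_of_injective _ hu]
    simp
  rw [h2, ← prod_mul_distrib]
  refine prod_le_prod (fun _ _ => by positivity) (fun w _ => ?_)
  split_ifs with hw
  · obtain ⟨i, -, rfl⟩ := mem_image.mp hw
    refine le_trans ?_ (h i)
    exact_mod_cast card_le_card (fun a ha => by
      simp only [mem_filter] at ha ⊢; exact ⟨ha.1, ha.2 i rfl⟩)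
  · rw [one_mul]
    exact_mod_cast card_filter_le _ _

variable {F : Type} [Field F] [Fintype F] [DecidableEq F] {K : Finset (Line F)}

open Classical in
/-- the unit that owns a line -/
noncomputable def unit (Sp : Special K) (y : Line F) : Dir F ⊕ Line F :=
  if h : ∃ d ε, co y.1 (Sp.sp d ε) = y.2 then Sum.inl h.choose else Sum.inr y

theorem unit_inl {Sp : Special K} {y : Line F} {d : Dir F} (h : unit Sp y = Sum.inl d) :
    ∃ ε, co y.1 (Sp.sp d ε) = y.2 := by
  unfold unit at h
  split_ifs at h with h1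
  obtain rfl := Sum.inl.inj h
  exact h1.choose_spec

theorem unit_inr {Sp : Special K} {y x : Line F} (h : unit Sp y = Sum.inr x) : y = x := by
  unfold unit at h
  split_ifs at h with h1
  exact Sum.inr.inj h

theorem unit_eq_inl (Sp : Special K) {y : Line F} (hy : y ∈ K) {d : Dir F} {ε : Bool}
    (h : co y.1 (Sp.sp d ε) = y.2) : unit Sp y = Sum.inl d := by
  have h1 : ∃ d ε, co y.1 (Sp.sp d ε) = y.2 := ⟨d, ε, h⟩
  unfold unit
  rw [dif_pos h1]
  congr 1
  by_contra hne
  obtain ⟨ε', h2⟩ := h1.choose_spec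
  exact Sp.disj _ ε' d ε y.1 hne (h2.trans h.symm) (by rwa [thru_of_on h2])

omit [Fintype F] [DecidableEq F] in
theorem single_eq {X : Pt F} (hX : Single K X) {y z : Line F} (hy : y ∈ K) (hz : z ∈ K)
    (h1 : co y.1 X = y.2) (h2 : co z.1 X = z.2) : y = z := by
  have h3 := hX y.1 z.1 (by rwa [thru_of_on h1]) (by rwa [thru_of_on h2])
  exact Prod.ext h3 (by rw [← h1, ← h2, h3])

/-- nine points of a line `y` on lines of a pencil: five of them belong to different units -/
theorem five (Sp : Special K) (S : Finset (Pt F)) (y : Line F) (ln : Pt F → Line F)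
    (hS : 9 ≤ S.card) (h1 : ∀ X ∈ S, co y.1 X = y.2) (h2 : ∀ X ∈ S, co (ln X).1 X = (ln X).2)
    (h3 : ∀ X ∈ S, ln X ≠ y)
    (h4 : ∀ d ε, ∀ X ∈ S, ∀ X' ∈ S, co (ln X).1 (Sp.sp d ε) = (ln X).2 →
      co (ln X').1 (Sp.sp d ε) = (ln X').2 → ln X = ln X') :
    ∃ Xs : Fin 5 → Pt F, (∀ i, Xs i ∈ S) ∧ Function.Injective fun i => unit Sp (ln (Xs i)) := by
  classical
  have hinj : ∀ X ∈ S, ∀ X' ∈ S, ln X = ln X' → X = X' := fun X hX X' hX' h =>
    eq_of_on_of_ne (h3 X hX) (h2 X hX) (h1 X hX) (h ▸ h2 X' hX') (h1 X' hX')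
  have hfib : ∀ u ∈ S.image (fun X => unit Sp (ln X)),
      (S.filter fun X => unit Sp (ln X) = u).card ≤ 2 := by
    rintro (d | x) -
    · have hsub : (S.filter fun X => unit Sp (ln X) = Sum.inl d) ⊆
          (S.filter fun X => co (ln X).1 (Sp.sp d false) = (ln X).2) ∪
          (S.filter fun X => co (ln X).1 (Sp.sp d true) = (ln X).2) := by
        intro X hX
        rw [mem_filter] at hX
        obtain ⟨ε, hε⟩ := unit_inl hX.2
        cases ε
        · exact mem_union_left _ (mem_filter.mpr ⟨hX.1, hε⟩)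
        · exact mem_union_right _ (mem_filter.mpr ⟨hX.1, hε⟩)
      have hone : ∀ ε, (S.filter fun X => co (ln X).1 (Sp.sp d ε) = (ln X).2).card ≤ 1 := by
        intro ε
        rw [card_le_one]
        intro X hX X' hX'
        rw [mem_filter] at hX hX'
        exact hinj X hX.1 X' hX'.1 (h4 d ε X hX.1 X' hX'.1 hX.2 hX'.2)
      have := (card_le_card hsub).trans (card_union_le _ _)
      have := hone false
      have := hone true
      omega
    · refine le_trans (card_le_one.mpr ?_) one_le_two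
      intro X hX X' hX'
      rw [mem_filter] at hX hX'
      exact hinj X hX.1 X' hX'.1 ((unit_inr hX.2).trans (unit_inr hX'.2).symm)
  have h5 := card_le_mul_card_image S 2 hfib
  obtain ⟨f⟩ : Nonempty (Fin 5 ↪ (S.image fun X => unit Sp (ln X))) :=
    Function.Embedding.nonempty_of_card_le (by simp only [Fintype.card_fin, Fintype.card_coe]; omega)
  have h6 : ∀ i, ∃ X ∈ S, unit Sp (ln X) = (f i).1 := fun i => mem_image.mp (f i).2
  choose Xs hXs hXs' using h6
  refine ⟨Xs, hXs, fun i j hij => f.injective (Subtype.ext ?_)⟩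
  rw [← hXs', ← hXs']
  exact hij

/-- the values of a unit of the second kind -/
theorem line_unit {C : ℕ} (ω : Conf F C) (β : ℝ) (hβ : 0 < β) (hq : 20 ≤ β * Fintype.card F)
    (h3 : Reg3 ω β) (x : Line F) :
    ∃ Val : Finset (Fin 10 → Pt F), Val.Nonempty ∧
      (∀ P ∈ Val, Function.Injective P ∧ ∀ b, co x.1 (P b) = x.2 ∧ Single (KK ω) (P b)) ∧
      ∀ X, ((Val.filter fun P => X ∈ univ.image P).card : ℝ) * Fintype.card F ≤
        20 / β * Val.card := by
  obtain ⟨e, he⟩ := exists_dir_ne x.1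
  obtain ⟨W, hWc, hW⟩ : ∃ W : Finset (Pt F), β * Fintype.card F ≤ (W.card : ℝ) ∧ ∀ P ∈ W,
      co x.1 P = x.2 ∧ ∀ y ∈ KK ω, co y.1 (meet x (thru e P)) = y.2 → y = x := by
    refine ⟨_, h3 x (fun _ => (x, e)) (fun _ => ⟨he, he⟩), fun P hP => ?_⟩
    simp only [mem_filter, mem_pts] at hP
    exact ⟨hP.1, hP.2 (true, 0)⟩
  have hW' : ∀ P ∈ W, co x.1 P = x.2 ∧ Single (KK ω) P := by
    intro P hP
    have hP := hW P hP
    have hm : meet x (thru e P) = P := (eq_meet (by simpa using he.symm) hP.1 rfl).symm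
    refine ⟨hP.1, fun a b ha hb => ?_⟩
    have h1 := hP.2 _ ha (by rw [hm]; rfl)
    have h2 := hP.2 _ hb (by rw [hm]; rfl)
    exact (congrArg Prod.fst h1).trans (congrArg Prod.fst h2).symm
  set m := W.card / 10 with hm
  have hm1 : β * Fintype.card F ≤ 20 * m := by
    have h1 : W.card ≤ 10 * m + 9 := by omega
    have h2 : (W.card : ℝ) ≤ 10 * m + 9 := by exact_mod_cast h1
    linarith
  have hm0 : 0 < m := by
    have : (0 : ℝ) < m := by linarith
    exact_mod_cast this
  obtain ⟨f⟩ : Nonempty (Fin m × Fin 10 ↪ W) :=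
    Function.Embedding.nonempty_of_card_le (by simp; omega)
  let g : Fin m → Fin 10 → Pt F := fun j b => (f (j, b)).1
  have hg : ∀ j b j' b', g j b = g j' b' → j = j' ∧ b = b' := fun j b j' b' h =>
    Prod.mk.inj (f.injective (Subtype.ext h))
  refine ⟨univ.image g, ⟨g ⟨0, hm0⟩, mem_image_of_mem _ (mem_univ _)⟩, ?_, fun X => ?_⟩
  · intro P hP
    obtain ⟨j, -, rfl⟩ := mem_image.mp hP
    exact ⟨fun b b' h => (hg _ _ _ _ h).2, fun b => hW' _ (f (j, b)).2⟩
  · rw [card_image_of_injective _ (fun j j' h => (hg j 0 j' 0 (congrFun h 0)).1), card_univ,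
      Fintype.card_fin]
    have h1 : ((univ.image g).filter fun P => X ∈ univ.image P).card ≤ 1 := by
      rw [card_le_one]
      intro P hP P' hP'
      rw [mem_filter] at hP hP'
      obtain ⟨j, -, rfl⟩ := mem_image.mp hP.1
      obtain ⟨j', -, rfl⟩ := mem_image.mp hP'.1
      obtain ⟨b, -, hb⟩ := mem_image.mp hP.2
      obtain ⟨b', -, hb'⟩ := mem_image.mp hP'.2
      rw [(hg _ _ _ _ (hb.trans hb'.symm)).1]
    have h2 : (((univ.image g).filter fun P => X ∈ univ.image P).card : ℝ) ≤ 1 := by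
      exact_mod_cast h1
    have h4 : (Fintype.card F : ℝ) ≤ 20 / β * m := by
      rw [div_mul_eq_mul_div, le_div_iff₀ hβ]; linarith
    calc _ ≤ 1 * (Fintype.card F : ℝ) := mul_le_mul_of_nonneg_right h2 (by positivity)
      _ ≤ _ := by rwa [one_mul]

end Crest.Agent.R34.DesignEx
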