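import Crest.Agent.R34.Gadget
import Crest.Agent.R34.DesignExAux

/-! # Row 34: existence of a design -/

set_option autoImplicit false

namespace Crest.Agent.R34

open Finset

namespace DesignEx

variable {F : Type} [Field F] [Fintype F] [DecidableEq F]

/-- values and marks of a unit -/
structure UnitData {K : Finset (Line F)} (Sp : Special K) (A : ℝ) (u : Dir F ⊕ Line F) where
  Val : Finset (Fin 10 → Pt F)
  mark : (Fin 10 → Pt F) → Finset (Pt F)
  ne : Val.Nonempty
  prob : ∀ X, ((Val.filter fun P => X ∈ mark P).card : ℝ) ≤ A / Fintype.card F * Val.card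
  single : ∀ P ∈ Val, ∀ X ∈ mark P, Single K X ∧ ∃ z ∈ K, co z.1 X = z.2 ∧ unit Sp z = u
  nine : ∀ P ∈ Val, ∀ z ∈ K, unit Sp z = u → 9 ≤ (mark P ∩ pts z).card
  good : ∀ d, u = Sum.inl d → (∀ P ∈ Val, GoodTuple Sp d P) ∧ mark = gmark Sp d

theorem exists_unitData {C : ℕ} (ω : Conf F C) (Sp : Special (KK ω)) (β A₀ : ℝ) (hβ : 0 < β)
    (hA₀ : 0 < A₀) (hq : 20 ≤ β * Fintype.card F) (h3 : Reg3 ω β)
    (hg : ∀ d, ∃ Val : Finset (Fin 10 → Pt F), Val.Nonempty ∧ (∀ P ∈ Val, GoodTuple Sp d P) ∧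
      ∀ X, ((Val.filter fun P => X ∈ gmark Sp d P).card : ℝ) * Fintype.card F ≤ A₀ * Val.card)
    (u : Dir F ⊕ Line F) : Nonempty (UnitData Sp (A₀ + 20 / β) u) := by
  have hq0 : (0 : ℝ) < Fintype.card F := by have := two_le_card (F := F); positivity
  have hb : 0 < 20 / β := by positivity
  rcases u with d | x
  · obtain ⟨Val, h1, h2, h4⟩ := hg d
    refine ⟨⟨Val, gmark Sp d, h1, fun X => ?_, fun P hP X hX => ⟨(h2 P hP).single X hX, ?_⟩,
      fun P hP z hz hu => ?_, fun d' hd => ?_⟩⟩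
    · rw [div_mul_eq_mul_div, le_div_iff₀ hq0]
      exact (h4 X).trans (mul_le_mul_of_nonneg_right (by linarith) (by positivity))
    · obtain ⟨ε, e, h5, h6⟩ := (h2 P hP).on X hX
      exact ⟨thru e X, h6, rfl, unit_eq_inl Sp h6 h5.symm⟩
    · obtain ⟨ε, hε⟩ := unit_inl hu
      have := (h2 P hP).nine ε z.1 (by rwa [thru_of_on hε])
      rwa [thru_of_on hε] at this
    · obtain rfl := Sum.inl.inj hd
      exact ⟨h2, rfl⟩
  · by_cases hx : x ∈ KK ω ∧ unit Sp x = Sum.inr x
    · obtain ⟨Val, h1, h2, h4⟩ := line_unit ω β hβ hq h3 x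
      refine ⟨⟨Val, fun P => univ.image P, h1, fun X => ?_, fun P hP X hX => ?_,
        fun P hP z _ hu => ?_, fun d' hd => absurd hd (by simp)⟩⟩
      · rw [div_mul_eq_mul_div, le_div_iff₀ hq0]
        exact (h4 X).trans (mul_le_mul_of_nonneg_right (by linarith) (by positivity))
      · obtain ⟨b, -, rfl⟩ := mem_image.mp hX
        exact ⟨((h2 P hP).2 b).2, x, hx.1, ((h2 P hP).2 b).1, hx.2⟩
      · obtain rfl := unit_inr hu
        rw [inter_eq_left.mpr, card_image_of_injective _ (h2 P hP).1]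
        · simp
        · intro X hX
          obtain ⟨b, -, rfl⟩ := mem_image.mp hX
          exact mem_pts.mpr ((h2 P hP).2 b).1
    · refine ⟨⟨{fun _ => (0, 0)}, fun _ => ∅, singleton_nonempty _, fun X => ?_,
        fun P _ X hX => absurd hX (by simp), fun P _ z hz hu => ?_,
        fun d' hd => absurd hd (by simp)⟩⟩
      · simp only [notMem_empty, filter_false, card_empty, Nat.cast_zero]
        positivity
      · obtain rfl := unit_inr hu
        exact absurd ⟨hz, hu⟩ hx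

/-- the design obtained from a choice of values without bad events -/
theorem design_of_choice {K : Finset (Line F)} (Sp : Special K) {A : ℝ}
    (D : ∀ u, UnitData Sp A u) (t : Dir F ⊕ Line F → Fin 10 → Pt F) (ht : ∀ u, t u ∈ (D u).Val)
    (hno : ∀ (y : Line F) (ys : Fin 5 → Line F), (∀ i, ys i ∈ K) →
      ((∃ O : Pt F, ∀ i, co (ys i).1 O = (ys i).2) ∨ ∃ d, ∀ i, (ys i).1 = d) →
      (Function.Injective fun i => unit Sp (ys i)) →
      ¬ ∀ i, meet y (ys i) ∈ (D (unit Sp (ys i))).mark (t (unit Sp (ys i)))) :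
    Nonempty (Design K) := by
  classical
  set M : Finset (Pt F) := univ.biUnion fun u => (D u).mark (t u) with hM
  have hown : ∀ X ∈ M, ∀ y ∈ K, co y.1 X = y.2 → X ∈ (D (unit Sp y)).mark (t (unit Sp y)) := by
    intro X hX y hy hXy
    obtain ⟨u, -, hu⟩ := mem_biUnion.mp hX
    obtain ⟨h1, z, hz, h2, rfl⟩ := (D u).single _ (ht u) X hu
    rwa [single_eq h1 hy hz hXy h2]
  have hsub : ∀ u, (D u).mark (t u) ⊆ M := fun u X hX =>
    mem_biUnion.mpr ⟨u, mem_univ u, hX⟩
  have hG : ∀ d, GoodTuple Sp d (t (Sum.inl d)) := fun d =>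
    ((D (Sum.inl d)).good d rfl).1 _ (ht _)
  have hmk : ∀ d, (D (Sum.inl d)).mark = gmark Sp d := fun d => ((D (Sum.inl d)).good d rfl).2
  have main : ∀ (S : Finset (Pt F)) (y : Line F) (ln : Pt F → Line F),
      (∀ X ∈ S, X ∈ M ∧ co y.1 X = y.2 ∧ ln X ∈ K ∧ co (ln X).1 X = (ln X).2 ∧ ln X ≠ y) →
      (∀ d ε, ∀ X ∈ S, ∀ X' ∈ S, co (ln X).1 (Sp.sp d ε) = (ln X).2 →
        co (ln X').1 (Sp.sp d ε) = (ln X').2 → ln X = ln X') →
      ((∃ O : Pt F, ∀ X ∈ S, co (ln X).1 O = (ln X).2) ∨ ∃ d, ∀ X ∈ S, (ln X).1 = d) →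
      S.card ≤ 8 := by
    intro S y ln h1 h2 h3
    by_contra hc
    obtain ⟨Xs, h4, h5⟩ := five Sp S y ln (by omega) (fun X hX => (h1 X hX).2.1)
      (fun X hX => (h1 X hX).2.2.2.1) (fun X hX => (h1 X hX).2.2.2.2) h2
    refine hno y (fun i => ln (Xs i)) (fun i => (h1 _ (h4 i)).2.2.1) ?_ h5 (fun i => ?_)
    · rcases h3 with ⟨O, hO⟩ | ⟨d, hd⟩
      · exact Or.inl ⟨O, fun i => hO _ (h4 i)⟩
      · exact Or.inr ⟨d, fun i => hd _ (h4 i)⟩
    · obtain ⟨a1, a2, a3, a4, a5⟩ := h1 _ (h4 i)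
      have hd : y.1 ≠ (ln (Xs i)).1 := fun h => a5 (Prod.ext h.symm (by rw [← a4, ← a2, h]))
      rw [← eq_meet hd a2 a4]
      exact hown _ a1 _ a3 a4
  refine ⟨{ toSpecial := Sp, P := fun d => t (Sum.inl d), M := M, P_line := fun d => (hG d).line,
            P_inj := fun d => (hG d).inj, P_ne := fun d => (hG d).ne, nine := ?_, row := ?_,
            rigid := ?_, gen_aff := ?_, gen_inf := ?_ }⟩
  · intro x hx
    exact ((D _).nine _ (ht _) x hx rfl).trans
      (card_le_card (inter_subset_inter_right (hsub _)))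
  · intro d ε X hX e h1 h2
    have h3 := hown X hX _ h2 rfl
    rw [unit_eq_inl Sp h2 h1.symm, hmk] at h3
    exact (hG d).row ε X h3 e h1 h2
  · intro d ε Cv hCv h
    refine (hG d).rigid ε Cv hCv (fun X hX => h X (hsub (Sum.inl d) ?_))
    rwa [hmk]
  · intro O hO y hy
    have hex : ∀ X : Pt F, ∃ e, (∃ e, co e X = co e O ∧ thru e O ∈ K) →
        co e X = co e O ∧ thru e O ∈ K := fun X => by
      by_cases h : ∃ e, co e X = co e O ∧ thru e O ∈ K
      · exact ⟨h.choose, fun _ => h.choose_spec⟩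
      · exact ⟨none, fun h' => absurd h' h⟩
    choose e he using hex
    refine main _ y (fun X => thru (e X) O) ?_ ?_ (Or.inl ⟨O, fun X _ => rfl⟩)
    · intro X hX
      simp only [mem_filter, mem_inter, mem_pts] at hX
      refine ⟨hX.1.1, hX.1.2, (he X hX.2).2, (he X hX.2).1, fun h => hy ?_⟩
      rw [← h]; rfl
    · intro d ε X _ X' _ h1 h2
      by_contra hne
      exact hO d ε (eq_of_on_of_ne hne rfl rfl h1 h2)
  · intro d y hy
    refine main _ y (fun X => thru d X) ?_ ?_ (Or.inr ⟨d, fun X _ => rfl⟩)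
    · intro X hX
      simp only [mem_filter, mem_inter, mem_pts] at hX
      exact ⟨hX.1.1, hX.1.2, hX.2, rfl, fun h => hy (by rw [← h]; rfl)⟩
    · intro d' ε X _ X' _ h1 h2
      exact Prod.ext rfl (h1.symm.trans h2)

/-- few five-tuples of lines of `K` in a pencil -/
theorem exists_data {C : ℕ} (ω : Conf F C) (δ : ℝ) (h4 : Reg4 ω δ) :
    ∃ T : Finset (Fin 5 → Line F),
      (T.card : ℝ) ≤ δ * (Fintype.card F : ℝ) ^ 3 + (Fintype.card F + 1) * (C : ℝ) ^ 5 ∧
      ∀ ys : Fin 5 → Line F, (∀ i, ys i ∈ KK ω) →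
        ((∃ O : Pt F, ∀ i, co (ys i).1 O = (ys i).2) ∨ ∃ d, ∀ i, (ys i).1 = d) →
        Function.Injective ys → ys ∈ T := by
  classical
  refine ⟨(univ.filter fun p : Pt F × (Fin 5 → Var F C) =>
      Function.Injective p.2 ∧ ∀ i, ω (p.2 i) = co (p.2 i).1 p.1).image
        (fun p i => ((p.2 i).1, ω (p.2 i))) ∪
      univ.image (fun (p : Dir F × (Fin 5 → Fin C)) i => (p.1, ω (p.1, p.2 i))), ?_, ?_⟩
  · unfold Reg4 at h4
    rw [cnt_eq] at h4
    refine (Nat.cast_le.mpr (card_union_le _ _)).trans ?_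
    rw [Nat.cast_add]
    refine add_le_add ((Nat.cast_le.mpr card_image_le).trans h4)
      ((Nat.cast_le.mpr card_image_le).trans (le_of_eq ?_))
    simp
  · intro ys h1 h2 h3
    choose j hj using fun i => mem_KK.mp (h1 i)
    rcases h2 with ⟨O, hO⟩ | ⟨d, hd⟩
    · refine mem_union_left _ (mem_image.mpr ⟨(O, fun i => ((ys i).1, j i)), ?_, ?_⟩)
      · simp only [mem_filter, mem_univ, true_and]
        refine ⟨fun i i' h => h3 ?_, fun i => by rw [hj, hO]⟩
        have h5 := Prod.mk.inj h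
        exact Prod.ext h5.1 (by rw [← hj, ← hj, h5.1, h5.2])
      · funext i
        exact Prod.ext rfl (hj i)
    · refine mem_union_right _ (mem_image.mpr ⟨(d, j), mem_univ _, ?_⟩)
      funext i
      exact Prod.ext (hd i).symm (by rw [← hj, hd])

theorem numeric (A C q : ℝ) (hA : 0 < A) (hC : 0 ≤ C) (hq : 2 ≤ q) (hq' : 16 * (C ^ 5 * A ^ 5) ≤ q) :
    (q + 1) * q * ((1 / (8 * A ^ 5) * q ^ 3 + (q + 1) * C ^ 5) * (A / q) ^ 5) < 1 := by
  have hq0 : 0 < q := by linarith
  have h1 : (q + 1) * q * ((1 / (8 * A ^ 5) * q ^ 3 + (q + 1) * C ^ 5) * (A / q) ^ 5) =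
      (q + 1) / q / 8 + ((q + 1) / q) ^ 2 * (C ^ 5 * A ^ 5 / q) / q := by
    field_simp
  have h2 : (q + 1) / q ≤ 2 := by rw [div_le_iff₀ hq0]; linarith
  have h3 : C ^ 5 * A ^ 5 / q ≤ 1 / 16 := by rw [div_le_iff₀ hq0]; linarith
  have h4 : 0 ≤ (q + 1) / q := by positivity
  have h5 : ((q + 1) / q) ^ 2 ≤ 4 := by nlinarith
  have h6 : 0 ≤ C ^ 5 * A ^ 5 / q := by positivity
  have h7 : ((q + 1) / q) ^ 2 * (C ^ 5 * A ^ 5 / q) ≤ 4 * (1 / 16) :=
    mul_le_mul h5 h3 h6 (by norm_num)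
  have h8 : ((q + 1) / q) ^ 2 * (C ^ 5 * A ^ 5 / q) / q ≤ 4 * (1 / 16) :=
    (div_le_self (by positivity) (by linarith)).trans h7
  rw [h1]
  linarith

end DesignEx

open DesignEx in
/-- Units `u : Dir F ⊕ Line F`: the gadget of `d` (values `Val` from `gadget_valid`, marks `gmark`), and for a line
`x ∈ K` through no special point the injective `10`-tuples of points of `x` on no other line of `K` (`Reg3` with
constant `G`; at least `(βq - 10)^10` tuples, marks `image P`); other lines are dummy units with no marks.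
Every unit has a nonempty `Val u` and marks a given point with probability `≤ A/q`.  `unit y` for `y ∈ K` is well
defined by `disj`; a point marked by `u` is `Single` and lies on a line of `u`; at most two lines of a unit pass
through a non-special point or have a given direction (one through each special point).  Choose `t u ∈ Val u`
independently (`Fintype.piFinset`).  If a line `y` has nine marked points on lines of `K` through `O` (or of direction `d`)
these lines `y_i` are distinct, five of them belong to distinct units, and `meet y y_i` is marked by `unit y_i`.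
The number of data `(y, O, five lines)` is at most `(q²+q)(δ q³ + (q+1) C^5)` (`Reg4`; a line of `K` comes from a
variable), each occurs with probability `≤ (A/q)^5`; for `δ = 1/(8 A^5)` and large `q` the sum is `< 1`. -/
theorem exists_design (C : ℕ) (β : ℝ) (hβ : 0 < β) :
    ∃ δ : ℝ, 0 < δ ∧ ∃ q₀ : ℕ, ∀ (F : Type) [Field F] [Fintype F] [DecidableEq F],
      q₀ ≤ Fintype.card F → ∀ ω : Conf F C, Nonempty (Special (KK ω)) → Reg3 ω β → Reg4 ω δ →
        Nonempty (Design (KK ω)) := by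
  obtain ⟨A₀, hA₀, q₁, hg⟩ := gadget_valid β hβ
  set A := A₀ + 20 / β with hA
  have hA0 : 0 < A := by positivity
  refine ⟨1 / (8 * A ^ 5), by positivity,
    max q₁ (max ⌈20 / β⌉₊ ⌈16 * ((C : ℝ) ^ 5 * A ^ 5)⌉₊), ?_⟩
  intro F _ _ _ hq ω ⟨Sp⟩ h3 h4
  classical
  have hq1 : q₁ ≤ Fintype.card F := (le_max_left _ _).trans hq
  have hq2 : 20 / β ≤ Fintype.card F :=
    Nat.ceil_le.mp ((le_max_left _ _).trans ((le_max_right _ _).trans hq))
  have hq3 : 16 * ((C : ℝ) ^ 5 * A ^ 5) ≤ Fintype.card F :=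
    Nat.ceil_le.mp ((le_max_right _ _).trans ((le_max_right _ _).trans hq))
  have hq4 : (2 : ℝ) ≤ Fintype.card F := by exact_mod_cast two_le_card (F := F)
  have hD := exists_unitData ω Sp β A₀ hβ hA₀ (by rw [div_le_iff₀ hβ] at hq2; linarith) h3
    (hg F hq1 C ω Sp h3)
  have D : ∀ u, UnitData Sp A u := fun u => (hD u).some
  obtain ⟨T, hT, hT'⟩ := exists_data ω _ h4
  set Ω := Fintype.piFinset fun u => (D u).Val with hΩ
  have hΩ0 : (0 : ℝ) < Ω.card := by
    exact_mod_cast card_pos.mpr (Fintype.piFinset_nonempty.mpr fun u => (D u).ne)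
  let bad : Line F × (Fin 5 → Line F) → Finset (Dir F ⊕ Line F → Fin 10 → Pt F) := fun p =>
    Ω.filter fun t => (Function.Injective fun i => unit Sp (p.2 i)) ∧
      ∀ i, meet p.1 (p.2 i) ∈ (D (unit Sp (p.2 i))).mark (t (unit Sp (p.2 i)))
  have hbad : ∀ p, ((bad p).card : ℝ) ≤ (A / Fintype.card F) ^ 5 * Ω.card := by
    intro p
    by_cases hi : Function.Injective fun i => unit Sp (p.2 i)
    · refine le_trans ?_ (prod_count (fun u => (D u).Val) _ hi
        (fun i P => meet p.1 (p.2 i) ∈ (D (unit Sp (p.2 i))).mark P) _ (fun i => (D _).prob _))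
      refine Nat.cast_le.mpr (card_le_card fun t ht => ?_)
      rw [mem_filter] at ht ⊢
      exact ⟨ht.1, ht.2.2⟩
    · have : bad p = ∅ := filter_eq_empty_iff.mpr fun t _ h => hi h.1
      rw [this, card_empty, Nat.cast_zero]
      positivity
  have hlt : (((univ ×ˢ T).biUnion bad).card : ℝ) < Ω.card := by
    calc (((univ ×ˢ T).biUnion bad).card : ℝ) ≤ ∑ p ∈ univ ×ˢ T, ((bad p).card : ℝ) := by
          exact_mod_cast card_biUnion_le
      _ ≤ ∑ _p ∈ (univ : Finset (Line F)) ×ˢ T, (A / Fintype.card F) ^ 5 * Ω.card :=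
          sum_le_sum fun p _ => hbad p
      _ = (Fintype.card F + 1) * Fintype.card F * (T.card * (A / Fintype.card F) ^ 5) * Ω.card := by
          rw [sum_const, card_product, card_univ, card_line, nsmul_eq_mul]
          push_cast; ring
      _ ≤ (Fintype.card F + 1) * Fintype.card F * ((1 / (8 * A ^ 5) * (Fintype.card F : ℝ) ^ 3 +
            (Fintype.card F + 1) * (C : ℝ) ^ 5) * (A / Fintype.card F) ^ 5) * Ω.card := by
          gcongr
      _ < 1 * Ω.card :=
          mul_lt_mul_of_pos_right (numeric A C _ hA0 (Nat.cast_nonneg _) hq4 hq3) hΩ0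
      _ = Ω.card := one_mul _
  obtain ⟨t, ht, ht'⟩ := exists_mem_notMem_of_card_lt_card (Nat.cast_lt.mp hlt)
  refine design_of_choice Sp D t (Fintype.mem_piFinset.mp ht) (fun y ys h1 h2 h5 h6 => ht' ?_)
  refine mem_biUnion.mpr ⟨(y, ys), mem_product.mpr ⟨mem_univ _, hT' ys h1 h2 ?_⟩,
    mem_filter.mpr ⟨ht, h5, h6⟩⟩
  exact Function.Injective.of_comp (f := unit Sp) h5

end Crest.Agent.R34
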