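import Crest.Agent.R34.Basic

/-! # Row 34: good parameters for one gadget -/

set_option autoImplicit false
set_option linter.unusedSectionVars false

namespace Crest.Agent.R34

open Finset

namespace Gadget

variable {F : Type} [Field F] [Fintype F] [DecidableEq F] {K : Finset (Line F)}

/-- Direction of the column through the grid point `(a, b)`. -/
def cdir (Sp : Special K) (d : Dir F) (ε : Bool) (a b : Fin 10) : Dir F :=
  if a = b then d else Sp.dir d ε a

/-- The grid point with index `a` in row `b`. -/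
noncomputable def gp (Sp : Special K) (d : Dir F) (ε : Bool) (a b : Fin 10) (P : Pt F) : Pt F :=
  meet (thru (cdir Sp d ε a b) (Sp.sp d ε)) (thru (Sp.dir d ε b) P)

variable (Sp : Special K) (d : Dir F)

theorem sp_co (ε : Bool) : co d (Sp.sp d ε) = co d (Sp.sp d false) := by
  cases ε
  · rfl
  · exact Sp.sp_line d

theorem cdir_ne (ε : Bool) (a b : Fin 10) : cdir Sp d ε a b ≠ Sp.dir d ε b := by
  unfold cdir
  split_ifs with h
  · exact (Sp.dir_ne d ε b).symm
  · exact fun e => h (Sp.dir_inj d ε e)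

theorem cdir_inj (ε : Bool) {a a' b : Fin 10} (h : cdir Sp d ε a b = cdir Sp d ε a' b) :
    a = a' := by
  unfold cdir at h
  split_ifs at h with h1 h2 h2
  · rw [h1, h2]
  · exact absurd h.symm (Sp.dir_ne d ε a')
  · exact absurd h (Sp.dir_ne d ε a)
  · exact Sp.dir_inj d ε h

theorem cdir_mem (ε : Bool) (a b : Fin 10) : thru (cdir Sp d ε a b) (Sp.sp d ε) ∈ K := by
  rw [Sp.mem_K]
  unfold cdir
  split_ifs with h
  · exact Or.inl rfl
  · exact Or.inr ⟨a, rfl⟩

theorem gp_col (ε : Bool) (a b : Fin 10) (P : Pt F) :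
    co (cdir Sp d ε a b) (gp Sp d ε a b P) = co (cdir Sp d ε a b) (Sp.sp d ε) :=
  meet_left (x := thru (cdir Sp d ε a b) (Sp.sp d ε)) (y := thru (Sp.dir d ε b) P)
    (cdir_ne Sp d ε a b)

theorem gp_row (ε : Bool) (a b : Fin 10) (P : Pt F) :
    co (Sp.dir d ε b) (gp Sp d ε a b P) = co (Sp.dir d ε b) P :=
  meet_right (x := thru (cdir Sp d ε a b) (Sp.sp d ε)) (y := thru (Sp.dir d ε b) P)
    (cdir_ne Sp d ε a b)

theorem gp_self (ε : Bool) (b : Fin 10) {P : Pt F} (hP : co d P = co d (Sp.sp d false)) :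
    gp Sp d ε b b P = P := by
  refine co_inj (Sp.dir_ne d ε b) (gp_row Sp d ε b b P) ?_
  have h := gp_col Sp d ε b b P
  simp only [cdir, if_true] at h
  rw [h, hP, sp_co]

theorem gp_vpt (ε : Bool) {a b : Fin 10} (h : a ≠ b) (P : Pt F) :
    gp Sp d ε a b P = vpt Sp d ε a b P := by
  simp only [gp, vpt, cdir, h, if_false]

theorem gp_inj (ε : Bool) (a b : Fin 10) {P P' : Pt F} (hP : co d P = co d (Sp.sp d false))
    (hP' : co d P' = co d (Sp.sp d false)) (h : gp Sp d ε a b P = gp Sp d ε a b P') : P = P' :=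
  co_inj (Sp.dir_ne d ε b) (by rw [← gp_row Sp d ε a b P, h, gp_row]) (by rw [hP, hP'])

theorem mem_gmark {P : Fin 10 → Pt F} (hP : ∀ b, co d (P b) = co d (Sp.sp d false)) {X : Pt F} :
    X ∈ gmark Sp d P ↔ ∃ ε a b, X = gp Sp d ε a b (P b) := by
  simp only [gmark, mem_union, mem_image, mem_univ, true_and, mem_filter]
  constructor
  · rintro (⟨b, rfl⟩ | ⟨⟨ε, a, b⟩, h, rfl⟩)
    · exact ⟨false, b, b, (gp_self Sp d false b (hP b)).symm⟩
    · exact ⟨ε, a, b, (gp_vpt Sp d ε h _).symm⟩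
  · rintro ⟨ε, a, b, rfl⟩
    by_cases h : a = b
    · subst h
      exact Or.inl ⟨a, (gp_self Sp d ε a (hP a)).symm⟩
    · exact Or.inr ⟨(ε, a, b), h, (gp_vpt Sp d ε h _).symm⟩

/-- First family of forbidden coincidences. -/
def Bad1 (t : Bool × Fin 10 × Fin 10 × Fin 10) (P : Fin 10 → Pt F) : Prop :=
  t.2.2.1 ≠ t.2.2.2 ∧ co (Sp.dir d t.1 t.2.2.1) (gp Sp d t.1 t.2.1 t.2.2.2 (P t.2.2.2)) =
    co (Sp.dir d t.1 t.2.2.1) (P t.2.2.1)

/-- Second family of forbidden coincidences. -/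
def Bad2 (t : Bool × Fin 10 × Fin 10 × Fin 10) (P : Fin 10 → Pt F) : Prop :=
  gp Sp d t.1 t.2.1 0 (P 0) ≠ gp Sp d t.1 t.2.2.1 1 (P 1) ∧ ∃ y : Line F,
    co y.1 (Sp.sp d t.1) ≠ y.2 ∧ co y.1 (gp Sp d t.1 t.2.1 0 (P 0)) = y.2 ∧
      co y.1 (gp Sp d t.1 t.2.2.1 1 (P 1)) = y.2 ∧ co y.1 (gp Sp d t.1 t.2.2.2 2 (P 2)) = y.2

theorem good {P : Fin 10 → Pt F} (hP : ∀ b, co d (P b) = co d (Sp.sp d false))
    (hW : ∀ b ε a, ∀ y ∈ K, co y.1 (gp Sp d ε a b (P b)) = y.2 →
      y = thru (cdir Sp d ε a b) (Sp.sp d ε))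
    (h1 : ∀ t, ¬ Bad1 Sp d t P) (h2 : ∀ t, ¬ Bad2 Sp d t P) : GoodTuple Sp d P := by
  have hrow : ∀ ε a b b', co (Sp.dir d ε b) (gp Sp d ε a b' (P b')) = co (Sp.dir d ε b) (P b) →
      b = b' := by
    intro ε a b b' h
    by_contra hne
    exact h1 (ε, a, b, b') ⟨hne, h⟩
  have hinj : Function.Injective P := by
    intro b b' h
    refine hrow false b' b b' ?_
    rw [gp_self Sp d false b' (hP b'), h]
  have hne : ∀ b ε, P b ≠ Sp.sp d ε := by
    intro b ε h
    have h3 := hW b ε b (thru (Sp.dir d ε b) (Sp.sp d ε)) ((Sp.mem_K d ε _).2 (Or.inr ⟨b, rfl⟩))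
      (by rw [gp_self Sp d ε b (hP b), h]; rfl)
    exact cdir_ne Sp d ε b b (congrArg Prod.fst h3).symm
  have hsrow : ∀ ε b, co (Sp.dir d ε b) (Sp.sp d ε) ≠ co (Sp.dir d ε b) (P b) := by
    intro ε b h
    exact hne b ε (co_inj (Sp.dir_ne d ε b) h.symm (by rw [hP b, sp_co Sp d ε]))
  have hgs : ∀ ε a b, gp Sp d ε a b (P b) ≠ Sp.sp d ε := by
    intro ε a b h
    exact hsrow ε b (by rw [← h, gp_row])
  have hgne : ∀ ε a a' b, gp Sp d ε a b (P b) = gp Sp d ε a' b (P b) → a = a' := by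
    intro ε a a' b h
    by_contra hne'
    refine hgs ε a b (co_inj (fun e => hne' (cdir_inj Sp d ε e)) (gp_col Sp d ε a b _) ?_)
    rw [h, gp_col]
  have hcov : ∀ ε a b, thru (cdir Sp d ε a b) (gp Sp d ε a b (P b)) ∈ K := by
    intro ε a b
    have := cdir_mem Sp d ε a b
    unfold thru at this ⊢
    rwa [gp_col]
  refine ⟨hP, hinj, hne, ?_, ?_, ?_, ?_, ?_⟩
  · intro X hX e e' he he'
    obtain ⟨ε, a, b, rfl⟩ := (mem_gmark Sp d hP).1 hX
    exact (congrArg Prod.fst (hW b ε a _ he rfl)).trans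
      (congrArg Prod.fst (hW b ε a _ he' rfl)).symm
  · intro X hX
    obtain ⟨ε, a, b, rfl⟩ := (mem_gmark Sp d hP).1 hX
    exact ⟨ε, cdir Sp d ε a b, gp_col Sp d ε a b _, hcov ε a b⟩
  · intro ε e he
    rcases (Sp.mem_K d ε e).1 he with rfl | ⟨a, rfl⟩
    · refine le_trans ?_ (card_le_card (s := univ.image P) fun X hX => ?_)
      · rw [card_image_of_injective _ hinj]; simp
      · obtain ⟨b, -, rfl⟩ := mem_image.1 hX
        refine mem_inter.2 ⟨(mem_gmark Sp e hP).2 ⟨false, b, b, (gp_self Sp e false b (hP b)).symm⟩,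
          mem_pts.2 ?_⟩
        rw [thru_fst, thru_snd, hP b, sp_co Sp e ε]
    · refine le_trans ?_ (card_le_card
        (s := (univ.erase a).image fun b => gp Sp d ε a b (P b)) fun X hX => ?_)
      · rw [card_image_of_injective]
        · simp
        · intro b b' h
          refine hrow ε a b b' ?_
          simp only at h
          rw [← h, gp_row]
      · obtain ⟨b, hb, rfl⟩ := mem_image.1 hX
        refine mem_inter.2 ⟨(mem_gmark Sp d hP).2 ⟨ε, a, b, rfl⟩, mem_pts.2 ?_⟩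
        have h := gp_col Sp d ε a b (P b)
        simp only [cdir, (ne_of_mem_erase hb).symm, if_false] at h
        exact h
  · intro ε X hX e he heK
    obtain ⟨ε', a, b, rfl⟩ := (mem_gmark Sp d hP).1 hX
    by_cases hab : a = b
    · subst hab
      exact ⟨a, by rw [gp_self Sp d ε' a (hP a)]⟩
    · have h3 := hW b ε' a _ heK rfl
      have h4 : e = Sp.dir d ε' a := by
        have := congrArg Prod.fst h3
        simpa only [thru_fst, cdir, hab, if_false] using this
      have h5 := gp_col Sp d ε' a b (P b)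
      simp only [cdir, hab, if_false] at h5
      have h6 : Sp.sp d ε = Sp.sp d ε' :=
        co_inj (Sp.dir_ne d ε' a) (by rw [← h5, ← h4, he]) (by rw [sp_co, sp_co Sp d ε'])
      have h7 : ε = ε' := by
        by_contra hc
        cases ε <;> cases ε'
        · exact hc rfl
        · exact Sp.sp_ne d h6
        · exact Sp.sp_ne d h6.symm
        · exact hc rfl
      subst h7
      exact ⟨b, gp_row Sp d ε a b _⟩
  · intro ε Cv hCv hcover b₀
    by_contra hb₀
    have hc : ∀ a b, ∃ y ∈ Cv, co y.1 (gp Sp d ε a b (P b)) = y.2 := fun a b =>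
      hcover _ ((mem_gmark Sp d hP).2 ⟨ε, a, b, rfl⟩) _ (gp_col Sp d ε a b _) (hcov ε a b)
    choose c hcC hc using hc
    -- a missing row meets every line of the cover
    have key : ∀ b, thru (Sp.dir d ε b) (P b) ∉ Cv →
        10 ≤ Cv.card ∧ ∀ y ∈ Cv, ∃ a, co y.1 (gp Sp d ε a b (P b)) = y.2 := by
      intro b hb
      have hi : Function.Injective fun a => c a b := by
        intro a a' h
        simp only at h
        have hne' : c a b ≠ thru (Sp.dir d ε b) (P b) := fun e => hb (e ▸ hcC a b)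
        exact hgne ε a a' b (eq_of_on_of_ne hne' (hc a b) (gp_row Sp d ε a b _)
          (h ▸ hc a' b) (gp_row Sp d ε a' b _))
      have hsub : (univ.image fun a => c a b) ⊆ Cv := fun y hy => by
        obtain ⟨a, -, rfl⟩ := mem_image.1 hy
        exact hcC a b
      have hcard : (univ.image fun a => c a b).card = 10 := by
        rw [card_image_of_injective _ hi]; simp
      refine ⟨hcard ▸ card_le_card hsub, fun y hy => ?_⟩
      rw [← eq_of_subset_of_card_le hsub (by omega)] at hy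
      obtain ⟨a, -, rfl⟩ := mem_image.1 hy
      exact ⟨a, hc a b⟩
    have hall : ∀ b, thru (Sp.dir d ε b) (P b) ∉ Cv := by
      intro b hb
      obtain ⟨a, ha⟩ := (key b₀ hb₀).2 _ hb
      have := hrow ε a b b₀ ha
      subst this
      exact hb₀ hb
    obtain ⟨y, hy, hyl⟩ : ∃ y ∈ Cv, y ≠ thru d (Sp.sp d ε) :=
      exists_mem_ne (by have := (key b₀ hb₀).1; omega) _
    obtain ⟨a₀, ha₀⟩ := (key 0 (hall 0)).2 y hy
    obtain ⟨a₁, ha₁⟩ := (key 1 (hall 1)).2 y hy
    obtain ⟨a₂, ha₂⟩ := (key 2 (hall 2)).2 y hy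
    refine h2 (ε, a₀, a₁, a₂) ⟨fun h => ?_, y, fun h => ?_, ha₀, ha₁, ha₂⟩
    · have := hrow ε a₁ 0 1 (by simp only at h; rw [← h, gp_row])
      exact absurd this (by decide)
    · have h3 : y = thru (cdir Sp d ε a₀ 0) (Sp.sp d ε) := by
        by_contra hc'
        exact hgs ε a₀ 0 (eq_of_on_of_ne hc' ha₀ (gp_col Sp d ε a₀ 0 _) h rfl)
      by_cases h0 : a₀ = 0
      · simp only [cdir, h0, if_true] at h3
        exact hyl h3
      · simp only [cdir, h0, if_false] at h3
        obtain ⟨a, ha⟩ := (key a₀ (hall a₀)).2 y hy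
        rw [h3, thru_fst, thru_snd, gp_row] at ha
        exact hsrow ε a₀ ha.symm

/-- A condition which determines one coordinate from the others. -/
theorem card_det (x : Line F) (S : Finset (Fin 10 → Pt F)) (i : Fin 10)
    (hS : ∀ P ∈ S, ∀ b, P b ∈ pts x)
    (h : ∀ P ∈ S, ∀ P' ∈ S, (∀ k, k ≠ i → P k = P' k) → P i = P' i) :
    S.card ≤ Fintype.card F ^ 9 := by
  have h1 : (Fintype.piFinset fun _ : Fin 9 => pts x).card = Fintype.card F ^ 9 := by
    simp [Fintype.card_piFinset]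
  rw [← h1]
  refine card_le_card_of_injOn (fun P k => P (i.succAbove k)) (fun P hP => ?_) ?_
  · exact mem_coe.2 (Fintype.mem_piFinset.2 fun k => hS P hP _)
  · intro P hP P' hP' e
    have h2 : ∀ k, k ≠ i → P k = P' k := by
      intro k hk
      obtain ⟨k', rfl⟩ := Fin.exists_succAbove_eq hk
      exact congrFun e k'
    funext k
    by_cases hk : k = i
    · rw [hk]; exact h P hP P' hP' h2
    · exact h2 k hk

end Gadget

open Gadget in
/-- Write `ℓ = thru d (sp d false)`, `j ε a = thru (dir d ε a) (sp d ε)`, `m ε b = thru (dir d ε b) (P b)`.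
For each `b` apply `Reg3` to `x₀ = ℓ`, `G (ε, a) = (if a = b then ℓ else j ε a, dir d ε b)`: the set `W b` of `P ∈ ℓ`
such that `P` and all `vpt ε a b P` (`a ≠ b`) lie on no line of `K` other than `ℓ` resp. `j ε a` has `≥ β q` points.
`Val` = tuples in `piFinset W` that satisfy finitely many conditions each of which, for fixed other coordinates,
excludes at most one value of one coordinate: `P b ≠ P b'`, `vpt ε a b (P b) ≠ vpt ε a b' (P b')`, and
(general position) for distinct columns `a₀,a₁,a₂ ∈ Option (Fin 10)` (`none` = `ℓ`, point `P b`) the grid points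
in rows `0,1,2` and these columns are not collinear.  So `|Val| ≥ (βq)^10 - K q^9 ≥ (βq)^10/2`, and each `X` is
marked by at most `(10 + 200) q^9` tuples (each marked point determines its `P b`).
`rigid`: the grid of `ε` has `100` points (ten rows `m ε b` of ten points, pairwise disjoint; columns `j ε a` with
nine, `ℓ` with ten points); every line contains at most ten of them (a line that is not a row meets each row once), so a cover by
`≤ 10` lines is a partition into `10`-point lines.  If some row is missing from `Cv` its ten points lie on ten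
different lines of `Cv`, so no row is in `Cv`, and some line of `Cv` other than `ℓ` has one point in each row, in
distinct columns (it is not a column): contradiction with general position. -/
theorem gadget_valid (β : ℝ) (hβ : 0 < β) :
    ∃ A : ℝ, 0 < A ∧ ∃ q₀ : ℕ, ∀ (F : Type) [Field F] [Fintype F] [DecidableEq F],
      q₀ ≤ Fintype.card F → ∀ (C : ℕ) (ω : Conf F C) (Sp : Special (KK ω)), Reg3 ω β →
        ∀ d, ∃ Val : Finset (Fin 10 → Pt F), Val.Nonempty ∧ (∀ P ∈ Val, GoodTuple Sp d P) ∧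
          ∀ X, ((Val.filter fun P => X ∈ gmark Sp d P).card : ℝ) * Fintype.card F ≤
            A * Val.card := by
  classical
  refine ⟨400 / β ^ 10, by positivity, ⌈8000 / β ^ 10⌉₊, ?_⟩
  intro F _ _ _ hq C ω Sp hR d
  set q := Fintype.card F with hqdef
  have hq0 : (0 : ℝ) < q := by
    have := two_le_card (F := F); positivity
  have hβq : (8000 : ℝ) ≤ β ^ 10 * q := by
    have h1 : 8000 / β ^ 10 ≤ (q : ℝ) := (Nat.le_ceil _).trans (by exact_mod_cast hq)
    rw [div_le_iff₀ (by positivity)] at h1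
    linarith
  let ℓ : Line F := thru d (Sp.sp d false)
  let W : Fin 10 → Finset (Pt F) := fun b => (pts ℓ).filter fun P => ∀ t : Bool × Fin 10,
    ∀ y ∈ KK ω, co y.1 (gp Sp d t.1 t.2 b P) = y.2 → y = thru (cdir Sp d t.1 t.2 b) (Sp.sp d t.1)
  have hW : ∀ b, β * q ≤ (W b).card := fun b =>
    hR ℓ (fun t => (thru (cdir Sp d t.1 t.2 b) (Sp.sp d t.1), Sp.dir d t.1 b))
      fun t => ⟨Sp.dir_ne d t.1 b, (cdir_ne Sp d t.1 t.2 b).symm⟩
  let T := Fintype.piFinset W
  have hTl : ∀ P ∈ T, ∀ b, P b ∈ pts ℓ := fun P hP b =>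
    (mem_filter.1 (Fintype.mem_piFinset.1 hP b)).1
  have hTl' : ∀ P ∈ T, ∀ b, co d (P b) = co d (Sp.sp d false) := fun P hP b =>
    mem_pts.1 (hTl P hP b)
  have hT : (β * q) ^ 10 ≤ (T.card : ℝ) := by
    rw [Fintype.card_piFinset]
    push_cast
    calc (β * q) ^ 10 = ∏ _b : Fin 10, β * q := by simp
      _ ≤ _ := prod_le_prod (fun _ _ => by positivity) fun b _ => hW b
  have hB1 : ∀ t, (T.filter (Bad1 Sp d t)).card ≤ q ^ 9 := by
    intro t
    refine card_det ℓ _ t.2.2.1 (fun P hP => hTl P (mem_filter.1 hP).1) fun P hP P' hP' h => ?_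
    obtain ⟨hP, h1, h2⟩ := mem_filter.1 hP
    obtain ⟨hP', -, h2'⟩ := mem_filter.1 hP'
    refine co_inj (Sp.dir_ne d t.1 t.2.2.1) ?_ (by rw [hTl' P hP, hTl' P' hP'])
    rw [← h2, ← h2', h _ h1.symm]
  have hB2 : ∀ t, (T.filter (Bad2 Sp d t)).card ≤ q ^ 9 := by
    intro t
    refine card_det ℓ _ 2 (fun P hP => hTl P (mem_filter.1 hP).1) fun P hP P' hP' h => ?_
    obtain ⟨hP, h1, y, hy, hy0, hy1, hy2⟩ := mem_filter.1 hP
    obtain ⟨hP', -, y', -, hy0', hy1', hy2'⟩ := mem_filter.1 hP'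
    rw [← h 0 (by decide)] at hy0'
    rw [← h 1 (by decide)] at hy1'
    have hyy : y = y' := by
      by_contra hc
      exact h1 (eq_of_on_of_ne hc hy0 hy0' hy1 hy1')
    subst hyy
    refine gp_inj Sp d t.1 t.2.2.2 2 (hTl' P hP 2) (hTl' P' hP' 2) ?_
    have hne : y ≠ thru (cdir Sp d t.1 t.2.2.2 2) (Sp.sp d t.1) := fun e => hy (by rw [e]; rfl)
    exact eq_of_on_of_ne hne hy2 (gp_col Sp d _ _ _ _) hy2' (gp_col Sp d _ _ _ _)
  let Val := T.filter fun P => (∀ t, ¬ Bad1 Sp d t P) ∧ ∀ t, ¬ Bad2 Sp d t P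
  have hcard : T.card ≤ Val.card + 4000 * q ^ 9 := by
    have hsub : T ⊆ Val ∪ ((univ.biUnion fun t => T.filter (Bad1 Sp d t)) ∪
        univ.biUnion fun t => T.filter (Bad2 Sp d t)) := by
      intro P hP
      by_cases h : (∀ t, ¬ Bad1 Sp d t P) ∧ ∀ t, ¬ Bad2 Sp d t P
      · exact mem_union_left _ (mem_filter.2 ⟨hP, h⟩)
      · refine mem_union_right _ ?_
        rw [not_and_or, not_forall, not_forall] at h
        rcases h with ⟨t, h⟩ | ⟨t, h⟩
        · exact mem_union_left _ (mem_biUnion.2 ⟨t, mem_univ _, mem_filter.2 ⟨hP, not_not.1 h⟩⟩)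
        · exact mem_union_right _ (mem_biUnion.2 ⟨t, mem_univ _, mem_filter.2 ⟨hP, not_not.1 h⟩⟩)
    have h1 := card_biUnion_le_card_mul univ _ _ fun t _ => hB1 t
    have h2 := card_biUnion_le_card_mul univ _ _ fun t _ => hB2 t
    have h3 : (univ : Finset (Bool × Fin 10 × Fin 10 × Fin 10)).card = 2000 := by simp
    rw [h3] at h1 h2
    have h4 := (card_le_card hsub).trans ((card_union_le _ _).trans
      (Nat.add_le_add_left (card_union_le _ _) _))
    omega
  have hVal : β ^ 10 * (q : ℝ) ^ 10 ≤ 2 * Val.card := by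
    have h1 : (T.card : ℝ) ≤ Val.card + 4000 * (q : ℝ) ^ 9 := by exact_mod_cast hcard
    have h2 : 8000 * (q : ℝ) ^ 9 ≤ β ^ 10 * q * (q : ℝ) ^ 9 :=
      mul_le_mul_of_nonneg_right hβq (by positivity)
    rw [mul_pow] at hT
    have h3 : β ^ 10 * q * (q : ℝ) ^ 9 = β ^ 10 * (q : ℝ) ^ 10 := by ring
    linarith
  refine ⟨Val, ?_, fun P hP => ?_, fun X => ?_⟩
  · rw [← card_pos]
    have : (0 : ℝ) < β ^ 10 * (q : ℝ) ^ 10 := by positivity
    have h2 : (0 : ℝ) < Val.card := by linarith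
    exact_mod_cast h2
  · obtain ⟨hP, h1, h2⟩ := mem_filter.1 hP
    exact good Sp d (hTl' P hP)
      (fun b ε a => (mem_filter.1 (Fintype.mem_piFinset.1 hP b)).2 (ε, a)) h1 h2
  · have hM : ∀ t : Bool × Fin 10 × Fin 10,
        (T.filter fun P => X = gp Sp d t.1 t.2.1 t.2.2 (P t.2.2)).card ≤ q ^ 9 := by
      intro t
      refine card_det ℓ _ t.2.2 (fun P hP => hTl P (mem_filter.1 hP).1) fun P hP P' hP' _ => ?_
      obtain ⟨hP, h1⟩ := mem_filter.1 hP
      obtain ⟨hP', h1'⟩ := mem_filter.1 hP'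
      exact gp_inj Sp d t.1 t.2.1 t.2.2 (hTl' P hP _) (hTl' P' hP' _) (h1.symm.trans h1')
    have hsub : (Val.filter fun P => X ∈ gmark Sp d P) ⊆ univ.biUnion
        fun t : Bool × Fin 10 × Fin 10 =>
          T.filter fun P => X = gp Sp d t.1 t.2.1 t.2.2 (P t.2.2) := by
      intro P hP
      obtain ⟨hP, hX⟩ := mem_filter.1 hP
      have hP := (mem_filter.1 hP).1
      obtain ⟨ε, a, b, h⟩ := (mem_gmark Sp d (hTl' P hP)).1 hX
      exact mem_biUnion.2 ⟨(ε, a, b), mem_univ _, mem_filter.2 ⟨hP, h⟩⟩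
    have h1 := (card_le_card hsub).trans (card_biUnion_le_card_mul univ _ _ fun t _ => hM t)
    have h3 : (univ : Finset (Bool × Fin 10 × Fin 10)).card = 200 := by simp
    rw [h3] at h1
    have h2 : ((Val.filter fun P => X ∈ gmark Sp d P).card : ℝ) ≤ 200 * (q : ℝ) ^ 9 := by
      exact_mod_cast h1
    rw [div_mul_eq_mul_div, le_div_iff₀ (by positivity)]
    calc _ ≤ 200 * (q : ℝ) ^ 9 * q * β ^ 10 := by gcongr
      _ = 200 * (β ^ 10 * (q : ℝ) ^ 10) := by ring
      _ ≤ _ := by linarith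

end Crest.Agent.R34
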