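import Crest.Agent.R34.Basic

/-! # Row 34: the hypergraph -/

set_option autoImplicit false

namespace Crest.Agent.R34

open Finset

variable {F : Type} [Field F] [Fintype F] [DecidableEq F]

namespace Hyper

variable {K : Finset (Line F)}

/-- the star of a point -/
def pstar (X : Pt F) : Dir F → Option F := fun f => some (co f X)

open Classical in
/-- the extra edges -/
noncomputable def edge (D : Design K) (d : Dir F) (ε : Bool) : Dir F → Option F := fun f =>
  if f = d then none else
    if h : ∃ b, f = D.dir d ε b then some (co f (D.P d h.choose)) else some (co f (D.sp d ε))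

theorem edge_self (D : Design K) (d : Dir F) (ε : Bool) : edge D d ε d = none := by
  simp [edge]

theorem edge_dir (D : Design K) (d : Dir F) (ε : Bool) (b : Fin 10) :
    edge D d ε (D.dir d ε b) = some (co (D.dir d ε b) (D.P d b)) := by
  have h : ∃ b', D.dir d ε b = D.dir d ε b' := ⟨b, rfl⟩
  unfold edge
  rw [if_neg (D.dir_ne d ε b), dif_pos h, ← D.dir_inj d ε h.choose_spec]

theorem edge_other (D : Design K) (d : Dir F) (ε : Bool) {f : Dir F}
    (hf : thru f (D.sp d ε) ∉ K) : edge D d ε f = some (co f (D.sp d ε)) := by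
  rw [D.mem_K, not_or] at hf
  unfold edge
  rw [if_neg hf.1, dif_neg hf.2]

theorem sp_line' (D : Design K) (d : Dir F) (ε ε' : Bool) :
    co d (D.sp d ε) = co d (D.sp d ε') := by
  cases ε <;> cases ε' <;> simp [D.sp_line]

theorem P_line' (D : Design K) (d : Dir F) (ε : Bool) (b : Fin 10) :
    co d (D.P d b) = co d (D.sp d ε) := (D.P_line d b).trans (sp_line' D d _ _)

theorem sp_ne' (D : Design K) (d : Dir F) (ε : Bool) : D.sp d (!ε) ≠ D.sp d ε := by
  cases ε
  · exact (D.sp_ne d).symm
  · exact D.sp_ne d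

theorem dir_ne'' (D : Design K) (d : Dir F) (ε : Bool) (b : Fin 10) :
    D.dir d (!ε) b ≠ D.dir d ε b := by
  cases ε
  · exact (D.dir_ne' d b).symm
  · exact D.dir_ne' d b

theorem sp_notMem (D : Design K) (d : Dir F) (ε : Bool) : D.sp d ε ∉ D.M := by
  intro h
  obtain ⟨b, hb⟩ := D.row d ε _ h d rfl ((D.mem_K d ε d).2 (Or.inl rfl))
  exact D.P_ne d b ε (co_inj (D.dir_ne d ε b) hb.symm (P_line' D d ε b))

omit [Fintype F] [DecidableEq F] in
theorem thru_congr {e : Dir F} {X Y : Pt F} (h : co e X = co e Y) : thru e X = thru e Y := by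
  simp [thru, h]

theorem star_edge (D : Design K) {X : Pt F} (hX : X ∈ unc K ∪ D.M) (d : Dir F) (ε : Bool) :
    ∃ f, pstar X f = edge D d ε f := by
  obtain ⟨e, he⟩ := exists_join X (D.sp d ε)
  by_cases hK : thru e X ∈ K
  · rcases mem_union.1 hX with h | h
    · exact absurd hK (mem_unc_iff_thru.1 h e)
    · obtain ⟨b, hb⟩ := D.row d ε X h e he hK
      exact ⟨_, by rw [edge_dir, pstar, hb]⟩
  · rw [thru_congr he] at hK
    exact ⟨e, by rw [edge_other D d ε hK, pstar, he]⟩

theorem edge_edge (D : Design K) (d : Dir F) (ε : Bool) (d' : Dir F) (ε' : Bool) :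
    ∃ f, edge D d ε f = edge D d' ε' f := by
  by_cases h : d = d'
  · subst h
    exact ⟨d, by rw [edge_self, edge_self]⟩
  · obtain ⟨e, he⟩ := exists_join (D.sp d ε) (D.sp d' ε')
    have h1 := D.disj d ε d' ε' e h he
    have h2 := h1
    rw [thru_congr he] at h2
    exact ⟨e, by rw [edge_other D d ε h1, edge_other D d' ε' h2, he]⟩

/-- lines as vertices -/
def vtx (x : Line F) : Dir F × Option F := (x.1, some x.2)

omit [Field F] [Fintype F] [DecidableEq F] in
theorem vtx_inj : Function.Injective (vtx (F := F)) := by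
  intro x y h
  simp only [vtx, Prod.mk.injEq, Option.some.injEq] at h
  exact Prod.ext h.1 h.2

omit [Field F] [Fintype F] in
theorem card_add_one_le {T : Finset (Dir F × Option F)} {A : Finset (Line F)}
    (hA : ∀ x ∈ A, vtx x ∈ T) {v : Dir F × Option F} (hv : v ∈ T) (hv' : ∀ x ∈ A, vtx x ≠ v) :
    A.card + 1 ≤ T.card := by
  have h1 : v ∉ A.image vtx := by
    rw [mem_image]; rintro ⟨x, hx, h⟩; exact hv' x hx h
  rw [← card_image_of_injective A vtx_inj, ← card_insert_of_notMem h1]
  refine card_le_card fun w hw => ?_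
  rcases mem_insert.1 hw with rfl | hw
  · exact hv
  · obtain ⟨x, hx, rfl⟩ := mem_image.1 hw
    exact hA x hx

/-- the pencil is a parallel class -/
theorem case_dir (D : Design K) {B : Finset (Line F)} (hB : B.card ≤ Fintype.card F)
    (hcov : ∀ X ∈ D.M, ∃ f, thru f X ∈ B) (d : Dir F) (hd : ∀ c : F, (d, c) ∈ B ∪ K) (c : F) :
    (d, c) ∈ B := by
  set K' := univ.filter (fun c : F => (d, c) ∉ B) with hK'
  set R := B.filter (fun x => x.1 ≠ d) with hR
  have h1 : (B.filter (fun x => x.1 = d)).card + K'.card = Fintype.card F := by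
    have : B.filter (fun x => x.1 = d) = (univ.filter (fun c : F => (d, c) ∈ B)).image
        (fun c => (d, c)) := by
      ext x
      simp only [mem_filter, mem_image, mem_univ, true_and]
      constructor
      · rintro ⟨h, rfl⟩; exact ⟨x.2, h, rfl⟩
      · rintro ⟨c, h, rfl⟩; exact ⟨h, rfl⟩
    rw [this, card_image_of_injective _ (fun c c' h => (Prod.mk.inj h).2),
      card_filter_add_card_filter_not, card_univ]
  have h2 : (B.filter (fun x => x.1 = d)).card + R.card = B.card :=
    card_filter_add_card_filter_not _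
  have h3 : K'.card * 9 ≤ (K'.biUnion fun c => D.M ∩ pts (d, c)).card := by
    rw [card_biUnion]
    · refine card_nsmul_le_sum _ _ _ fun c hc => D.nine _ ?_
      exact (mem_union.1 (hd c)).resolve_left (mem_filter.1 hc).2
    · intro c _ c' _ hcc
      refine disjoint_left.2 fun X h h' => hcc ?_
      simp only [mem_inter, mem_pts] at h h'
      rw [← h.2, ← h'.2]
  have h4 : (K'.biUnion fun c => D.M ∩ pts (d, c)).card ≤ R.card * 8 := by
    refine le_trans (card_le_card ?_) (card_biUnion_le_card_mul R
      (fun y => (D.M ∩ pts y).filter fun X => thru d X ∈ K) 8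
      (fun y hy => D.gen_inf d y (mem_filter.1 hy).2))
    intro X hX
    simp only [mem_biUnion, mem_inter, mem_pts, mem_filter, hK', hR, mem_univ, true_and] at hX ⊢
    obtain ⟨c, hc, hM, hXc⟩ := hX
    obtain ⟨f, hf⟩ := hcov X hM
    have hdc : thru d X = (d, c) := by rw [thru, hXc]
    refine ⟨thru f X, ⟨hf, ?_⟩, ⟨hM, rfl⟩, ?_⟩
    · intro h
      have h' : f = d := h
      rw [h', hdc] at hf
      exact hc hf
    · rw [hdc]; exact (mem_union.1 (hd c)).resolve_left hc
  have h5 : K'.card = 0 := by omega
  rw [card_eq_zero] at h5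
  by_contra h
  have : c ∈ K' := mem_filter.2 ⟨mem_univ _, h⟩
  rw [h5] at this
  exact notMem_empty _ this

omit [Fintype F] [DecidableEq F] in
theorem thru_inj (O : Pt F) : Function.Injective (fun f : Dir F => thru f O) :=
  fun _ _ h => congrArg Prod.fst h

/-- the pencil is centred at a non-special point -/
theorem case_aff (D : Design K) {B : Finset (Line F)} (hB : B.card ≤ Fintype.card F)
    (hcov : ∀ X ∈ D.M, ∃ f, thru f X ∈ B) (O : Pt F) (hO : ∀ d, thru d O ∈ B ∪ K)
    (hsp : ∀ d ε, O ≠ D.sp d ε) : False := by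
  set K' := univ.filter (fun f : Dir F => thru f O ∉ B) with hK'
  set R := B.filter (fun x => co x.1 O ≠ x.2) with hR
  have h1 : (B.filter (fun x => co x.1 O = x.2)).card + K'.card = Fintype.card F + 1 := by
    have : B.filter (fun x => co x.1 O = x.2) = (univ.filter (fun f : Dir F => thru f O ∈ B)).image
        (fun f => thru f O) := by
      ext x
      simp only [mem_filter, mem_image, mem_univ, true_and]
      constructor
      · rintro ⟨h, h'⟩; exact ⟨x.1, by rwa [thru_of_on h'], thru_of_on h'⟩
      · rintro ⟨c, h, rfl⟩; exact ⟨h, rfl⟩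
    rw [this, card_image_of_injective _ (thru_inj O), card_filter_add_card_filter_not, card_univ,
      card_dir]
  have h2 : (B.filter (fun x => co x.1 O = x.2)).card + R.card = B.card :=
    card_filter_add_card_filter_not _
  have h3 : K'.card * 8 ≤ (K'.biUnion fun f => (D.M ∩ pts (thru f O)).erase O).card := by
    rw [card_biUnion]
    · refine card_nsmul_le_sum K' (fun f => ((D.M ∩ pts (thru f O)).erase O).card) 8 fun f hf => ?_
      have h1 := D.nine _ ((mem_union.1 (hO f)).resolve_left (mem_filter.1 hf).2)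
      have h2 := pred_card_le_card_erase (s := D.M ∩ pts (thru f O)) (a := O)
      omega
    · intro f _ f' _ hff
      refine disjoint_left.2 fun X h h' => ?_
      simp only [mem_erase, mem_inter, mem_pts] at h h'
      exact h.1 (co_inj hff h.2.2 h'.2.2)
  have h4 : (K'.biUnion fun f => (D.M ∩ pts (thru f O)).erase O).card ≤ R.card * 8 := by
    refine le_trans (card_le_card ?_) (card_biUnion_le_card_mul R
      (fun y => (D.M ∩ pts y).filter fun X => ∃ e, co e X = co e O ∧ thru e O ∈ K) 8
      (fun y hy => D.gen_aff O hsp y (mem_filter.1 hy).2))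
    intro X hX
    simp only [mem_biUnion, mem_inter, mem_pts, mem_filter, hK', hR, mem_univ, true_and,
      mem_erase] at hX ⊢
    obtain ⟨f, hf, hXO, hM, hXf⟩ := hX
    obtain ⟨g, hg⟩ := hcov X hM
    have hXf' : co f X = co f O := hXf
    refine ⟨thru g X, ⟨hg, ?_⟩, ⟨hM, rfl⟩, f, hXf', (mem_union.1 (hO f)).resolve_left hf⟩
    intro h
    have h' : co g O = co g X := h
    by_cases hfg : f = g
    · subst hfg
      rw [thru_congr hXf'] at hg
      exact hf hg
    · exact hXO (co_inj hfg hXf' h'.symm)
  omega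

/-- the pencil is centred at a special point -/
theorem case_sp (D : Design K) {T : Finset (Dir F × Option F)} {B : Finset (Line F)}
    (hBT : ∀ x ∈ B, vtx x ∈ T) (hB : B.card ≤ Fintype.card F)
    (hcov : ∀ X ∈ D.M, ∃ f, thru f X ∈ B) (d : Dir F) (ε : Bool)
    (hO : ∀ f, thru f (D.sp d ε) ∈ B ∪ K) (f : Dir F) (hf : (f, edge D d (!ε) f) ∈ T) :
    Fintype.card F + 1 ≤ T.card := by
  set O := D.sp d ε with hOdef
  set S := (univ.filter (fun f : Dir F => thru f O ∉ K)).image (fun f => thru f O) with hS
  have hSmem : ∀ x, x ∈ S ↔ ∃ g, thru g O ∉ K ∧ thru g O = x := by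
    intro x; simp [hS]
  have hSB : S ⊆ B := by
    intro x hx
    obtain ⟨g, hg, rfl⟩ := (hSmem x).1 hx
    exact (mem_union.1 (hO g)).resolve_right hg
  have h1 : Fintype.card F ≤ S.card + 10 := by
    have h2 : (univ.filter (fun f : Dir F => thru f O ∈ K)).card ≤ 11 := by
      have h3 : univ.filter (fun f : Dir F => thru f O ∈ K) ⊆
          insert d (univ.image (D.dir d ε)) := by
        intro g hg
        rcases (D.mem_K d ε g).1 (mem_filter.1 hg).2 with h | ⟨a, h⟩
        · rw [h]; exact mem_insert_self _ _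
        · rw [h]; exact mem_insert_of_mem (mem_image_of_mem _ (mem_univ _))
      refine (card_le_card h3).trans ((card_insert_le _ _).trans ?_)
      have := card_image_le (s := (univ : Finset (Fin 10))) (f := D.dir d ε)
      simp only [card_univ, Fintype.card_fin] at this
      omega
    have h4 := card_filter_add_card_filter_not (s := (univ : Finset (Dir F)))
      (fun f : Dir F => thru f O ∈ K)
    rw [card_univ, card_dir] at h4
    rw [hS, card_image_of_injective _ (thru_inj O)]
    omega
  have h2 : (B \ S).card ≤ 10 := by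
    rw [card_sdiff_of_subset hSB]; omega
  have h3 := D.rigid d ε (B \ S) h2 (fun X hX e he hK => by
    obtain ⟨g, hg⟩ := hcov X hX
    refine ⟨thru g X, mem_sdiff.2 ⟨hg, fun h => ?_⟩, rfl⟩
    obtain ⟨g', hg', h'⟩ := (hSmem _).1 h
    have h4 : g' = g := congrArg Prod.fst h'
    subst h4
    have h5 : co g' O = co g' X := congrArg Prod.snd h'
    by_cases hge : g' = e
    · subst hge
      rw [h'] at hg'
      exact hg' hK
    · have : X = O := co_inj hge h5.symm he
      rw [this] at hX
      exact sp_notMem D d ε hX)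
  set W := (univ : Finset (Fin 10)).image (fun b => thru (D.dir d ε b) (D.P d b)) with hW
  have hWc : W.card = 10 := by
    rw [hW, card_image_of_injective _ (fun b b' h => D.dir_inj d ε (congrArg Prod.fst h))]
    simp
  have hdisj : Disjoint S W := by
    refine disjoint_right.2 fun x hx => ?_
    obtain ⟨b, -, rfl⟩ := mem_image.1 hx
    exact (mem_sdiff.1 (h3 b)).2
  have h4 := card_add_one_le (A := S ∪ W) (fun x hx => by
    rcases mem_union.1 hx with h | h
    · exact hBT x (hSB h)
    · obtain ⟨b, -, rfl⟩ := mem_image.1 h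
      exact hBT _ (mem_sdiff.1 (h3 b)).1) hf (fun x hx hv => by
    have e1 : x.1 = f := congrArg Prod.fst hv
    have e2 : some x.2 = edge D d (!ε) f := congrArg Prod.snd hv
    by_cases hK : thru f (D.sp d (!ε)) ∈ K
    · rcases (D.mem_K d (!ε) f).1 hK with h | ⟨b', h⟩
      · rw [h, edge_self] at e2
        exact Option.some_ne_none _ e2
      · rw [h, edge_dir, ← h, Option.some.injEq] at e2
        have hfd : f ≠ d := by rw [h]; exact D.dir_ne _ _ _
        rcases mem_union.1 hx with hx | hx
        · obtain ⟨g, -, rfl⟩ := (hSmem _).1 hx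
          have e3 : g = f := e1
          subst e3
          exact D.P_ne d b' ε (co_inj hfd e2.symm (P_line' D d ε b'))
        · obtain ⟨b, -, rfl⟩ := mem_image.1 hx
          have e3 : D.dir d ε b = f := e1
          have e4 : co (D.dir d ε b) (D.P d b) = co f (D.P d b') := e2
          rw [e3] at e4
          have e5 : b = b' := D.P_inj d (co_inj hfd e4
            ((P_line' D d ε b).trans (P_line' D d ε b').symm))
          subst e5
          exact dir_ne'' D d ε b (h.symm.trans e3.symm)
    · rw [edge_other D d (!ε) hK, Option.some.injEq] at e2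
      have hfd : f ≠ d := fun h => hK ((D.mem_K d (!ε) f).2 (Or.inl h))
      rcases mem_union.1 hx with hx | hx
      · obtain ⟨g, -, rfl⟩ := (hSmem _).1 hx
        have e3 : g = f := e1
        subst e3
        exact sp_ne' D d ε (co_inj hfd e2.symm (sp_line' D d _ _))
      · obtain ⟨b, -, rfl⟩ := mem_image.1 hx
        have e3 : D.dir d ε b = f := e1
        have e4 : co (D.dir d ε b) (D.P d b) = co f (D.sp d (!ε)) := e2
        rw [e3] at e4
        exact D.P_ne d b (!ε) (co_inj hfd e4 (P_line' D d _ b)))
  rw [card_union_of_disjoint hdisj, hWc] at h4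
  omega

end Hyper

open Hyper in
/-- Edges: the stars `d ↦ some (co d X)` for `X ∈ unc K ∪ M`, and for every `d, ε` the edge `e d ε` with
`d ↦ none`, `dir d ε b ↦ some (co (dir d ε b) (P d b))`, other `f ↦ some (co f (sp d ε))`.
Intersecting: `exists_join`, `row`, `disj`, `mem_K`.  Covers: let `T` be a cover with `|T| ≤ q` and `B` its set of
lines; `B` covers `unc K`, so `B ∪ K` has a pencil.
* direction `d`: let `t'` be the number of lines of `K` of direction `d` outside `B`; at most `t'` vertices of `T` are not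
  lines of direction `d`.  `t' = 0` leaves `e d false` uncovered; otherwise `9 t' ≤ 8 t'` by `nine`, `gen_inf`.
* non-special point `O`: `t'` lines of `K` through `O` are outside `B`, at most `t' - 1` vertices are not lines through `O`
  (so `t' ≥ 1`), and `8 t' ≤ 8 (t' - 1)` by `nine`, `gen_aff`.
* `O = sp d ε` (not in `M`, by `row` and `P_ne`): the `q - 10` lines through `O` outside `K` are in `B`, the other at most ten lines
  of `B` cover the marked points on lines of `K` through `O`, so by `rigid` they are the ten rows and `T` has no other vertex;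
  then `e d (!ε)` is uncovered (`P_inj`, `P_ne`, `dir_ne'`, `sp_ne`). -/
theorem hyper_of_design (K : Finset (Line F)) (D : Design K)
    (hS : ∀ x ∉ K, (unc K ∩ pts x).Nonempty)
    (hpen : ∀ B : Finset (Line F), B.card ≤ Fintype.card F → Disjoint (unc B) (unc K) →
      HasPencil (B ∪ K)) :
    ∃ E : Finset (Dir F → Option F), E.Nonempty ∧ (∀ e ∈ E, ∀ f ∈ E, ∃ d, e d = f d) ∧
      (∀ d c, ∃ e ∈ E, e d = c) ∧
      ∀ T : Finset (Dir F × Option F), (∀ e ∈ E, ∃ d, (d, e d) ∈ T) →
        Fintype.card F + 1 ≤ T.card := by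
  classical
  have hstar : ∀ X ∈ unc K ∪ D.M, pstar X ∈ (unc K ∪ D.M).image pstar ∪
      univ.image (fun p : Dir F × Bool => edge D p.1 p.2) := fun X hX =>
    mem_union_left _ (mem_image_of_mem _ hX)
  have hedge : ∀ d ε, edge D d ε ∈ (unc K ∪ D.M).image pstar ∪
      univ.image (fun p : Dir F × Bool => edge D p.1 p.2) := fun d ε =>
    mem_union_right _ (mem_image.2 ⟨(d, ε), mem_univ _, rfl⟩)
  refine ⟨_, ⟨_, hedge none false⟩, ?_, ?_, ?_⟩
  · intro e he f hf
    rcases mem_union.1 he with he | he <;> rcases mem_union.1 hf with hf | hf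
    · obtain ⟨X, -, rfl⟩ := mem_image.1 he
      obtain ⟨Y, -, rfl⟩ := mem_image.1 hf
      obtain ⟨d, hd⟩ := exists_join X Y
      exact ⟨d, by rw [pstar, pstar, hd]⟩
    · obtain ⟨X, hX, rfl⟩ := mem_image.1 he
      obtain ⟨p, -, rfl⟩ := mem_image.1 hf
      exact star_edge D hX _ _
    · obtain ⟨p, -, rfl⟩ := mem_image.1 he
      obtain ⟨X, hX, rfl⟩ := mem_image.1 hf
      obtain ⟨d, hd⟩ := star_edge D hX p.1 p.2
      exact ⟨d, hd.symm⟩
    · obtain ⟨p, -, rfl⟩ := mem_image.1 he
      obtain ⟨p', -, rfl⟩ := mem_image.1 hf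
      exact edge_edge D _ _ _ _
  · intro d c
    rcases c with _ | c
    · exact ⟨_, hedge d false, edge_self D d false⟩
    · obtain ⟨X, hX, hXc⟩ : ∃ X ∈ unc K ∪ D.M, co d X = c := by
        by_cases hK : (d, c) ∈ K
        · have h1 := D.nine _ hK
          obtain ⟨X, hX⟩ : (D.M ∩ pts (d, c)).Nonempty := card_pos.1 (by omega)
          rw [mem_inter, mem_pts] at hX
          exact ⟨X, mem_union_right _ hX.1, hX.2⟩
        · obtain ⟨X, hX⟩ := hS _ hK
          rw [mem_inter, mem_pts] at hX
          exact ⟨X, mem_union_left _ hX.1, hX.2⟩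
      exact ⟨_, hstar X hX, by rw [pstar, hXc]⟩
  · intro T hT
    by_contra hlt
    set B : Finset (Line F) := univ.filter (fun x => vtx x ∈ T) with hBdef
    have hBT : ∀ x ∈ B, vtx x ∈ T := fun x hx => (mem_filter.1 hx).2
    have hB : B.card ≤ Fintype.card F := by
      have : B.card ≤ T.card := card_le_card_of_injOn vtx hBT vtx_inj.injOn
      omega
    have hcov : ∀ X ∈ unc K ∪ D.M, ∃ f, thru f X ∈ B := fun X hX => by
      obtain ⟨f, hf⟩ := hT _ (hstar X hX)
      exact ⟨f, mem_filter.2 ⟨mem_univ _, hf⟩⟩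
    have hcovM : ∀ X ∈ D.M, ∃ f, thru f X ∈ B := fun X hX => hcov X (mem_union_right _ hX)
    rcases hpen B hB (disjoint_left.2 fun X h h' => by
      obtain ⟨f, hf⟩ := hcov X (mem_union_left _ h')
      exact mem_unc_iff_thru.1 h f hf) with ⟨O, hO⟩ | ⟨d, hd⟩
    · by_cases hsp : ∀ d ε, O ≠ D.sp d ε
      · exact case_aff D hB hcovM O hO hsp
      · push Not at hsp
        obtain ⟨d, ε, rfl⟩ := hsp
        obtain ⟨f, hf⟩ := hT _ (hedge d (!ε))
        exact hlt (case_sp D hBT hB hcovM d ε hO f hf)
    · have h1 := case_dir D hB hcovM d hd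
      obtain ⟨f, hf⟩ := hT _ (hedge d false)
      have h2 := card_add_one_le (A := univ.image (fun c : F => ((d, c) : Line F)))
        (fun x hx => by
          obtain ⟨c, -, rfl⟩ := mem_image.1 hx
          exact hBT _ (h1 c)) hf (fun x hx hv => by
          obtain ⟨c, -, rfl⟩ := mem_image.1 hx
          have e1 : d = f := congrArg Prod.fst hv
          have e2 : some c = edge D d false f := congrArg Prod.snd hv
          rw [← e1, edge_self] at e2
          exact Option.some_ne_none _ e2)
      rw [card_image_of_injective _ (fun c c' h => (Prod.mk.inj h).2), card_univ] at h2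
      exact hlt h2

end Crest.Agent.R34
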