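import Crest.Agent.R34.Phi

/-! # Row 34: auxiliary lemmas for the entropy lemma -/

set_option autoImplicit false

namespace Crest.Agent.R34.LemmaE

open Finset Crest.Agent.R34

/-- Fibre counting: an event described by a family and target sets that only depend on the
coordinates outside `I`. -/
theorem fibre_count {V E β : Type} [Fintype V] [DecidableEq V] [Fintype E] [DecidableEq E]
    [Nonempty E] (I J : Finset V) (hJ : J ⊆ I) (Fam : (V → E) → Finset β)
    (As : (V → E) → β → V → Finset E)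
    (hdep : ∀ ω ω' : V → E, (∀ v, v ∉ I → ω v = ω' v) → Fam ω = Fam ω' ∧ As ω = As ω')
    (K lam : ℝ) (hlam : 0 ≤ lam) (hK : ∀ ω, ((Fam ω).card : ℝ) ≤ K)
    (hA : ∀ ω B v, ((As ω B v).card : ℝ) ≤ lam * Fintype.card E) :
    (cnt (fun ω : V → E => ∃ B ∈ Fam ω, ∀ v ∈ J, ω v ∈ As ω B v) : ℝ) ≤
      K * lam ^ J.card * Fintype.card (V → E) := by
  classical
  set P : (V → E) → Prop := fun ω => ∃ B ∈ Fam ω, ∀ v ∈ J, ω v ∈ As ω B v with hP
  let mix : (V → E) → (V → E) → (V → E) := fun ω ω' v => if v ∈ I then ω v else ω' v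
  let sw : (V → E) × (V → E) → (V → E) × (V → E) := fun p => (mix p.1 p.2, mix p.2 p.1)
  have hsw : Function.Involutive sw := by
    rintro ⟨ω, ω'⟩
    refine Prod.ext (funext fun v => ?_) (funext fun v => ?_) <;>
      by_cases hv : v ∈ I <;> simp [sw, mix, hv]
  have hpos : (0 : ℝ) < Fintype.card (V → E) := by exact_mod_cast Fintype.card_pos
  -- the box count
  have hbox : ∀ (ω' : V → E) (B : β),
      (cnt (fun ω : V → E => ∀ v ∈ J, ω v ∈ As ω' B v) : ℝ) ≤
        lam ^ J.card * Fintype.card (V → E) := by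
    intro ω' B
    have h1 : (univ.filter fun ω : V → E => ∀ v ∈ J, ω v ∈ As ω' B v) =
        Fintype.piFinset fun v => if v ∈ J then As ω' B v else univ := by
      ext ω
      simp only [mem_filter, mem_univ, true_and, Fintype.mem_piFinset]
      constructor
      · intro h v
        split_ifs with hv
        · exact h v hv
        · exact mem_univ _
      · intro h v hv
        simpa [hv] using h v
    rw [cnt_eq, h1, Fintype.card_piFinset, Fintype.card_pi]
    push_cast
    calc ∏ v, ((if v ∈ J then As ω' B v else univ).card : ℝ)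
        ≤ ∏ v, ((if v ∈ J then lam else 1) * (Fintype.card E : ℝ)) := by
          refine prod_le_prod (fun v _ => by positivity) fun v _ => ?_
          split_ifs with hv
          · exact hA _ _ _
          · simp
      _ = lam ^ J.card * ∏ _v : V, (Fintype.card E : ℝ) := by
          rw [prod_mul_distrib, prod_ite_mem, univ_inter, prod_const]
  have hfib : ∀ ω' : V → E, (cnt (fun ω => P (mix ω ω')) : ℝ) ≤
      K * lam ^ J.card * Fintype.card (V → E) := by
    intro ω'
    have h1 : cnt (fun ω => P (mix ω ω')) ≤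
        cnt (fun ω : V → E => ∃ B ∈ Fam ω', ∀ v ∈ J, ω v ∈ As ω' B v) := by
      refine cnt_mono fun ω hω => ?_
      obtain ⟨B, hB, hv⟩ := hω
      obtain ⟨e1, e2⟩ := hdep (mix ω ω') ω' fun v hv => by simp [mix, hv]
      refine ⟨B, e1 ▸ hB, fun v hvJ => ?_⟩
      have := hv v hvJ
      rw [e2] at this
      simpa [mix, hJ hvJ] using this
    have h2 := cnt_exists_le (Fam ω') fun B (ω : V → E) => ∀ v ∈ J, ω v ∈ As ω' B v
    calc (cnt (fun ω => P (mix ω ω')) : ℝ)
        ≤ ∑ B ∈ Fam ω', (cnt (fun ω : V → E => ∀ v ∈ J, ω v ∈ As ω' B v) : ℝ) := by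
          exact_mod_cast h1.trans h2
      _ ≤ ∑ _B ∈ Fam ω', lam ^ J.card * Fintype.card (V → E) := sum_le_sum fun B _ => hbox ω' B
      _ = (Fam ω').card * (lam ^ J.card * Fintype.card (V → E)) := by
          rw [sum_const, nsmul_eq_mul]
      _ ≤ K * (lam ^ J.card * Fintype.card (V → E)) :=
          mul_le_mul_of_nonneg_right (hK ω') (by positivity)
      _ = _ := by ring
  have h2 : (cnt P : ℝ) * Fintype.card (V → E) = ∑ ω', (cnt (fun ω => P (mix ω ω')) : ℝ) := by
    have e1 : (cnt P : ℝ) * Fintype.card (V → E) =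
        ∑ p : (V → E) × (V → E), if P p.1 then (1 : ℝ) else 0 := by
      rw [cnt_eq_sum, Fintype.sum_prod_type, sum_mul]
      refine sum_congr rfl fun ω _ => ?_
      show _ = ∑ _ω' : V → E, if P ω then (1 : ℝ) else 0
      rw [sum_const, card_univ, nsmul_eq_mul, mul_comm]
    have e2 : ∑ p : (V → E) × (V → E), (if P p.1 then (1 : ℝ) else 0) =
        ∑ p : (V → E) × (V → E), if P (sw p).1 then (1 : ℝ) else 0 :=
      (Equiv.sum_comp hsw.toPerm fun p => if P p.1 then (1 : ℝ) else 0).symm
    rw [e1, e2, Fintype.sum_prod_type_right]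
    refine sum_congr rfl fun ω' _ => ?_
    rw [cnt_eq_sum]
  have h3 : (cnt P : ℝ) * Fintype.card (V → E) ≤
      K * lam ^ J.card * Fintype.card (V → E) * Fintype.card (V → E) := by
    rw [h2]
    calc ∑ ω', (cnt (fun ω => P (mix ω ω')) : ℝ)
        ≤ ∑ _ω' : V → E, K * lam ^ J.card * Fintype.card (V → E) := sum_le_sum fun ω' _ => hfib ω'
      _ = _ := by rw [sum_const, card_univ, nsmul_eq_mul]; ring
  exact le_of_mul_le_mul_right h3 hpos

variable {F : Type} [Field F] [Fintype F] [DecidableEq F] {C : ℕ}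

omit [DecidableEq F] in
theorem card_real_ge : (2 : ℝ) ≤ Fintype.card F := by exact_mod_cast two_le_card (F := F)

theorem abs_wgt_le (hC : 1 ≤ C) (I : Finset (Var F C)) (ω : Conf F C) (X : Pt F) :
    |wgt I ω X| ≤ 1 := by
  unfold wgt
  rw [abs_pow]
  refine pow_le_one₀ (abs_nonneg _) ?_
  have h : (1 : ℝ) ≤ C := by exact_mod_cast hC
  rw [abs_div, abs_neg, abs_one, abs_of_pos (by linarith), div_le_one (by linarith)]
  linarith

theorem card_compl_unc_le (B : Finset (Line F)) : ((unc B)ᶜ).card ≤ B.card * Fintype.card F := by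
  have h : (unc B)ᶜ ⊆ B.biUnion pts := by
    intro X hX
    rw [mem_compl, mem_unc] at hX
    push Not at hX
    obtain ⟨x, hx, h⟩ := hX
    exact mem_biUnion.2 ⟨x, hx, mem_pts.2 h⟩
  refine (card_le_card h).trans (card_biUnion_le.trans ?_)
  simp

/-- The containers are small. -/
theorem card_Gam_le (hC : 1 ≤ C) (I : Finset (Var F C)) (ω : Conf F C) (B : Finset (Line F)) :
    ((Gam I ω B).card : ℝ) * (B.card + 1) ≤ 32 * (Fintype.card F : ℝ) ^ 2 / alpha F C ^ 2 := by
  classical
  have hα := alpha_pos (F := F) C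
  have hq := card_real_ge (F := F)
  rcases B.eq_empty_or_nonempty with rfl | hB
  · have h : Gam I ω (∅ : Finset (Line F)) = ∅ := by
      have hu : unc (∅ : Finset (Line F)) = univ := by
        ext X; simp
      ext x
      simp [Gam, hu, sdiff_eq_empty_iff_subset.2 (subset_univ (pts x))]
    rw [h]
    simp only [card_empty, Nat.cast_zero, zero_mul]
    positivity
  have hi : (1 : ℝ) ≤ B.card := by exact_mod_cast hB.card_pos
  set w : Pt F → ℝ := fun X => if X ∈ (unc B)ᶜ then wgt I ω X else 0 with hw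
  have h1 : ∀ s : Finset (Pt F), ∑ X ∈ s, w X = ∑ X ∈ s \ unc B, wgt I ω X := by
    intro s
    rw [hw, ← sum_filter]
    congr 1
    ext X
    simp only [mem_filter, mem_compl, mem_sdiff]
  have h2 : ∑ X, w X = ∑ X ∈ (unc B)ᶜ, wgt I ω X := by
    rw [h1, compl_eq_univ_sdiff]
  have h3 := card_dev_le w (alpha F C * B.card / 4) (by positivity) (Gam I ω B) (by
    intro x hx
    rw [h1, h2]
    simp only [Gam, mem_filter, mem_univ, true_and] at hx
    exact hx.le)
  have h4 : ∑ X, w X ^ 2 ≤ B.card * (Fintype.card F : ℝ) := by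
    calc ∑ X, w X ^ 2 ≤ ∑ X, if X ∈ (unc B)ᶜ then (1 : ℝ) else 0 := by
          refine sum_le_sum fun X _ => ?_
          simp only [hw]
          split_ifs
          · rw [← sq_abs]
            exact pow_le_one₀ (abs_nonneg _) (abs_wgt_le hC I ω X)
          · simp
      _ = ((unc B)ᶜ).card := by
          rw [sum_boole, filter_mem_eq_inter, univ_inter]
      _ ≤ _ := by exact_mod_cast card_compl_unc_le B
  have h5 : ((Gam I ω B).card : ℝ) * (alpha F C * B.card / 4) ^ 2 ≤
      Fintype.card F * (B.card * (Fintype.card F : ℝ)) :=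
    h3.trans (mul_le_mul_of_nonneg_left h4 (by positivity))
  rw [le_div_iff₀ (by positivity)]
  have h6 : ((Gam I ω B).card : ℝ) * B.card * alpha F C ^ 2 ≤ 16 * (Fintype.card F : ℝ) ^ 2 := by
    have h7 : (((Gam I ω B).card : ℝ) * B.card * alpha F C ^ 2) * B.card ≤
        (16 * (Fintype.card F : ℝ) ^ 2) * B.card := by nlinarith
    exact le_of_mul_le_mul_right h7 (by linarith)
  have h8 : (0 : ℝ) ≤ ((Gam I ω B).card : ℝ) * alpha F C ^ 2 := by positivity
  nlinarith

/-- The family of the possible sets `B`. -/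
noncomputable def Fam (I : Finset (Var F C)) (ω : Conf F C) : Finset (Finset (Line F)) := by
  classical
  exact univ.filter fun B => Fintype.card F ≤ 2 * B.card ∧ B.card ≤ Fintype.card F ∧
    Phi (Gam I ω) B.card B ≤ (Fintype.card F : ℝ) ^ ((9 : ℝ) / 10)

/-- The base of the exponential bound for `Fam`. -/
noncomputable def DD (C : ℕ) : ℝ := 4 * Real.exp 30 * (128 * Real.exp 2 * 16 ^ C)

theorem one_le_aux (C : ℕ) : (1 : ℝ) ≤ 128 * Real.exp 2 * 16 ^ C := by
  have h1 : (1 : ℝ) ≤ Real.exp 2 := Real.one_le_exp (by norm_num)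
  have h2 : (1 : ℝ) ≤ 16 ^ C := one_le_pow₀ (by norm_num)
  nlinarith

theorem one_le_DD (C : ℕ) : 1 ≤ DD C := by
  have h1 : (1 : ℝ) ≤ Real.exp 30 := Real.one_le_exp (by norm_num)
  have := one_le_aux C
  unfold DD
  nlinarith

theorem pow_div_factorial_sq_le (a : ℝ) (ha : 0 ≤ a) (n : ℕ) (hn : 0 < n) :
    a ^ n / (n.factorial : ℝ) ^ 2 ≤ (a * Real.exp 2 / (n : ℝ) ^ 2) ^ n := by
  have hn' : (0 : ℝ) < n := by exact_mod_cast hn
  have hf : (0 : ℝ) < n.factorial := by exact_mod_cast n.factorial_pos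
  have h1 : (n : ℝ) ^ n / n.factorial ≤ Real.exp n := Real.pow_div_factorial_le_exp _ hn'.le n
  have h2 : ((n : ℝ) ^ n / n.factorial) ^ 2 ≤ Real.exp 2 ^ n := by
    calc ((n : ℝ) ^ n / n.factorial) ^ 2 ≤ Real.exp n ^ 2 :=
          pow_le_pow_left₀ (by positivity) h1 2
      _ = Real.exp 2 ^ n := by
          rw [← Real.exp_nat_mul, ← Real.exp_nat_mul]
          congr 1
          push_cast
          ring
  rw [div_pow, div_le_iff₀ (by positivity)] at h2
  rw [div_pow, mul_pow, div_le_div_iff₀ (by positivity) (by positivity), mul_assoc]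
  refine mul_le_mul_of_nonneg_left ?_ (by positivity)
  rw [← pow_mul, mul_comm 2 n, pow_mul]
  exact h2

omit [DecidableEq F] in
theorem card_line_rpow_le :
    (Fintype.card (Line F) : ℝ) ^ ((Fintype.card F : ℝ) ^ ((9 : ℝ) / 10)) ≤
      Real.exp 30 ^ Fintype.card F := by
  have hq := card_real_ge (F := F)
  set q : ℝ := (Fintype.card F : ℝ) with hqdef
  have hq0 : 0 < q := by linarith
  have hL : (Fintype.card (Line F) : ℝ) = (q + 1) * q := by
    rw [card_line]; push_cast; rfl
  have hL3 : (q + 1) * q ≤ q ^ 3 := by nlinarith [mul_pos hq0 hq0]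
  have hlog : Real.log ((q + 1) * q) ≤ 30 * q ^ ((1 : ℝ) / 10) := by
    have h1 : Real.log ((q + 1) * q) ≤ Real.log (q ^ 3) :=
      Real.log_le_log (by positivity) hL3
    have h2 := Real.log_le_rpow_div hq0.le (show (0 : ℝ) < 1 / 10 by norm_num)
    rw [Real.log_pow] at h1
    have h3 : q ^ ((1 : ℝ) / 10) / (1 / 10) = 10 * q ^ ((1 : ℝ) / 10) := by ring
    push_cast at h1
    linarith
  rw [hL, Real.rpow_def_of_pos (by positivity), ← Real.exp_nat_mul]
  refine Real.exp_le_exp.2 ?_
  have h4 : q ^ ((1 : ℝ) / 10) * q ^ ((9 : ℝ) / 10) = q := by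
    rw [← Real.rpow_add hq0]; norm_num
  have h5 : 0 ≤ q ^ ((9 : ℝ) / 10) := by positivity
  calc Real.log ((q + 1) * q) * q ^ ((9 : ℝ) / 10)
      ≤ 30 * q ^ ((1 : ℝ) / 10) * q ^ ((9 : ℝ) / 10) := mul_le_mul_of_nonneg_right hlog h5
    _ = (Fintype.card F : ℝ) * 30 := by rw [mul_assoc, h4]; ring

theorem card_Fam_le (hC : 1 ≤ C) (I : Finset (Var F C)) (ω : Conf F C) :
    ((Fam I ω).card : ℝ) ≤ DD C ^ Fintype.card F := by
  classical
  have hα := alpha_pos (F := F) C
  have hα1 := alpha_le_one (F := F) C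
  have hq := card_real_ge (F := F)
  set a : ℝ := 32 * (Fintype.card F : ℝ) ^ 2 / alpha F C ^ 2 with ha
  set e : ℝ := (Fintype.card F : ℝ) ^ ((9 : ℝ) / 10) with he
  set s : Finset ℕ := (range (Fintype.card F + 1)).filter fun n => Fintype.card F ≤ 2 * n with hs
  have hα2 : alpha F C ^ 2 ≤ 1 := pow_le_one₀ hα.le hα1
  have hα3 : 1 / alpha F C ^ 2 ≤ 16 ^ C := by
    have h1 := alpha_ge (F := F) C
    have h2 : ((1 / 4 : ℝ) ^ C) ^ 2 ≤ alpha F C ^ 2 := pow_le_pow_left₀ (by positivity) h1 2
    rw [div_le_iff₀ (by positivity)]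
    have h3 : (16 : ℝ) ^ C * ((1 / 4 : ℝ) ^ C) ^ 2 = 1 := by
      rw [← pow_mul, mul_comm C 2, pow_mul, ← mul_pow]; norm_num
    calc (1 : ℝ) = 16 ^ C * ((1 / 4 : ℝ) ^ C) ^ 2 := h3.symm
      _ ≤ 16 ^ C * alpha F C ^ 2 := mul_le_mul_of_nonneg_left h2 (by positivity)
  have h1 : (Fam I ω).card ≤ ∑ n ∈ s,
      cnt (fun B : Finset (Line F) => B.card = n ∧ Phi (Gam I ω) n B ≤ e) := by
    refine le_trans ?_ (cnt_exists_le s fun n (B : Finset (Line F)) =>
      B.card = n ∧ Phi (Gam I ω) n B ≤ e)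
    rw [cnt_eq]
    refine card_le_card fun B hB => ?_
    simp only [Fam, mem_filter, mem_univ, true_and] at hB
    simp only [mem_filter, mem_univ, true_and, hs, mem_range]
    exact ⟨B.card, ⟨by omega, hB.1⟩, rfl, hB.2.2⟩
  have h2 : ∀ n ∈ s, (cnt (fun B : Finset (Line F) => B.card = n ∧ Phi (Gam I ω) n B ≤ e) : ℝ) ≤
      (2 * Real.exp 30 * (128 * Real.exp 2 * 16 ^ C)) ^ Fintype.card F := by
    intro n hn
    simp only [hs, mem_filter, mem_range] at hn
    have hnq : n ≤ Fintype.card F := by omega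
    have hnq' : (n : ℝ) ≤ Fintype.card F := by exact_mod_cast hnq
    have hn2 : (Fintype.card F : ℝ) ≤ 2 * n := by exact_mod_cast hn.2
    have hn0 : 0 < n := by
      have := two_le_card (F := F)
      omega
    have hn0' : (0 : ℝ) < n := by exact_mod_cast hn0
    have hna : (n : ℝ) ≤ a := by
      rw [ha, le_div_iff₀ (by positivity)]
      nlinarith
    have h3 := cnt_Phi_le (Gam I ω) a (card_Gam_le hC I ω) n hna e
    have h4 := pow_div_factorial_sq_le a (by positivity) n hn0
    have h5 : a * Real.exp 2 / (n : ℝ) ^ 2 ≤ 128 * Real.exp 2 * 16 ^ C := by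
      rw [div_le_iff₀ (by positivity)]
      have h6 : (Fintype.card F : ℝ) ^ 2 ≤ 4 * (n : ℝ) ^ 2 := by nlinarith
      have h7 : a ≤ 128 * 16 ^ C * (n : ℝ) ^ 2 := by
        calc a = 32 * (Fintype.card F : ℝ) ^ 2 * (1 / alpha F C ^ 2) := by rw [ha]; ring
          _ ≤ 32 * (4 * (n : ℝ) ^ 2) * 16 ^ C := by gcongr
          _ = _ := by ring
      calc a * Real.exp 2 ≤ 128 * 16 ^ C * (n : ℝ) ^ 2 * Real.exp 2 := by gcongr
        _ = _ := by ring
    have h8 : (a * Real.exp 2 / (n : ℝ) ^ 2) ^ n ≤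
        (128 * Real.exp 2 * 16 ^ C) ^ Fintype.card F :=
      (pow_le_pow_left₀ (by positivity) h5 n).trans (pow_le_pow_right₀ (one_le_aux C) hnq)
    have h9 : (2 : ℝ) ^ n ≤ 2 ^ Fintype.card F := pow_le_pow_right₀ (by norm_num) hnq
    have h10 := card_line_rpow_le (F := F)
    refine h3.trans ?_
    rw [mul_div_assoc, mul_pow, mul_pow]
    have h11 := h4.trans h8
    gcongr
  have h3 : (s.card : ℝ) ≤ 2 ^ Fintype.card F := by
    have h4 : s.card ≤ Fintype.card F + 1 := by
      simpa using card_filter_le (range (Fintype.card F + 1)) fun n => Fintype.card F ≤ 2 * n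
    have h5 : Fintype.card F + 1 ≤ 2 ^ Fintype.card F := Nat.lt_two_pow_self
    exact_mod_cast h4.trans h5
  calc ((Fam I ω).card : ℝ) ≤ ∑ n ∈ s,
        (cnt (fun B : Finset (Line F) => B.card = n ∧ Phi (Gam I ω) n B ≤ e) : ℝ) := by
        exact_mod_cast h1
    _ ≤ ∑ _n ∈ s, (2 * Real.exp 30 * (128 * Real.exp 2 * 16 ^ C)) ^ Fintype.card F :=
        sum_le_sum h2
    _ = s.card * (2 * Real.exp 30 * (128 * Real.exp 2 * 16 ^ C)) ^ Fintype.card F := by
        rw [sum_const, nsmul_eq_mul]
    _ ≤ 2 ^ Fintype.card F * (2 * Real.exp 30 * (128 * Real.exp 2 * 16 ^ C)) ^ Fintype.card F := by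
        gcongr
    _ = DD C ^ Fintype.card F := by
        rw [← mul_pow, DD]
        congr 1
        ring

theorem filter_off_congr {I : Finset (Var F C)} {ω ω' : Conf F C}
    (h : ∀ v, v ∉ I → ω v = ω' v) : wgt I ω = wgt I ω' := by
  funext X
  unfold wgt
  congr 2
  ext v
  simp only [mem_filter, mem_univ, true_and]
  exact and_congr_right fun hv => by rw [h v hv]

theorem Fam_congr {I : Finset (Var F C)} {ω ω' : Conf F C} (h : ∀ v, v ∉ I → ω v = ω' v) :
    Fam I ω = Fam I ω' := by
  have : Gam I ω = Gam I ω' := by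
    funext B
    unfold Gam
    rw [filter_off_congr h]
  unfold Fam
  rw [this]

theorem rest_congr {I : Finset (Var F C)} {ω ω' : Conf F C} (h : ∀ v, v ∉ I → ω v = ω' v) :
    rest I ω = rest I ω' := by
  funext T
  ext X
  simp only [rest, mem_filter]
  exact and_congr_right fun _ => forall_congr' fun v => imp_congr_right fun hv => by rw [h v hv]

/-- Lines containing many points of `T`. -/
noncomputable def richL (T : Finset (Pt F)) : Finset (Line F) := by
  classical
  exact univ.filter fun x => 3 * (T.card : ℝ) / (2 * Fintype.card F) ≤ ((T ∩ pts x).card : ℝ)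

/-- Offsets of the rich lines of a direction. -/
noncomputable def richD (T : Finset (Pt F)) (d : Dir F) : Finset F :=
  univ.filter fun c => (d, c) ∈ richL T

/-- The target set of a variable of direction `d`. -/
noncomputable def Aset (lam : ℝ) (T : Finset (Pt F)) (d : Dir F) : Finset F := by
  classical
  exact if ((richD T d).card : ℝ) ≤ lam * Fintype.card F then richD T d else ∅

theorem card_Aset_le {lam : ℝ} (hlam : 0 ≤ lam) (T : Finset (Pt F)) (d : Dir F) :
    ((Aset lam T d).card : ℝ) ≤ lam * Fintype.card F := by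
  unfold Aset
  split_ifs with h
  · exact h
  · simp only [card_empty, Nat.cast_zero]
    positivity

theorem card_richL_le (T : Finset (Pt F)) :
    ((richL T).card : ℝ) * T.card ≤ 4 * (Fintype.card F : ℝ) ^ 3 := by
  classical
  have hq := card_real_ge (F := F)
  rcases Nat.eq_zero_or_pos T.card with h0 | h0
  · rw [h0]
    simp only [Nat.cast_zero, mul_zero]
    positivity
  have h0' : (0 : ℝ) < T.card := by exact_mod_cast h0
  have h := card_dev_set_le T (T.card / (2 * Fintype.card F)) (by positivity) (richL T) (by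
    intro x hx
    simp only [richL, mem_filter, mem_univ, true_and] at hx
    refine le_trans ?_ (le_abs_self _)
    have e : 3 * (T.card : ℝ) / (2 * Fintype.card F) =
        T.card / (2 * Fintype.card F) + T.card / Fintype.card F := by
      field_simp
      ring
    linarith)
  rw [div_pow, ← mul_div_assoc, div_le_iff₀ (by positivity)] at h
  have h1 : (((richL T).card : ℝ) * T.card) * T.card ≤ (4 * (Fintype.card F : ℝ) ^ 3) * T.card := by
    nlinarith
  exact le_of_mul_le_mul_right h1 h0'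

/-- The deterministic part: many variables of `I` take their value in a small target set. -/
theorem exists_J (I : Finset (Var F C)) (ω : Conf F C) (T : Finset (Pt F)) (s g lam : ℝ)
    (hs0 : 0 < s) (hg : 0 < g)
    (hcov : ∀ X ∈ T, ∃ v ∈ I, ω v = co v.1 X) (hI : 2 * I.card ≤ Fintype.card F)
    (hs : ∀ x, ((T ∩ pts x).card : ℝ) ≤ s) (hT : g * Fintype.card F * s ≤ T.card)
    (hls : 32 * C ≤ s * lam * g ^ 2) :
    ∃ J ⊆ I, g / 8 * Fintype.card F ≤ J.card ∧ ∀ v ∈ J, ω v ∈ Aset lam T v.1 := by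
  classical
  have hq := card_real_ge (F := F)
  set q : ℝ := (Fintype.card F : ℝ) with hqdef
  have hq0 : 0 < q := by linarith
  have hT0 : (0 : ℝ) < T.card := lt_of_lt_of_le (by positivity) hT
  set IA := I.filter fun v => (v.1, ω v) ∈ richL T with hIA
  have hI' : 2 * (I.card : ℝ) ≤ q := by rw [hqdef]; exact_mod_cast hI
  -- many variables have a rich line
  have h1 : (T.card : ℝ) ≤ ∑ v ∈ I, ((T ∩ pts (v.1, ω v)).card : ℝ) := by
    have : T ⊆ I.biUnion fun v => T ∩ pts (v.1, ω v) := by
      intro X hX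
      obtain ⟨v, hv, h⟩ := hcov X hX
      exact mem_biUnion.2 ⟨v, hv, mem_inter.2 ⟨hX, mem_pts.2 h.symm⟩⟩
    exact_mod_cast (card_le_card this).trans card_biUnion_le
  have h2 : ∑ v ∈ I, ((T ∩ pts (v.1, ω v)).card : ℝ) ≤
      ∑ v ∈ I, ((if (v.1, ω v) ∈ richL T then s else 0) + 3 * (T.card : ℝ) / (2 * q)) := by
    refine sum_le_sum fun v _ => ?_
    split_ifs with h
    · have : 0 ≤ 3 * (T.card : ℝ) / (2 * q) := by positivity
      linarith [hs (v.1, ω v)]
    · simp only [richL, mem_filter, mem_univ, true_and, not_le] at h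
      linarith
  rw [sum_add_distrib, ← sum_filter, sum_const, sum_const, nsmul_eq_mul, nsmul_eq_mul] at h2
  have h3 : (I.card : ℝ) * (3 * (T.card : ℝ) / (2 * q)) ≤ 3 / 4 * T.card := by
    rw [← mul_div_assoc, div_le_iff₀ (by positivity)]
    nlinarith
  have h4 : g * q / 4 ≤ IA.card := by
    have h5 : g * q / 4 * s ≤ IA.card * s := by
      rw [hIA]
      nlinarith
    exact le_of_mul_le_mul_right h5 hs0
  -- few directions are bad
  set Dbad : Finset (Dir F) := univ.filter fun d => ¬ ((richD T d).card : ℝ) ≤ lam * q with hD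
  have h6 : ∑ d, ((richD T d).card : ℝ) = (richL T).card := by
    have : (richL T).card = ∑ d, (richD T d).card := by
      rw [card_eq_sum_card_fiberwise (s := richL T) (t := univ) (f := Prod.fst)
        fun _ _ => mem_univ _]
      refine sum_congr rfl fun d _ => ?_
      refine card_bij (fun x _ => x.2) ?_ ?_ ?_
      · rintro ⟨e, c⟩ hx
        simp only [mem_filter] at hx
        obtain ⟨hx, rfl⟩ := hx
        simpa [richD] using hx
      · rintro ⟨e, c⟩ hx ⟨e', c'⟩ hx' h
        simp only [mem_filter] at hx hx'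
        exact Prod.ext (hx.2.trans hx'.2.symm) h
      · intro c hc
        refine ⟨(d, c), ?_, rfl⟩
        simpa [richD] using hc
    exact_mod_cast this.symm
  have h7 : (Dbad.card : ℝ) * (lam * q) ≤ (richL T).card := by
    rw [← h6]
    calc (Dbad.card : ℝ) * (lam * q) = ∑ _d ∈ Dbad, lam * q := by rw [sum_const, nsmul_eq_mul]
      _ ≤ ∑ d ∈ Dbad, ((richD T d).card : ℝ) := sum_le_sum fun d hd => by
          simp only [hD, mem_filter, mem_univ, true_and, not_le] at hd
          exact hd.le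
      _ ≤ _ := sum_le_sum_of_subset_of_nonneg (subset_univ _) fun _ _ _ => by positivity
  have h8 := card_richL_le T
  rw [← hqdef] at h8
  have h9 : (C : ℝ) * Dbad.card ≤ g * q / 8 := by
    have h10 : (Dbad.card : ℝ) * (lam * q) * (g * q * s) ≤ 4 * q ^ 3 :=
      le_trans (mul_le_mul h7 hT (by positivity) (by positivity)) h8
    have h11 : (Dbad.card : ℝ) * (s * lam * g) ≤ 4 * q := by
      have : (Dbad.card : ℝ) * (s * lam * g) * q ^ 2 ≤ 4 * q * q ^ 2 := by nlinarith
      exact le_of_mul_le_mul_right this (by positivity)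
    have h12 : 32 * ((C : ℝ) * Dbad.card) ≤ 4 * q * g := by
      calc 32 * ((C : ℝ) * Dbad.card) = 32 * C * Dbad.card := by ring
        _ ≤ s * lam * g ^ 2 * Dbad.card := by gcongr
        _ = (Dbad.card : ℝ) * (s * lam * g) * g := by ring
        _ ≤ 4 * q * g := by gcongr
    linarith
  refine ⟨IA.filter fun v => v.1 ∉ Dbad, (filter_subset _ _).trans (filter_subset _ _), ?_, ?_⟩
  · have h13 : IA.card ≤ (IA.filter fun v => v.1 ∉ Dbad).card + C * Dbad.card := by
      have h14 : IA ⊆ (IA.filter fun v => v.1 ∉ Dbad) ∪ Dbad ×ˢ univ := by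
        intro v hv
        by_cases h : v.1 ∈ Dbad
        · exact mem_union_right _ (mem_product.2 ⟨h, mem_univ _⟩)
        · exact mem_union_left _ (mem_filter.2 ⟨hv, h⟩)
      refine (card_le_card h14).trans ((card_union_le _ _).trans ?_)
      rw [card_product, card_univ, Fintype.card_fin, mul_comm]
    have h15 : (IA.card : ℝ) ≤ (IA.filter fun v => v.1 ∉ Dbad).card + C * Dbad.card := by
      exact_mod_cast h13
    linarith
  · intro v hv
    simp only [hIA, hD, mem_filter, mem_univ, true_and, not_not] at hv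
    unfold Aset
    rw [if_pos hv.2]
    simpa [richD] using hv.1.2

end Crest.Agent.R34.LemmaE
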