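import Crest.Agent.R34.Split
import Crest.Agent.R34.LemmaEAux

/-! # Row 34: the entropy lemma -/

set_option autoImplicit false

namespace Crest.Agent.R34

open Finset

/-- Take `γ` from `exists_split`.  `|Gam I ω B'| (|B'|+1) ≤ a := 32 q²/α²` (`card_dev_le` for the weight
`wgt · 1_{(unc B')ᶜ}`, `|wgt| ≤ 1`, `|(unc B')ᶜ| ≤ |B'| q`; `Gam I ω ∅ = ∅`), so by `cnt_Phi_le` the family
`Fam I ω = {B | q ≤ 2|B|, |B| ≤ q, Phi (Gam I ω) |B| B ≤ q^(9/10)}` has at most
`(q+1) 2^q (q²+q)^(q^(9/10)) (128 e² 16^C)^q ≤ exp (K₀ q)` members (`n! ≥ (n/e)^n`); it depends only on `ω` off `I`.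
For a bad `ω` take `B`, `I`; `T' = rest I ω (τ B)`, `δ' = |T'| ≥ γ ρ q s`, `s = σ B`.  Every point of `T'` is on
the line of some `v ∈ I`.  `A = {x | 3δ'/(2q) ≤ |T' ∩ pts x|}` has `|A| ≤ 4q³/δ' ≤ 4q²/(γρs)`
(`card_dev_set_le`); since `|I| ≤ q/2` the `v ∈ I` with line outside `A` cover `≤ (3/4) δ'`, so at least
`δ'/(4s) ≥ γρq/4` variables of `I` have their line in `A`.  Directions with more than `λ q` lines of `A` number
`≤ 4q/(γρsλ)` and carry `≤ γρq/8` variables if `s λ ≥ 32 C/(γρ)²`.  So there is `J ⊆ I`, `|J| ≥ γρq/8`, with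
`ω v ∈ Aset I ω B v` for `v ∈ J`, where `Aset` (empty for bad directions) has `≤ λ q` elements and depends only
on `ω` off `I`.  Fibre counting (`Equiv.piEquivPiSubtypeProd`, or the involution swapping the `I`-parts of two
configurations): the probability is at most `4^N exp (K₀ q) λ^(γρq/8)`; choose `λ ≤ 1` so small that this is
`≤ exp (-q)`, then `s₀ = 32 C/((γρ)² λ)`. -/
theorem lemmaE (C : ℕ) (hC : 1 ≤ C) (ρ : ℝ) (hρ : 0 < ρ) :
    ∃ s₀ : ℝ, 0 < s₀ ∧
      ∀ (τ : ∀ (F : Type) [Field F] [Fintype F] [DecidableEq F], Finset (Line F) → Finset (Pt F))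
        (σ : ∀ (F : Type) [Field F] [Fintype F] [DecidableEq F], Finset (Line F) → ℝ),
        Rare C (fun F _ _ _ ω => Inj ω ∧ Reg1 ω ∧ ∃ B : Finset (Line F),
          B.card ≤ Fintype.card F ∧ Disjoint (unc B) (unc (KK ω)) ∧
          Disjoint (τ F B) (unc (KK ω)) ∧ s₀ ≤ σ F B ∧
          ρ * Fintype.card F * σ F B ≤ (τ F B).card ∧
          ∀ x, ((τ F B ∩ pts x).card : ℝ) ≤ σ F B) := by
  classical
  obtain ⟨γ, hγ, q₁, hsplit⟩ := exists_split C hC ρ hρ
  set g : ℝ := γ * ρ with hg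
  have hg0 : 0 < g := mul_pos hγ hρ
  set E : ℝ := 2 * (16 ^ C * LemmaE.DD C) with hE
  have hD := LemmaE.one_le_DD C
  have h16 : (1 : ℝ) ≤ 16 ^ C := one_le_pow₀ (by norm_num)
  have hE1 : 1 ≤ E := by rw [hE]; nlinarith
  have hE0 : 0 < E := by linarith
  have hlog : 0 ≤ Real.log E := Real.log_nonneg hE1
  set lam : ℝ := Real.exp (-(Real.log E / (g / 8))) with hlam
  have hlam0 : 0 < lam := Real.exp_pos _
  have hC' : (0 : ℝ) < C := by exact_mod_cast hC
  refine ⟨32 * C / (lam * g ^ 2), by positivity, fun τ σ ε hε => ?_⟩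
  obtain ⟨q₂, hq₂⟩ := exists_pow_lt_of_lt_one hε (show (1 / 2 : ℝ) < 1 by norm_num)
  refine ⟨max q₁ q₂, fun F _ _ _ hq => ?_⟩
  have hq1 : q₁ ≤ Fintype.card F := le_trans (le_max_left _ _) hq
  have hq2 : q₂ ≤ Fintype.card F := le_trans (le_max_right _ _) hq
  have hqr := LemmaE.card_real_ge (F := F)
  set S : Finset (Finset (Var F C) × Finset (Var F C)) :=
    univ.filter fun p => p.2 ⊆ p.1 ∧ g / 8 * Fintype.card F ≤ (p.2.card : ℝ) with hS
  set ev : Finset (Var F C) × Finset (Var F C) → Conf F C → Prop := fun p ω =>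
    ∃ B ∈ LemmaE.Fam p.1 ω, ∀ v ∈ p.2, ω v ∈ LemmaE.Aset lam (rest p.1 ω (τ F B)) v.1 with hev
  have h1 : cnt (fun ω : Conf F C => Inj ω ∧ Reg1 ω ∧ ∃ B : Finset (Line F),
          B.card ≤ Fintype.card F ∧ Disjoint (unc B) (unc (KK ω)) ∧
          Disjoint (τ F B) (unc (KK ω)) ∧ 32 * C / (lam * g ^ 2) ≤ σ F B ∧
          ρ * Fintype.card F * σ F B ≤ (τ F B).card ∧
          ∀ x, ((τ F B ∩ pts x).card : ℝ) ≤ σ F B) ≤ ∑ p ∈ S, cnt (ev p) := by
    refine le_trans (cnt_mono ?_) (cnt_exists_le S ev)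
    rintro ω ⟨hinj, hreg, B, hB, hdis, hdis', hs₀, hT, hline⟩
    have hs0 : 0 < σ F B := lt_of_lt_of_le (by positivity) hs₀
    obtain ⟨hB2, I, hI, hrest, hPhi⟩ :=
      hsplit F hq1 ω B (τ F B) (σ F B) hinj hreg hB hdis hs0 hT hline
    obtain ⟨J, hJI, hJ, hJA⟩ := LemmaE.exists_J I ω (rest I ω (τ F B)) (σ F B) g lam hs0 hg0
      (by
        intro X hX
        simp only [rest, mem_filter] at hX
        have h2 : X ∉ unc (KK ω) := disjoint_left.1 hdis' hX.1
        rw [mem_unc_KK] at h2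
        push Not at h2
        obtain ⟨v, hv⟩ := h2
        refine ⟨v, ?_, hv⟩
        by_contra hvI
        exact hX.2 v hvI hv)
      hI
      (by
        intro x
        refine le_trans ?_ (hline x)
        exact_mod_cast card_le_card (inter_subset_inter_right (filter_subset _ _)))
      (by
        refine le_trans ?_ hrest
        calc g * Fintype.card F * σ F B = γ * (ρ * Fintype.card F * σ F B) := by rw [hg]; ring
          _ ≤ _ := mul_le_mul_of_nonneg_left hT hγ.le)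
      (by
        rw [div_le_iff₀ (by positivity)] at hs₀
        linarith)
    refine ⟨(I, J), ?_, B, ?_, hJA⟩
    · simp only [hS, mem_filter, mem_univ, true_and]
      exact ⟨hJI, hJ⟩
    · simp only [LemmaE.Fam, mem_filter, mem_univ, true_and]
      exact ⟨hB2, hB, hPhi⟩
  have h2 : ∀ p ∈ S, (cnt (ev p) : ℝ) ≤
      (LemmaE.DD C / E) ^ Fintype.card F * Fintype.card (Conf F C) := by
    intro p hp
    simp only [hS, mem_filter, mem_univ, true_and] at hp
    have h3 := LemmaE.fibre_count p.1 p.2 hp.1 (LemmaE.Fam p.1)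
      (fun ω B v => LemmaE.Aset lam (rest p.1 ω (τ F B)) v.1)
      (fun ω ω' h => ⟨LemmaE.Fam_congr h, by rw [LemmaE.rest_congr h]⟩)
      (LemmaE.DD C ^ Fintype.card F) lam hlam0.le (LemmaE.card_Fam_le hC p.1)
      (fun ω B v => LemmaE.card_Aset_le hlam0.le _ _)
    refine h3.trans (mul_le_mul_of_nonneg_right ?_ (by positivity))
    rw [div_pow, div_eq_mul_inv]
    refine mul_le_mul_of_nonneg_left ?_ (by positivity)
    have h4 : (E ^ Fintype.card F)⁻¹ = Real.exp (-(Fintype.card F * Real.log E)) := by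
      rw [Real.exp_neg, Real.exp_nat_mul, Real.exp_log hE0]
    rw [h4, hlam, ← Real.exp_nat_mul]
    refine Real.exp_le_exp.2 ?_
    have h5 : (Fintype.card F : ℝ) * Real.log E ≤ p.2.card * (Real.log E / (g / 8)) := by
      calc (Fintype.card F : ℝ) * Real.log E
          = g / 8 * Fintype.card F * (Real.log E / (g / 8)) := by field_simp
        _ ≤ _ := mul_le_mul_of_nonneg_right hp.2 (by positivity)
    linarith
  have h3 : (S.card : ℝ) ≤ (16 ^ C) ^ Fintype.card F := by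
    have h4 : S.card ≤ (16 ^ C) ^ Fintype.card F := by
      refine (card_le_univ _).trans ?_
      rw [Fintype.card_prod, Fintype.card_finset, card_var, ← pow_add, ← pow_mul,
        show (16 : ℕ) = 2 ^ 4 by norm_num, ← pow_mul]
      refine Nat.pow_le_pow_right (by norm_num) ?_
      have := two_le_card (F := F)
      nlinarith
    exact_mod_cast h4
  have h5 : (1 / 2 : ℝ) ^ Fintype.card F ≤ ε :=
    (pow_le_pow_of_le_one (by norm_num) (by norm_num) hq2).trans hq₂.le
  calc _ ≤ ((∑ p ∈ S, cnt (ev p) : ℕ) : ℝ) := by exact_mod_cast h1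
    _ = ∑ p ∈ S, (cnt (ev p) : ℝ) := by push_cast; rfl
    _ ≤ ∑ _p ∈ S, (LemmaE.DD C / E) ^ Fintype.card F * Fintype.card (Conf F C) := sum_le_sum h2
    _ = S.card * ((LemmaE.DD C / E) ^ Fintype.card F * Fintype.card (Conf F C)) := by
        rw [sum_const, nsmul_eq_mul]
    _ ≤ (16 ^ C) ^ Fintype.card F *
          ((LemmaE.DD C / E) ^ Fintype.card F * Fintype.card (Conf F C)) := by
        gcongr
    _ = (1 / 2) ^ Fintype.card F * Fintype.card (Conf F C) := by
        rw [← mul_assoc, ← mul_pow]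
        congr 2
        rw [hE]
        field_simp
    _ ≤ ε * Fintype.card (Conf F C) := by gcongr

end Crest.Agent.R34
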