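import Crest.Agent.R34.McDiarmid

/-! # Row 34: regularity of a random configuration, part 1 -/

set_option autoImplicit false

namespace Crest.Agent.R34

open Finset

namespace Reg134

theorem cnt_pi {ι α : Type} [Fintype ι] [DecidableEq ι] [Fintype α] (A : ι → Finset α) :
    cnt (fun ω : ι → α => ∀ v, ω v ∈ A v) = ∏ v, (A v).card := by
  classical
  rw [cnt_eq, ← Fintype.card_piFinset]
  congr 1
  ext ω
  simp [Fintype.mem_piFinset]

theorem cnt_pi_real {ι α : Type} [Fintype ι] [DecidableEq ι] [Fintype α] [Nonempty α]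
    (A : ι → Finset α) :
    (cnt (fun ω : ι → α => ∀ v, ω v ∈ A v) : ℝ)
      = (∏ v, ((A v).card / Fintype.card α : ℝ)) * Fintype.card (ι → α) := by
  have hq : (Fintype.card α : ℝ) ≠ 0 := by exact_mod_cast Fintype.card_ne_zero
  rw [cnt_pi, prod_div_distrib, prod_const, card_univ, Fintype.card_fun]
  push_cast
  field_simp

theorem cnt_equiv {Ω Ω' : Type} [Fintype Ω] [Fintype Ω'] (e : Ω ≃ Ω') (p : Ω' → Prop) :
    cnt (fun ω => p (e ω)) = cnt p := by
  classical
  have h : (cnt (fun ω => p (e ω)) : ℝ) = cnt p := by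
    rw [cnt_eq_sum, cnt_eq_sum]
    exact Equiv.sum_comp e (fun x => if p x then (1 : ℝ) else 0)
  exact_mod_cast h

theorem sum_card_filter {Ω β : Type} [Fintype Ω] (s : Finset β) (p : Ω → β → Prop)
    [∀ ω, DecidablePred (p ω)] :
    ∑ ω, ((s.filter (p ω)).card : ℝ) = ∑ X ∈ s, (cnt (fun ω => p ω X) : ℝ) := by
  classical
  simp only [cnt_eq_sum, ← sum_boole]
  exact sum_comm

theorem sum_cnt_comm {Ω β : Type} [Fintype Ω] [Fintype β] (p : Ω → β → Prop) :
    ∑ ω, (cnt (p ω) : ℝ) = ∑ X, (cnt (fun ω => p ω X) : ℝ) := by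
  classical
  simp only [cnt_eq_sum]
  exact sum_comm

theorem abs_card_filter_sub_le {β : Type} [DecidableEq β] (s D : Finset β) (p r : β → Prop)
    [DecidablePred p] [DecidablePred r] (h : ∀ X ∈ s, X ∉ D → (p X ↔ r X)) :
    |((s.filter p).card : ℝ) - (s.filter r).card| ≤ D.card := by
  have h1 : (s.filter p).card ≤ (s.filter r).card + D.card := by
    refine le_trans (card_le_card ?_) (card_union_le _ _)
    intro X hX
    rw [mem_filter] at hX
    by_cases hD : X ∈ D
    · exact mem_union_right _ hD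
    · exact mem_union_left _ (mem_filter.2 ⟨hX.1, (h X hX.1 hD).1 hX.2⟩)
  have h2 : (s.filter r).card ≤ (s.filter p).card + D.card := by
    refine le_trans (card_le_card ?_) (card_union_le _ _)
    intro X hX
    rw [mem_filter] at hX
    by_cases hD : X ∈ D
    · exact mem_union_right _ hD
    · exact mem_union_left _ (mem_filter.2 ⟨hX.1, (h X hX.1 hD).2 hX.2⟩)
  have h1' : ((s.filter p).card : ℝ) ≤ (s.filter r).card + D.card := by exact_mod_cast h1
  have h2' : ((s.filter r).card : ℝ) ≤ (s.filter p).card + D.card := by exact_mod_cast h2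
  rw [abs_le]
  constructor <;> linarith

theorem mcd {ι α : Type} [Fintype ι] [DecidableEq ι] [Fintype α] [Nonempty α]
    (f : (ι → α) → ℝ) (c : ℝ) (hc : 0 < c)
    (hf : ∀ ω i a, |f (Function.update ω i a) - f ω| ≤ c) (t : ℝ) (ht : 0 < t)
    (N : ℝ) (hN : (Fintype.card ι : ℝ) ≤ N) :
    (cnt (fun ω => t ≤ |f ω - (∑ ω', f ω') / Fintype.card (ι → α)|) : ℝ) ≤
      2 * Real.exp (-(t ^ 2) / (2 * N * c ^ 2)) * Fintype.card (ι → α) := by
  rcases Nat.eq_zero_or_pos (Fintype.card ι) with h0 | hpos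
  · have hE : IsEmpty ι := Fintype.card_eq_zero_iff.1 h0
    have h1 : cnt (fun ω => t ≤ |f ω - (∑ ω', f ω') / Fintype.card (ι → α)|) = 0 := by
      classical
      rw [cnt_eq, card_eq_zero, filter_eq_empty_iff]
      intro ω _
      have h2 : ∑ ω', f ω' = f ω := by
        rw [Fintype.sum_subsingleton _ ω]
      have h3 : Fintype.card (ι → α) = 1 := by rw [Fintype.card_fun, h0, pow_zero]
      rw [h2, h3]
      simpa using ht
    rw [h1]
    push_cast
    positivity
  · refine (mcdiarmid f c hc hf t ht.le).trans ?_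
    have hp : (0 : ℝ) < Fintype.card ι := by exact_mod_cast hpos
    refine mul_le_mul_of_nonneg_right (mul_le_mul_of_nonneg_left (Real.exp_le_exp.2 ?_)
      (by norm_num)) (by positivity)
    rw [neg_div, neg_div, neg_le_neg_iff]
    refine div_le_div_of_nonneg_left (by positivity) (by positivity) ?_
    gcongr

theorem exp_le_one_sub {x : ℝ} (h0 : 0 ≤ x) (h1 : x ≤ 1 / 2) : Real.exp (-(2 * x)) ≤ 1 - x := by
  rw [Real.exp_neg, inv_le_comm₀ (Real.exp_pos _) (by linarith)]
  refine le_trans ?_ (Real.add_one_le_exp _)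
  rw [inv_le_comm₀ (by linarith) (by linarith), inv_eq_one_div, div_le_iff₀ (by linarith)]
  nlinarith

theorem exp_le_pow {q k C : ℕ} (hq : 2 * k ≤ q) (hq1 : 1 ≤ q) :
    Real.exp (-(4 * k * C)) ≤ (1 - (k : ℝ) / q) ^ ((q + 1) * C) := by
  have hq0 : (1 : ℝ) ≤ q := by exact_mod_cast hq1
  have hk : 2 * (k : ℝ) ≤ q := by exact_mod_cast hq
  have h1 : (k : ℝ) / q ≤ 1 / 2 := by
    rw [div_le_iff₀ (by linarith)]; linarith
  have h2 := exp_le_one_sub (x := (k : ℝ) / q) (by positivity) h1
  refine le_trans ?_ (pow_le_pow_left₀ (Real.exp_pos _).le h2 _)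
  rw [← Real.exp_nat_mul, Real.exp_le_exp]
  push_cast
  have h3 : ((q : ℝ) + 1) * ((k : ℝ) / q) ≤ 2 * k := by
    rw [mul_div_assoc', div_le_iff₀ (by linarith)]
    have : (0 : ℝ) ≤ k := by positivity
    nlinarith
  have h4 : (0 : ℝ) ≤ C := by positivity
  nlinarith

theorem asymp (K a γ ε : ℝ) (k : ℕ) (ha : 0 < a) (hγ : 0 < γ) (hε : 0 < ε) :
    ∃ q₀ : ℕ, ∀ q : ℕ, q₀ ≤ q → K * (q : ℝ) ^ k * Real.exp (-a * (q : ℝ) ^ γ) ≤ ε := by
  have h1 := ((tendsto_rpow_mul_exp_neg_mul_atTop_nhds_zero (k / γ) a ha).comp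
    ((tendsto_rpow_atTop hγ).comp tendsto_natCast_atTop_atTop)).const_mul K
  rw [mul_zero] at h1
  obtain ⟨q₀, hq₀⟩ := Filter.eventually_atTop.1 (h1.eventually (ge_mem_nhds hε))
  refine ⟨q₀, fun q hq => ?_⟩
  have h2 := hq₀ q hq
  simp only [Function.comp_apply] at h2
  rw [← Real.rpow_mul (Nat.cast_nonneg q), mul_div_cancel₀ _ hγ.ne', Real.rpow_natCast] at h2
  rwa [mul_assoc]

variable {F : Type} [Field F] [Fintype F] [DecidableEq F] {C : ℕ}

omit [DecidableEq F] in
theorem card_var_le (C : ℕ) :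
    (Fintype.card (Var F C) : ℝ) ≤ 2 * (C + 1) * Fintype.card F := by
  have hq1 : (1 : ℝ) ≤ Fintype.card F := by exact_mod_cast Fintype.card_pos
  have hC : (0 : ℝ) ≤ C := by positivity
  rw [card_var]
  push_cast
  nlinarith

theorem mean_dS (x : Line F) :
    (∑ ω : Conf F C, ((dS ω x).card : ℝ)) / Fintype.card (Conf F C)
      = alpha F C * Fintype.card F := by
  have hq : (0 : ℝ) < Fintype.card F := by exact_mod_cast Fintype.card_pos
  have hc : (0 : ℝ) < Fintype.card (Conf F C) := by exact_mod_cast Fintype.card_pos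
  have h1 : ∀ X : Pt F, (cnt (fun ω : Conf F C => ∀ v : Var F C, v.1 ≠ x.1 → ω v ≠ co v.1 X) : ℝ)
      = alpha F C * Fintype.card (Conf F C) := by
    intro X
    have h2 := cnt_pi_real (ι := Var F C)
      (fun v => if v.1 ≠ x.1 then univ.erase (co v.1 X) else (univ : Finset F))
    rw [cnt_congr (r := fun ω : Conf F C => ∀ v : Var F C,
      ω v ∈ (if v.1 ≠ x.1 then univ.erase (co v.1 X) else (univ : Finset F))), h2]
    · congr 1
      have h3 : ∀ v : Var F C,
          (((if v.1 ≠ x.1 then univ.erase (co v.1 X) else (univ : Finset F)).card : ℝ)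
            / Fintype.card F) = if v.1 ≠ x.1 then 1 - 1 / (Fintype.card F : ℝ) else 1 := by
        intro v
        split_ifs
        · rw [card_erase_of_mem (mem_univ _), card_univ, Nat.cast_sub Fintype.card_pos]
          field_simp
          simp
        · rw [card_univ, div_self hq.ne']
      simp only [h3]
      rw [prod_ite, prod_const, prod_const_one, mul_one]
      unfold alpha
      congr 1
      have h4 : (univ.filter fun v : Var F C => v.1 ≠ x.1) = (univ.erase x.1) ×ˢ univ := by
        ext v; simp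
      rw [h4, card_product, card_erase_of_mem (mem_univ _), card_univ, card_univ, card_dir,
        Fintype.card_fin, Nat.add_sub_cancel, mul_comm]
    · intro ω
      refine forall_congr' fun v => ?_
      split_ifs with h <;> simp [h]
  unfold dS
  rw [sum_card_filter]
  simp only [h1]
  rw [sum_const, card_pts, nsmul_eq_mul]
  field_simp

theorem dS_update (x : Line F) (ω : Conf F C) (v : Var F C) (a : F) :
    |((dS (Function.update ω v a) x).card : ℝ) - (dS ω x).card| ≤ 2 := by
  by_cases hv : v.1 = x.1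
  · have : dS (Function.update ω v a) x = dS ω x := by
      unfold dS
      refine filter_congr fun X _ => forall_congr' fun w => forall_congr' fun hw => ?_
      rw [Function.update_of_ne]
      rintro rfl
      exact hw hv
    rw [this]
    simp
  · have h1 : x ≠ (v.1, a) := fun h => hv (by rw [h])
    have h2 : x ≠ (v.1, ω v) := fun h => hv (by rw [h])
    unfold dS
    refine (abs_card_filter_sub_le (pts x) (pts x ∩ pts (v.1, a) ∪ pts x ∩ pts (v.1, ω v)) _ _
      ?_).trans ?_
    · intro X hX hD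
      simp only [mem_union, mem_inter, hX, true_and, not_or, mem_pts] at hD
      refine forall_congr' fun w => forall_congr' fun _ => ?_
      by_cases hw : w = v
      · subst hw
        rw [Function.update_self]
        exact ⟨fun _ h => hD.2 h.symm, fun _ h => hD.1 h.symm⟩
      · rw [Function.update_of_ne hw]
    · have h3 := card_union_le (pts x ∩ pts (v.1, a)) (pts x ∩ pts (v.1, ω v))
      have h4 := card_inter_pts_le_one h1
      have h5 := card_inter_pts_le_one h2
      exact_mod_cast (by omega : (pts x ∩ pts (v.1, a) ∪ pts x ∩ pts (v.1, ω v)).card ≤ 2)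

/-- the points counted in `Reg3` -/
noncomputable def good3 (ω : Conf F C) (x₀ : Line F) (G : Bool × Fin 10 → Line F × Dir F) : Finset (Pt F) :=
  (pts x₀).filter fun P => ∀ a, ∀ y ∈ KK ω,
    co y.1 (meet (G a).1 (thru (G a).2 P)) = y.2 → y = (G a).1

theorem good3_update (x₀ : Line F) (G : Bool × Fin 10 → Line F × Dir F)
    (hG : ∀ a, (G a).2 ≠ x₀.1 ∧ (G a).2 ≠ (G a).1.1) (ω : Conf F C) (v : Var F C) (b : F) :
    |((good3 (Function.update ω v b) x₀ G).card : ℝ) - (good3 ω x₀ G).card| ≤ 40 := by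
  set E : (Bool × Fin 10) → Line F → Finset (Pt F) := fun a y =>
    (pts x₀).filter fun P => y ≠ (G a).1 ∧ co y.1 (meet (G a).1 (thru (G a).2 P)) = y.2 with hE
  have hE1 : ∀ a y, (E a y).card ≤ 1 := by
    intro a y
    rw [card_le_one]
    intro P hP Q hQ
    simp only [hE, mem_filter, mem_pts] at hP hQ
    have hne : (G a).1.1 ≠ (G a).2 := (hG a).2.symm
    have hP1 := meet_spec (x := (G a).1) (y := thru (G a).2 P) hne
    have hQ1 := meet_spec (x := (G a).1) (y := thru (G a).2 Q) hne
    have h1 := eq_of_on_of_ne hP.2.1 hP.2.2 hP1.1 hQ.2.2 hQ1.1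
    simp only [thru_fst, thru_snd] at hP1 hQ1
    refine co_inj (hG a).1 ?_ (by rw [hP.1, hQ.1])
    rw [← hP1.2, ← hQ1.2, h1]
  unfold good3
  refine (abs_card_filter_sub_le (pts x₀)
    (univ.biUnion fun a => E a (v.1, b) ∪ E a (v.1, ω v)) _ _ ?_).trans ?_
  · intro P hP hD
    simp only [mem_biUnion, mem_univ, true_and, not_exists, mem_union, not_or, hE, mem_filter,
      hP, not_and] at hD
    refine forall_congr' fun a => ?_
    constructor
    · intro h y hy hc
      obtain ⟨i, hi⟩ := mem_KK.1 hy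
      by_cases hw : (y.1, i) = v
      · by_contra hne
        have hy' : y = (v.1, ω v) := by rw [← hw]; exact Prod.ext rfl hi.symm
        rw [hy'] at hne hc
        exact (hD a).2 hne hc
      · exact h y (mem_KK.2 ⟨i, by rw [Function.update_of_ne hw]; exact hi⟩) hc
    · intro h y hy hc
      obtain ⟨i, hi⟩ := mem_KK.1 hy
      by_cases hw : (y.1, i) = v
      · by_contra hne
        rw [hw, Function.update_self] at hi
        have hy' : y = (v.1, b) := by rw [← hw]; exact Prod.ext rfl hi.symm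
        rw [hy'] at hne hc
        exact (hD a).1 hne hc
      · rw [Function.update_of_ne hw] at hi
        exact h y (mem_KK.2 ⟨i, hi⟩) hc
  · have h1 := card_biUnion_le_card_mul univ (fun a => E a (v.1, b) ∪ E a (v.1, ω v)) 2
      (fun a _ => (card_union_le _ _).trans (add_le_add (hE1 _ _) (hE1 _ _)))
    rw [card_univ, Fintype.card_prod, Fintype.card_bool, Fintype.card_fin] at h1
    exact_mod_cast h1

theorem mean_good3 (hq : 40 ≤ Fintype.card F) (x₀ : Line F) (G : Bool × Fin 10 → Line F × Dir F) :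
    Real.exp (-(80 * C)) * Fintype.card F ≤
      (∑ ω : Conf F C, ((good3 ω x₀ G).card : ℝ)) / Fintype.card (Conf F C) := by
  have hq' : (40 : ℝ) ≤ Fintype.card F := by exact_mod_cast hq
  have hc : (0 : ℝ) < Fintype.card (Conf F C) := by exact_mod_cast Fintype.card_pos
  have h1 : ∀ P : Pt F, Real.exp (-(80 * C)) * Fintype.card (Conf F C) ≤
      (cnt (fun ω : Conf F C => ∀ a, ∀ y ∈ KK ω,
        co y.1 (meet (G a).1 (thru (G a).2 P)) = y.2 → y = (G a).1) : ℝ) := by
    intro P
    set A : Var F C → Finset F := fun v =>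
      univ \ univ.image fun a => co v.1 (meet (G a).1 (thru (G a).2 P)) with hA
    have h2 := cnt_pi_real A
    have h3 : cnt (fun ω : Conf F C => ∀ v, ω v ∈ A v) ≤
        cnt (fun ω : Conf F C => ∀ a, ∀ y ∈ KK ω,
          co y.1 (meet (G a).1 (thru (G a).2 P)) = y.2 → y = (G a).1) := by
      refine cnt_mono fun ω h a y hy hc => ?_
      obtain ⟨i, hi⟩ := mem_KK.1 hy
      have h4 := h (y.1, i)
      simp only [hA, mem_sdiff, mem_univ, true_and, mem_image, not_exists] at h4
      exact absurd (hc.trans hi.symm) (h4 a)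
    refine le_trans ?_ (Nat.cast_le.2 h3)
    rw [h2]
    refine mul_le_mul_of_nonneg_right ?_ hc.le
    have h5 : ∀ v, 1 - ((20 : ℕ) : ℝ) / Fintype.card F ≤ ((A v).card / Fintype.card F : ℝ) := by
      intro v
      have h6 : (univ.image fun a => co v.1 (meet (G a).1 (thru (G a).2 P))).card ≤ 20 := by
        refine card_image_le.trans ?_
        rw [card_univ, Fintype.card_prod, Fintype.card_bool, Fintype.card_fin]
      have h7 := le_card_sdiff (univ.image fun a => co v.1 (meet (G a).1 (thru (G a).2 P)))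
        (univ : Finset F)
      rw [card_univ] at h7
      have h8 : Fintype.card F ≤ (A v).card + 20 := by
        simp only [hA]; omega
      have h9 : (Fintype.card F : ℝ) ≤ (A v).card + 20 := by exact_mod_cast h8
      rw [le_div_iff₀ (by linarith), sub_mul, div_mul_cancel₀ _ (by linarith)]
      push_cast
      linarith
    have h10 := exp_le_pow (q := Fintype.card F) (k := 20) (C := C) (by omega) (by omega)
    have h11 : (0 : ℝ) ≤ 1 - ((20 : ℕ) : ℝ) / Fintype.card F := by
      rw [sub_nonneg, div_le_one (by linarith)]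
      push_cast
      linarith
    calc Real.exp (-(80 * C)) = Real.exp (-(4 * ((20 : ℕ) : ℝ) * C)) := by
          congr 1; push_cast; ring
      _ ≤ _ := h10
      _ = ∏ _v : Var F C, (1 - ((20 : ℕ) : ℝ) / Fintype.card F) := by
          rw [prod_const, card_univ, card_var]
      _ ≤ _ := prod_le_prod (fun _ _ => h11) (fun v _ => h5 v)
  unfold good3
  rw [sum_card_filter, le_div_iff₀ hc]
  calc _ = ∑ _P ∈ pts x₀, Real.exp (-(80 * C)) * Fintype.card (Conf F C) := by
        rw [sum_const, card_pts, nsmul_eq_mul]; ring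
    _ ≤ _ := sum_le_sum fun P _ => h1 P

theorem cnt_five (X : Pt F) (g : Fin 5 → Var F C) :
    (cnt (fun ω : Conf F C => Function.Injective g ∧ ∀ i, ω (g i) = co (g i).1 X) : ℝ) ≤
      Fintype.card (Conf F C) / (Fintype.card F : ℝ) ^ 5 := by
  have hq : (0 : ℝ) < Fintype.card F := by exact_mod_cast Fintype.card_pos
  by_cases hg : Function.Injective g
  · have h2 := cnt_pi_real (ι := Var F C)
      (fun v => if v ∈ univ.image g then {co v.1 X} else (univ : Finset F))
    rw [cnt_congr (r := fun ω : Conf F C => ∀ v : Var F C,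
      ω v ∈ (if v ∈ univ.image g then {co v.1 X} else (univ : Finset F))), h2]
    · have h3 : ∀ v : Var F C,
          (((if v ∈ univ.image g then {co v.1 X} else (univ : Finset F)).card : ℝ)
            / Fintype.card F) = if v ∈ univ.image g then 1 / (Fintype.card F : ℝ) else 1 := by
        intro v
        split_ifs
        · simp
        · rw [card_univ, div_self hq.ne']
      simp only [h3]
      rw [prod_ite, prod_const, prod_const_one, mul_one, filter_mem_eq_inter, univ_inter,
        card_image_of_injective _ hg, card_univ, Fintype.card_fin]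
      apply le_of_eq
      field_simp
    · intro ω
      constructor
      · rintro ⟨_, h⟩ v
        split_ifs with hv
        · obtain ⟨i, _, rfl⟩ := mem_image.1 hv
          exact mem_singleton.2 (h i)
        · exact mem_univ _
      · intro h
        refine ⟨hg, fun i => ?_⟩
        have h4 := h (g i)
        rw [if_pos (mem_image_of_mem _ (mem_univ _))] at h4
        exact mem_singleton.1 h4
  · have h1 : cnt (fun ω : Conf F C => Function.Injective g ∧ ∀ i, ω (g i) = co (g i).1 X) = 0 := by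
      classical
      rw [cnt_eq, card_eq_zero, filter_eq_empty_iff]
      exact fun ω _ h => hg h.1
    rw [h1]
    push_cast
    positivity

end Reg134

open Reg134

/-- `cnt Inj = (descFactorial q C)^(q+1) ≥ (q - C)^(C (q+1))`, and `(1 - C/q)^(C(q+1)) ≥ 4^(-2C²)` for
`q ≥ 2C` (e.g. `1 - x ≥ 4^(-x)` on `[0,1/2]`, see the proof of `one_sub_inv_pow_ge`). -/
theorem inj_prob (C : ℕ) : ∃ π : ℝ, 0 < π ∧ ∃ q₀ : ℕ,
    ∀ (F : Type) [Field F] [Fintype F] [DecidableEq F], q₀ ≤ Fintype.card F →
      π * Fintype.card (Conf F C) ≤ (cnt (fun ω : Conf F C => Inj ω) : ℝ) := by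
  refine ⟨Real.exp (-(4 * C * C)), Real.exp_pos _, 2 * C + 1, fun F _ _ _ hq => ?_⟩
  classical
  have hq0 : (0 : ℝ) < Fintype.card F := by exact_mod_cast Fintype.card_pos
  set S : Finset (Fin C → F) := univ.filter fun g => Function.Injective g with hS
  have h1 : cnt (fun ω : Conf F C => Inj ω) = ∏ _d : Dir F, S.card := by
    rw [← cnt_pi (fun _ : Dir F => S), ← cnt_equiv (Equiv.curry (Dir F) (Fin C) F)]
    refine cnt_congr fun ω => forall_congr' fun d => ?_
    simp only [hS, mem_filter, mem_univ, true_and]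
    rfl
  have h2 : S.card = (Fintype.card F).descFactorial C := by
    rw [hS, ← Fintype.card_subtype, Fintype.card_congr (Equiv.subtypeInjectiveEquivEmbedding _ _),
      Fintype.card_embedding_eq, Fintype.card_fin]
  have h3 : (Fintype.card F - C) ^ C ≤ S.card := by
    rw [h2]
    exact le_trans (Nat.pow_le_pow_left (by omega) _) (Nat.pow_sub_le_descFactorial _ _)
  have h4 : ((Fintype.card F : ℝ) - C) ^ C ≤ S.card := by
    have hC : C ≤ Fintype.card F := by omega
    rw [← Nat.cast_sub hC]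
    exact_mod_cast h3
  have h5 := exp_le_pow (q := Fintype.card F) (k := C) (C := C) (by omega) (by omega)
  have h6 : (0 : ℝ) ≤ Fintype.card F - C := by
    have hC : C ≤ Fintype.card F := by omega
    have : (C : ℝ) ≤ Fintype.card F := by exact_mod_cast hC
    linarith
  rw [h1, prod_const, card_univ, card_dir, card_conf]
  push_cast
  calc Real.exp (-(4 * C * C)) * (Fintype.card F : ℝ) ^ ((Fintype.card F + 1) * C)
      ≤ (1 - (C : ℝ) / Fintype.card F) ^ ((Fintype.card F + 1) * C)
          * (Fintype.card F : ℝ) ^ ((Fintype.card F + 1) * C) :=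
        mul_le_mul_of_nonneg_right h5 (by positivity)
    _ = (((Fintype.card F : ℝ) - C) ^ C) ^ (Fintype.card F + 1) := by
        rw [← mul_pow, ← pow_mul, mul_comm C]
        congr 1
        field_simp
    _ ≤ _ := pow_le_pow_left₀ (by positivity) h4 _

/-- For a fixed line `x`, `|dS ω x|` has mean exactly `alpha * q` (each point is missed by each of the
`C q` variables of other directions with probability `1 - 1/q`, `Fintype.card_piFinset`) and changes by
at most `1` when one variable changes (two lines of different directions share one point; `2` is enough).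
`mcdiarmid` with `t = q^(3/5)` and a union bound over the `q² + q` lines. -/
theorem reg1_rare (C : ℕ) : Rare C (fun F _ _ _ ω => ¬ Reg1 ω) := by
  intro ε hε
  obtain ⟨q₀, hq₀⟩ := asymp 4 (1 / (16 * (C + 1))) (1 / 5) ε 2 (by positivity) (by norm_num) hε
  refine ⟨q₀, fun F _ _ _ hq => ?_⟩
  have hq0 : (0 : ℝ) < Fintype.card F := by exact_mod_cast Fintype.card_pos
  have hq1 : (1 : ℝ) ≤ Fintype.card F := by exact_mod_cast Fintype.card_pos
  set q : ℝ := (Fintype.card F : ℝ) with hqdef
  set t : ℝ := q ^ ((3 : ℝ) / 5) with ht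
  have h1 : cnt (fun ω : Conf F C => ¬ Reg1 ω) ≤ ∑ x : Line F, cnt (fun ω : Conf F C =>
      t ≤ |((dS ω x).card : ℝ) - (∑ ω' : Conf F C, ((dS ω' x).card : ℝ))
        / Fintype.card (Conf F C)|) := by
    refine le_trans (cnt_mono fun ω h => ?_) (cnt_exists_le univ _)
    unfold Reg1 at h
    push Not at h
    obtain ⟨x, hx⟩ := h
    exact ⟨x, mem_univ _, by rw [mean_dS]; exact hx.le⟩
  have h2 : ∀ x : Line F, (cnt (fun ω : Conf F C =>
      t ≤ |((dS ω x).card : ℝ) - (∑ ω' : Conf F C, ((dS ω' x).card : ℝ))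
        / Fintype.card (Conf F C)|) : ℝ) ≤
      2 * Real.exp (-(1 / (16 * (C + 1))) * q ^ ((1 : ℝ) / 5)) * Fintype.card (Conf F C) := by
    intro x
    have h3 := mcd (fun ω : Conf F C => ((dS ω x).card : ℝ)) 2 (by norm_num) (dS_update x) t
      (by positivity) _ (card_var_le (F := F) C)
    have h4 : t ^ 2 = q ^ ((1 : ℝ) / 5) * q := by
      rw [ht, ← Real.rpow_natCast, ← Real.rpow_mul hq0.le, ← Real.rpow_add_one hq0.ne']
      norm_num
    refine h3.trans (le_of_eq ?_)
    congr 3
    rw [h4, ← hqdef]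
    field_simp
    ring
  have h5 := hq₀ _ hq
  rw [← hqdef] at h5
  have hc : (0 : ℝ) ≤ Fintype.card (Conf F C) := by positivity
  calc (cnt (fun ω : Conf F C => ¬ Reg1 ω) : ℝ) ≤ _ := Nat.cast_le.2 h1
    _ ≤ ∑ _x : Line F, 2 * Real.exp (-(1 / (16 * (C + 1))) * q ^ ((1 : ℝ) / 5))
          * Fintype.card (Conf F C) := by
        push_cast
        exact sum_le_sum fun x _ => h2 x
    _ = (2 * ((q + 1) * q)) * Real.exp (-(1 / (16 * (C + 1))) * q ^ ((1 : ℝ) / 5))
          * Fintype.card (Conf F C) := by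
        rw [sum_const, card_univ, card_line, nsmul_eq_mul]
        push_cast
        ring
    _ ≤ (4 * q ^ 2) * Real.exp (-(1 / (16 * (C + 1))) * q ^ ((1 : ℝ) / 5))
          * Fintype.card (Conf F C) := by
        refine mul_le_mul_of_nonneg_right (mul_le_mul_of_nonneg_right ?_ (Real.exp_pos _).le) hc
        nlinarith
    _ ≤ _ := mul_le_mul_of_nonneg_right h5 hc

/-- `β = (1/2) 4^(-40 C)`-like.  For fixed data `x₀, G` the map `P ↦ meet (G a).1 (thru (G a).2 P)` is injective
from `pts x₀` to `pts (G a).1`, so a line `≠ (G a).1` contains the image of at most one `P`: the count changes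
by at most `40` when one variable changes.  For fixed `P` every variable has to avoid at most `20` values, so
the mean is at least `q (1 - 20/q)^(C(q+1))`.  `mcdiarmid` with `t = β q` and a union bound over the at most
`(2q²) (2q² · 2q)^20` data. -/
theorem reg3_rare (C : ℕ) : ∃ β : ℝ, 0 < β ∧ Rare C (fun F _ _ _ ω => ¬ Reg3 ω β) := by
  set β : ℝ := Real.exp (-(80 * C)) / 2 with hβ
  have hβ0 : 0 < β := by positivity
  refine ⟨β, hβ0, fun ε hε => ?_⟩
  obtain ⟨q₀, hq₀⟩ := asymp (4 * 4 ^ 20) (β ^ 2 / (6400 * (C + 1))) 1 ε 62 (by positivity)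
    (by norm_num) hε
  refine ⟨max q₀ 40, fun F _ _ _ hq => ?_⟩
  classical
  have hq40 : 40 ≤ Fintype.card F := le_trans (le_max_right _ _) hq
  have hq0 : (0 : ℝ) < Fintype.card F := by exact_mod_cast Fintype.card_pos
  have hq1 : (1 : ℝ) ≤ Fintype.card F := by exact_mod_cast Fintype.card_pos
  set q : ℝ := (Fintype.card F : ℝ) with hqdef
  set D : Finset (Line F × (Bool × Fin 10 → Line F × Dir F)) :=
    univ.filter fun p => ∀ a, (p.2 a).2 ≠ p.1.1 ∧ (p.2 a).2 ≠ (p.2 a).1.1 with hD
  have h1 : cnt (fun ω : Conf F C => ¬ Reg3 ω β) ≤ ∑ p ∈ D, cnt (fun ω : Conf F C =>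
      β * q ≤ |((good3 ω p.1 p.2).card : ℝ) - (∑ ω' : Conf F C, ((good3 ω' p.1 p.2).card : ℝ))
        / Fintype.card (Conf F C)|) := by
    refine le_trans (cnt_mono fun ω h => ?_) (cnt_exists_le D _)
    unfold Reg3 at h
    push Not at h
    obtain ⟨x₀, G, hG, hx⟩ := h
    refine ⟨(x₀, G), mem_filter.2 ⟨mem_univ _, hG⟩, ?_⟩
    have h2 := mean_good3 (C := C) hq40 x₀ G
    have h3 : ((good3 ω x₀ G).card : ℝ) < β * q := by
      unfold good3
      convert hx
    rw [abs_sub_comm]
    refine le_trans ?_ (le_abs_self _)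
    have h4 : Real.exp (-(80 * C)) = 2 * β := by rw [hβ]; ring
    rw [h4, ← hqdef] at h2
    linarith
  have h2 : ∀ p ∈ D, (cnt (fun ω : Conf F C =>
      β * q ≤ |((good3 ω p.1 p.2).card : ℝ) - (∑ ω' : Conf F C, ((good3 ω' p.1 p.2).card : ℝ))
        / Fintype.card (Conf F C)|) : ℝ) ≤
      2 * Real.exp (-(β ^ 2 / (6400 * (C + 1))) * q ^ (1 : ℝ)) * Fintype.card (Conf F C) := by
    intro p hp
    have h3 := mcd (fun ω : Conf F C => ((good3 ω p.1 p.2).card : ℝ)) 40 (by norm_num)
      (good3_update p.1 p.2 (mem_filter.1 hp).2) (β * q) (by positivity) _ (card_var_le (F := F) C)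
    refine h3.trans (le_of_eq ?_)
    congr 3
    rw [← hqdef, Real.rpow_one]
    field_simp
    ring
  have h5 := hq₀ _ (le_trans (le_max_left _ _) hq)
  rw [← hqdef] at h5
  have hc : (0 : ℝ) ≤ Fintype.card (Conf F C) := by positivity
  have hDc : (D.card : ℝ) ≤ 2 * 4 ^ 20 * q ^ 62 := by
    have h6 : D.card ≤ Fintype.card (Line F × (Bool × Fin 10 → Line F × Dir F)) := card_le_univ _
    rw [Fintype.card_prod, Fintype.card_fun, Fintype.card_prod (Line F), Fintype.card_prod Bool,
      card_line, card_dir, Fintype.card_bool, Fintype.card_fin] at h6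
    have h7 : (D.card : ℝ) ≤ (q + 1) * q * ((q + 1) * q * (q + 1)) ^ 20 := by
      rw [hqdef]
      exact_mod_cast h6
    have h8 : q + 1 ≤ 2 * q := by linarith
    calc (D.card : ℝ) ≤ _ := h7
      _ ≤ (2 * q) * q * ((2 * q) * q * (2 * q)) ^ 20 := by gcongr
      _ = _ := by ring
  calc (cnt (fun ω : Conf F C => ¬ Reg3 ω β) : ℝ) ≤ _ := Nat.cast_le.2 h1
    _ ≤ ∑ _p ∈ D, 2 * Real.exp (-(β ^ 2 / (6400 * (C + 1))) * q ^ (1 : ℝ))
          * Fintype.card (Conf F C) := by
        push_cast
        exact sum_le_sum h2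
    _ = (2 * D.card) * Real.exp (-(β ^ 2 / (6400 * (C + 1))) * q ^ (1 : ℝ))
          * Fintype.card (Conf F C) := by
        rw [sum_const, nsmul_eq_mul]
        ring
    _ ≤ (4 * 4 ^ 20 * q ^ 62) * Real.exp (-(β ^ 2 / (6400 * (C + 1))) * q ^ (1 : ℝ))
          * Fintype.card (Conf F C) := by
        refine mul_le_mul_of_nonneg_right (mul_le_mul_of_nonneg_right ?_ (Real.exp_pos _).le) hc
        linarith
    _ ≤ _ := mul_le_mul_of_nonneg_right h5 hc

/-- First moment: an injective five-tuple covers a fixed point with probability `q^(-5)`, so the mean of the count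
is at most `q² (C(q+1))^5 / q^5 ≤ (2C)^5 q²`; Markov (`cnt_mul_le_sum`). -/
theorem reg4_rare (C : ℕ) (δ : ℝ) (hδ : 0 < δ) : Rare C (fun F _ _ _ ω => ¬ Reg4 ω δ) := by
  intro ε hε
  obtain ⟨q₀, hq₀⟩ := exists_nat_ge ((2 * ((C : ℝ) + 1)) ^ 5 / (δ * ε))
  refine ⟨q₀, fun F _ _ _ hq => ?_⟩
  have hq0 : (0 : ℝ) < Fintype.card F := by exact_mod_cast Fintype.card_pos
  have hq1 : (q₀ : ℝ) ≤ Fintype.card F := by exact_mod_cast hq
  set q : ℝ := (Fintype.card F : ℝ) with hqdef
  have hc : (0 : ℝ) ≤ Fintype.card (Conf F C) := by positivity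
  set f : Conf F C → ℝ := fun ω => (cnt (fun p : Pt F × (Fin 5 → Var F C) =>
    Function.Injective p.2 ∧ ∀ i, ω (p.2 i) = co (p.2 i).1 p.1) : ℝ) with hf
  have h1 := cnt_mul_le_sum f (fun ω => by positivity) (δ * q ^ 3)
  have h2 : cnt (fun ω : Conf F C => ¬ Reg4 ω δ) ≤ cnt (fun ω => δ * q ^ 3 ≤ f ω) :=
    cnt_mono fun ω h => (not_le.1 h).le
  have h3 : ∑ ω, f ω ≤ (2 * ((C : ℝ) + 1)) ^ 5 * q ^ 2 * Fintype.card (Conf F C) := by
    rw [hf, sum_cnt_comm]
    calc _ ≤ ∑ _p : Pt F × (Fin 5 → Var F C), (Fintype.card (Conf F C) : ℝ) / q ^ 5 :=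
          sum_le_sum fun p _ => cnt_five p.1 p.2
      _ = q ^ 2 * (Fintype.card (Var F C) : ℝ) ^ 5 * (Fintype.card (Conf F C) / q ^ 5) := by
          rw [sum_const, card_univ, Fintype.card_prod, card_pt, Fintype.card_fun, Fintype.card_fin,
            nsmul_eq_mul]
          push_cast
          ring
      _ ≤ q ^ 2 * (2 * (C + 1) * q) ^ 5 * (Fintype.card (Conf F C) / q ^ 5) := by
          gcongr
          exact card_var_le C
      _ = _ := by field_simp
  have h4 : (2 * ((C : ℝ) + 1)) ^ 5 ≤ q * (δ * ε) := by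
    rw [← div_le_iff₀ (by positivity)]
    exact hq₀.trans hq1
  have h5 : (cnt (fun ω : Conf F C => ¬ Reg4 ω δ) : ℝ) * (δ * q ^ 3)
      ≤ ε * Fintype.card (Conf F C) * (δ * q ^ 3) := by
    calc _ ≤ (cnt (fun ω => δ * q ^ 3 ≤ f ω) : ℝ) * (δ * q ^ 3) :=
          mul_le_mul_of_nonneg_right (Nat.cast_le.2 h2) (by positivity)
      _ ≤ _ := h1
      _ ≤ _ := h3
      _ ≤ q * (δ * ε) * q ^ 2 * Fintype.card (Conf F C) := by gcongr
      _ = _ := by ring
  exact le_of_mul_le_mul_right h5 (by positivity)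

end Crest.Agent.R34
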