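import Crest.Agent.R34.McDiarmid

/-! # Row 34: regularity of a random configuration, part 2 -/

set_option autoImplicit false

namespace Crest.Agent.R34

open Finset

namespace Reg2

/-- Number of configurations with a prescribed set of hits inside `U`. -/
theorem cnt_pattern {V α : Type} [Fintype V] [DecidableEq V] [Fintype α] [DecidableEq α]
    (t : V → α) (U Y : Finset V) (hY : Y ⊆ U) :
    cnt (fun ω : V → α => (U.filter fun v => ω v = t v) = Y) =
      (Fintype.card α - 1) ^ (U.card - Y.card) * Fintype.card α ^ (Fintype.card V - U.card) := by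
  classical
  rw [cnt_eq]
  have h1 : (univ.filter fun ω : V → α => (U.filter fun v => ω v = t v) = Y) =
      Fintype.piFinset fun v => if v ∈ Y then {t v} else if v ∈ U then univ.erase (t v) else univ := by
    ext ω
    simp only [mem_filter, mem_univ, true_and, Fintype.mem_piFinset]
    constructor
    · intro h v
      split_ifs with h1 h2
      · rw [← h] at h1; exact mem_singleton.2 (mem_filter.1 h1).2
      · refine mem_erase.2 ⟨fun hv => h1 ?_, mem_univ _⟩
        rw [← h]; exact mem_filter.2 ⟨h2, hv⟩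
      · exact mem_univ _
    · intro h
      ext v
      have hv := h v
      rw [mem_filter]
      constructor
      · rintro ⟨h2, h3⟩
        by_contra h1
        rw [if_neg h1, if_pos h2] at hv
        exact (mem_erase.1 hv).1 h3
      · intro h1
        rw [if_pos h1] at hv
        exact ⟨hY h1, mem_singleton.1 hv⟩
  rw [h1, Fintype.card_piFinset]
  have h2 : ∀ v, (if v ∈ Y then ({t v} : Finset α) else if v ∈ U then univ.erase (t v)
      else univ).card = (if v ∈ U \ Y then Fintype.card α - 1 else 1) *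
        (if v ∈ Uᶜ then Fintype.card α else 1) := by
    intro v
    by_cases h1 : v ∈ Y
    · simp [h1, hY h1]
    · by_cases h2 : v ∈ U
      · simp [h1, h2]
      · simp [h1, h2]
  simp only [h2]
  rw [prod_mul_distrib, prod_ite_mem, prod_ite_mem, univ_inter, univ_inter, prod_const, prod_const,
    card_sdiff_of_subset hY, card_compl]

variable {F : Type} [Field F] [Fintype F] [DecidableEq F] {C : ℕ} [NeZero C]

/-- Variables of the other directions. -/
def UU (C : ℕ) (d : Dir F) : Finset (Var F C) := (univ.erase d) ×ˢ univ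

/-- Auxiliary variables of the other directions. -/
def AA (C : ℕ) [NeZero C] (d : Dir F) : Finset (Var F C) := (univ.erase d) ×ˢ (univ.erase 0)

omit [Field F] [NeZero C] in
theorem card_UU (d : Dir F) : (UU C d).card = Fintype.card F * C := by
  simp [UU, card_product]

omit [Field F] in
theorem card_AA (d : Dir F) : (AA C d).card = Fintype.card F * (C - 1) := by
  simp [AA, card_product]

omit [Field F] [NeZero C] in
theorem mem_UU {d : Dir F} {v : Var F C} : v ∈ UU C d ↔ v.1 ≠ d := by
  simp [UU]

omit [Field F] in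
theorem mem_AA {d : Dir F} {v : Var F C} : v ∈ AA C d ↔ v.1 ≠ d ∧ v.2 ≠ 0 := by
  simp [AA]

/-- The common factor. -/
def KF (F : Type) [Fintype F] (C : ℕ) : ℕ :=
  (Fintype.card F - 1) ^ (Fintype.card F * C - 10) * Fintype.card F ^ C

omit [NeZero C] in
theorem cnt_pat (d : Dir F) (X : Pt F) (Y : Finset (Var F C)) (hY : Y ⊆ UU C d)
    (hc : Y.card = 10) :
    cnt (fun ω : Conf F C => ((UU C d).filter fun v => ω v = co v.1 X) = Y) = KF F C := by
  rw [cnt_pattern (fun v : Var F C => co v.1 X) (UU C d) Y hY, card_UU, hc, card_var, KF]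
  congr 2
  rw [add_mul, one_mul]; omega

theorem cnt_one (d : Dir F) (X : Pt F) :
    (Fintype.card F * (C - 1)).choose 10 * KF F C ≤
      cnt (fun ω : Conf F C => (mainHits ω d X).card = 0 ∧ (auxHits ω d X).card = 10) := by
  classical
  have hsub : ∀ Y ∈ powersetCard 10 (AA C d), Y ⊆ UU C d := fun Y hY v hv =>
    mem_UU.2 (mem_AA.1 ((mem_powersetCard.1 hY).1 hv)).1
  calc (Fintype.card F * (C - 1)).choose 10 * KF F C
      = ∑ Y ∈ powersetCard 10 (AA C d), (univ.filter fun ω : Conf F C =>
          ((UU C d).filter fun v => ω v = co v.1 X) = Y).card := by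
        rw [sum_congr rfl (g := fun _ => KF F C), sum_const, card_powersetCard, card_AA,
          smul_eq_mul]
        intro Y hY
        rw [← cnt_eq]
        exact cnt_pat d X Y (hsub Y hY) (mem_powersetCard.1 hY).2
    _ = ((powersetCard 10 (AA C d)).biUnion fun Y => univ.filter fun ω : Conf F C =>
          ((UU C d).filter fun v => ω v = co v.1 X) = Y).card := by
        rw [card_biUnion]
        intro Y _ Y' _ hne
        rw [Function.onFun, disjoint_left]
        intro ω h1 h2
        exact hne ((mem_filter.1 h1).2.symm.trans (mem_filter.1 h2).2)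
    _ ≤ _ := by
        rw [cnt_eq]
        refine card_le_card fun ω hω => ?_
        obtain ⟨Y, hY, h⟩ := mem_biUnion.1 hω
        have h := (mem_filter.1 h).2
        obtain ⟨hYA, hYc⟩ := mem_powersetCard.1 hY
        refine mem_filter.2 ⟨mem_univ _, ?_, ?_⟩
        · rw [card_eq_zero, eq_empty_iff_forall_notMem]
          intro e he
          simp only [mainHits, mem_filter, mem_univ, true_and] at he
          have : ((e, 0) : Var F C) ∈ Y := by
            rw [← h]; exact mem_filter.2 ⟨mem_UU.2 he.1, he.2⟩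
          exact (mem_AA.1 (hYA this)).2 rfl
        · rw [← hYc]
          congr 1
          ext v
          simp only [auxHits, mem_filter, mem_univ, true_and]
          constructor
          · rintro ⟨h1, -, h3⟩
            rw [← h]; exact mem_filter.2 ⟨mem_UU.2 h1, h3⟩
          · intro hv
            obtain ⟨h1, h2⟩ := mem_AA.1 (hYA hv)
            rw [← h] at hv
            exact ⟨h1, h2, (mem_filter.1 hv).2⟩

theorem cnt_two (d : Dir F) (X : Pt F) :
    cnt (fun ω : Conf F C => (mainHits ω d X).card = 1 ∧ (auxHits ω d X).card = 9) ≤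
      Fintype.card F * (Fintype.card F * (C - 1)).choose 9 * KF F C := by
  classical
  calc _ ≤ cnt (fun ω : Conf F C => ∃ p ∈ (univ.erase d) ×ˢ powersetCard 9 (AA C d),
        ((UU C d).filter fun v => ω v = co v.1 X) = insert (p.1, 0) p.2) := by
        refine cnt_mono fun ω ⟨h1, h2⟩ => ?_
        obtain ⟨e, he⟩ := card_eq_one.1 h1
        have hem : e ∈ mainHits ω d X := by rw [he]; exact mem_singleton_self _
        simp only [mainHits, mem_filter, mem_univ, true_and] at hem
        refine ⟨(e, auxHits ω d X), mem_product.2 ⟨mem_erase.2 ⟨hem.1, mem_univ _⟩,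
          mem_powersetCard.2 ⟨fun v hv => ?_, h2⟩⟩, ?_⟩
        · simp only [auxHits, mem_filter, mem_univ, true_and] at hv
          exact mem_AA.2 ⟨hv.1, hv.2.1⟩
        · ext v
          simp only [mem_filter, mem_UU, mem_insert, auxHits, mem_univ, true_and]
          constructor
          · rintro ⟨h3, h4⟩
            by_cases h0 : v.2 = 0
            · left
              have : v.1 ∈ mainHits ω d X := by
                simp only [mainHits, mem_filter, mem_univ, true_and]
                refine ⟨h3, ?_⟩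
                rw [← h0]; exact h4
              rw [he, mem_singleton] at this
              exact Prod.ext this h0
            · exact Or.inr ⟨h3, h0, h4⟩
          · rintro (rfl | ⟨h3, -, h4⟩)
            · exact hem
            · exact ⟨h3, h4⟩
    _ ≤ ∑ p ∈ (univ.erase d) ×ˢ powersetCard 9 (AA C d), cnt (fun ω : Conf F C =>
        ((UU C d).filter fun v => ω v = co v.1 X) = insert (p.1, 0) p.2) := cnt_exists_le _ _
    _ = _ := by
        rw [sum_congr rfl (g := fun _ => KF F C), sum_const, card_product, card_powersetCard,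
          card_AA, smul_eq_mul, card_erase_of_mem (mem_univ _), card_univ, card_dir,
          Nat.add_sub_cancel]
        intro p hp
        obtain ⟨h1, h2⟩ := mem_product.1 hp
        obtain ⟨hA, hc⟩ := mem_powersetCard.1 h2
        refine cnt_pat d X _ (fun v hv => ?_) ?_
        · rcases mem_insert.1 hv with rfl | hv
          · exact mem_UU.2 (mem_erase.1 h1).1
          · exact mem_UU.2 (mem_AA.1 (hA hv)).1
        · rw [card_insert_of_notMem, hc]
          intro h
          exact (mem_AA.1 (hA h)).2 rfl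

/-- Points of `x` with prescribed numbers of hits. -/
def NN (a b : ℕ) (ω : Conf F C) (x : Line F) : Finset (Pt F) :=
  (pts x).filter fun X => (mainHits ω x.1 X).card = a ∧ (auxHits ω x.1 X).card = b

theorem sum_NN (a b : ℕ) (x : Line F) :
    ∑ ω : Conf F C, ((NN a b ω x).card : ℝ) = ∑ X ∈ pts x,
      (cnt (fun ω : Conf F C => (mainHits ω x.1 X).card = a ∧ (auxHits ω x.1 X).card = b) : ℝ) := by
  simp only [cnt_eq_sum]
  rw [sum_comm]
  refine sum_congr rfl fun ω _ => ?_
  rw [sum_boole, NN]

theorem card_le_update (a b : ℕ) (x : Line F) (ω ω' : Conf F C) (v : Var F C)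
    (h : ∀ u, u ≠ v → ω u = ω' u) : (NN a b ω x).card ≤ (NN a b ω' x).card + 2 := by
  set Z := (pts x).filter fun X => v.1 ≠ x.1 ∧ (co v.1 X = ω v ∨ co v.1 X = ω' v) with hZ
  have hZc : Z.card ≤ 2 := by
    calc Z.card ≤ ({ω v, ω' v} : Finset F).card := by
          refine card_le_card_of_injOn (fun X => co v.1 X) ?_ ?_
          · intro X hX
            have := (mem_filter.1 (mem_coe.1 hX)).2.2
            simpa using this
          · intro X hX Y hY hXY
            have h1 := mem_filter.1 (mem_coe.1 hX)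
            have h2 := mem_filter.1 (mem_coe.1 hY)
            exact co_inj h1.2.1 hXY (by rw [mem_pts.1 h1.1, mem_pts.1 h2.1])
      _ ≤ 2 := card_le_two
  have hsub : NN a b ω x ⊆ NN a b ω' x ∪ Z := by
    intro X hX
    by_cases hXZ : X ∈ Z
    · exact mem_union_right _ hXZ
    · refine mem_union_left _ ?_
      obtain ⟨hx, h1, h2⟩ := mem_filter.1 hX
      have key : ∀ u : Var F C, u.1 ≠ x.1 → (ω u = co u.1 X ↔ ω' u = co u.1 X) := by
        intro u hu
        by_cases huv : u = v
        · subst huv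
          constructor
          · intro h3; exact absurd (mem_filter.2 ⟨hx, hu, Or.inl h3.symm⟩) hXZ
          · intro h3; exact absurd (mem_filter.2 ⟨hx, hu, Or.inr h3.symm⟩) hXZ
        · rw [h u huv]
      have e1 : mainHits ω' x.1 X = mainHits ω x.1 X := by
        ext e
        simp only [mainHits, mem_filter, mem_univ, true_and]
        exact and_congr_right fun he => (key (e, 0) he).symm
      have e2 : auxHits ω' x.1 X = auxHits ω x.1 X := by
        ext u
        simp only [auxHits, mem_filter, mem_univ, true_and]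
        exact and_congr_right fun hu => and_congr_right fun _ => (key u hu).symm
      exact mem_filter.2 ⟨hx, by rw [e1]; exact h1, by rw [e2]; exact h2⟩
  exact (card_le_card hsub).trans ((card_union_le _ _).trans (by omega))

theorem bdd_diff (a b : ℕ) (x : Line F) (ω : Conf F C) (v : Var F C) (c : F) :
    |((NN a b (Function.update ω v c) x).card : ℝ) - (NN a b ω x).card| ≤ 2 := by
  have h1 := card_le_update a b x ω (Function.update ω v c) v
    fun u hu => (Function.update_of_ne hu _ _).symm
  have h2 := card_le_update a b x (Function.update ω v c) ω v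
    fun u hu => Function.update_of_ne hu _ _
  have h1' : ((NN a b ω x).card : ℝ) ≤ (NN a b (Function.update ω v c) x).card + 2 := by
    exact_mod_cast h1
  have h2' : ((NN a b (Function.update ω v c) x).card : ℝ) ≤ (NN a b ω x).card + 2 := by
    exact_mod_cast h2
  rw [abs_le]; constructor <;> linarith

omit [Field F] [DecidableEq F] [NeZero C] in
theorem choose_ratio (hC : 2000 ≤ C) (hq : 2 ≤ Fintype.card F) :
    190 * (Fintype.card F * (Fintype.card F * (C - 1)).choose 9) ≤
      (Fintype.card F * (C - 1)).choose 10 := by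
  set q := Fintype.card F
  set n := q * (C - 1) with hn
  have h1 := Nat.choose_succ_right_eq n 9
  have h2 : 1999 * q ≤ n := by
    rw [hn, mul_comm]; exact Nat.mul_le_mul_left _ (by omega)
  have h3 : 1900 * q ≤ n - 9 := by omega
  have h4 : n.choose 9 * (1900 * q) ≤ n.choose 9 * (n - 9) := Nat.mul_le_mul_left _ h3
  norm_num at h1
  nlinarith

omit [DecidableEq F] [NeZero C] in
theorem lower_one (hC : 2000 ≤ C) :
    (1 / 4 : ℝ) ^ C / 3628800 * (Fintype.card F : ℝ) ^ ((Fintype.card F + 1) * C) ≤
      ((Fintype.card F * (C - 1)).choose 10 * KF F C : ℕ) := by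
  have hq : 2 ≤ Fintype.card F := two_le_card
  have ha := alpha_ge (F := F) C
  unfold alpha at ha
  unfold KF
  set q := Fintype.card F
  have hq' : (2 : ℝ) ≤ q := by exact_mod_cast hq
  have hq0 : (0 : ℝ) < q := by linarith
  set n := q * (C - 1) with hn
  have h2 : 1999 * q ≤ n := by
    rw [hn, mul_comm]; exact Nat.mul_le_mul_left _ (by omega)
  have h1 : (q : ℝ) ^ 10 / 3628800 ≤ n.choose 10 := by
    have := Nat.pow_le_choose (α := ℝ) 10 n
    refine le_trans ?_ this
    have h10 : ((Nat.factorial 10 : ℕ) : ℝ) = 3628800 := by norm_num [Nat.factorial]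
    rw [h10]
    refine div_le_div_of_nonneg_right ?_ (by norm_num)
    exact_mod_cast Nat.pow_le_pow_left (by omega) 10
  have h3 : 10 ≤ q * C := by nlinarith
  obtain ⟨k, hk⟩ := Nat.exists_eq_add_of_le h3
  have hk' : q * C - 10 = k := by omega
  have e1 : (q + 1) * C = 10 + k + C := by rw [add_mul, one_mul, hk]
  have e2 : C * q = 10 + k := by rw [mul_comm, hk]
  rw [hk', e1]
  rw [e2] at ha
  push_cast [Nat.cast_sub (show 1 ≤ q by omega)]
  have hb0 : 0 ≤ 1 - 1 / (q : ℝ) := by
    rw [sub_nonneg, div_le_one hq0]; linarith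
  have hb1 : 1 - 1 / (q : ℝ) ≤ 1 := by
    have : 0 ≤ 1 / (q : ℝ) := by positivity
    linarith
  have h4 : (1 / 4 : ℝ) ^ C ≤ (1 - 1 / (q : ℝ)) ^ k :=
    ha.trans (pow_le_pow_of_le_one hb0 hb1 (by omega))
  have h5 : ((q : ℝ) - 1) ^ k = (1 - 1 / (q : ℝ)) ^ k * (q : ℝ) ^ k := by
    rw [← mul_pow]; congr 1; field_simp
  rw [h5]
  calc (1 / 4 : ℝ) ^ C / 3628800 * (q : ℝ) ^ (10 + k + C)
      = (q : ℝ) ^ 10 / 3628800 * ((1 / 4 : ℝ) ^ C * (q : ℝ) ^ k * (q : ℝ) ^ C) := by
        rw [pow_add, pow_add]; ring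
    _ ≤ _ := by gcongr

theorem tail_small (κ ε : ℝ) (hκ : 0 < κ) (hε : 0 < ε) :
    ∃ q₀ : ℕ, ∀ q : ℕ, q₀ ≤ q → 4 * (((q : ℝ) + 1) * q) * Real.exp (-(κ * q)) ≤ ε := by
  obtain ⟨q₀, hq₀⟩ := exists_nat_ge (48 / (κ ^ 3 * ε))
  refine ⟨q₀ + 1, fun q hq => ?_⟩
  have hq1 : (1 : ℝ) ≤ q := by exact_mod_cast (show 1 ≤ q by omega)
  have hq2 : (q₀ : ℝ) ≤ q := by exact_mod_cast (show q₀ ≤ q by omega)
  have h1 := Real.pow_div_factorial_le_exp (κ * q) (by positivity) 3
  have h6 : ((Nat.factorial 3 : ℕ) : ℝ) = 6 := by norm_num [Nat.factorial]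
  rw [h6] at h1
  rw [Real.exp_neg, ← div_eq_mul_inv, div_le_iff₀ (Real.exp_pos _)]
  have h2 : 48 ≤ κ ^ 3 * ε * q := by
    have := hq₀.trans hq2
    rw [div_le_iff₀ (by positivity)] at this
    linarith
  calc 4 * (((q : ℝ) + 1) * q) ≤ 48 * q ^ 2 / 6 := by nlinarith
    _ ≤ κ ^ 3 * ε * q * q ^ 2 / 6 := by gcongr
    _ = ε * ((κ * q) ^ 3 / 6) := by ring
    _ ≤ ε * Real.exp (κ * q) := by gcongr

theorem dev_le (a b : ℕ) (x : Line F) (p : ℝ) (hp : 0 < p) :
    (cnt (fun ω : Conf F C => p * Fintype.card F ≤ |((NN a b ω x).card : ℝ) -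
        (∑ ω' : Conf F C, ((NN a b ω' x).card : ℝ)) / Fintype.card (Conf F C)|) : ℝ) ≤
      2 * Real.exp (-(p ^ 2 / (16 * C) * Fintype.card F)) * Fintype.card (Conf F C) := by
  have hq : (2 : ℝ) ≤ Fintype.card F := by exact_mod_cast two_le_card (F := F)
  have hC : (0 : ℝ) < C := by exact_mod_cast Nat.pos_of_ne_zero (NeZero.ne C)
  refine (mcdiarmid (fun ω : Conf F C => ((NN a b ω x).card : ℝ)) 2 (by norm_num)
    (fun ω v c => bdd_diff a b x ω v c) (p * Fintype.card F) (by positivity)).trans ?_
  gcongr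
  rw [card_var, neg_div, neg_le_neg_iff]
  push_cast
  rw [div_mul_eq_mul_div, div_le_div_iff₀ (by positivity) (by positivity)]
  have : 0 ≤ p ^ 2 * Fintype.card F * C * ((Fintype.card F : ℝ) - 1) := by
    have : (0 : ℝ) ≤ (Fintype.card F : ℝ) - 1 := by linarith
    positivity
  nlinarith

end Reg2

open Reg2

/-- Fix a line `x` and `X ∈ pts x`; `V₀ = {v | v.1 ≠ x.1}` has `q` main and `n = (C-1) q` auxiliary variables.
For `Y ⊆ V₀` the number of `ω` whose set of variables of `V₀` covering `X` is exactly `Y` is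
`(q-1)^(|V₀| - |Y|) q^C`.  So with `z = (1 - 1/q)^(n + q - 10)`:
`P₁ = P(X ∈ N1) = choose n 10 q^(-10) z` and `P₂ = P(X ∈ N2) = q · choose n 9 · q^(-10) z` (an upper bound is enough);
`10 choose n 10 = (n - 9) choose n 9` gives `P₂ ≤ P₁ · 10 q / (n - 9) ≤ P₁ / 190` for `C ≥ 2000`, and
`P₁ ≥ 4^(-C) / 10!` (as `choose n 10 ≥ q^10/10!`).  Both counts change by at most `2` when one variable changes.
`mcdiarmid` with `t = P₁ q / 200`-like and a union bound over the lines. -/
theorem reg2_rare (C : ℕ) [NeZero C] (hC : 2000 ≤ C) : Rare C (fun F _ _ _ ω => ¬ Reg2 ω) := by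
  intro ε hε
  set p₀ : ℝ := (1 / 4 : ℝ) ^ C / 3628800 with hp₀
  have hp₀0 : 0 < p₀ := by positivity
  have hC0 : (0 : ℝ) < C := by exact_mod_cast (show 0 < C by omega)
  obtain ⟨q₀, hq₀⟩ := tail_small ((p₀ / 200) ^ 2 / (16 * C)) ε (by positivity) hε
  refine ⟨q₀, fun F _ _ _ hq => ?_⟩
  have hq2 : 2 ≤ Fintype.card F := two_le_card
  have hN : (0 : ℝ) < Fintype.card (Conf F C) := by
    exact_mod_cast Fintype.card_pos
  obtain ⟨M, hM⟩ : ∃ M : ℝ, M = (((Fintype.card F * (C - 1)).choose 10 * KF F C : ℕ) : ℝ) :=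
    ⟨_, rfl⟩
  have hlow : p₀ * Fintype.card (Conf F C) ≤ M := by
    rw [card_conf, hM, Nat.cast_pow]; exact lower_one hC
  have h1 : ∀ x : Line F, Fintype.card F * M ≤ ∑ ω : Conf F C, ((NN 0 10 ω x).card : ℝ) := by
    intro x
    rw [sum_NN]
    calc (Fintype.card F : ℝ) * M = ∑ _X ∈ pts x, M := by rw [sum_const, card_pts, nsmul_eq_mul]
      _ ≤ _ := sum_le_sum fun X _ => by rw [hM]; exact_mod_cast cnt_one x.1 X
  have h2 : ∀ x : Line F, ∑ ω : Conf F C, ((NN 1 9 ω x).card : ℝ) ≤ Fintype.card F * (M / 190) := by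
    intro x
    rw [sum_NN]
    calc _ ≤ ∑ _X ∈ pts x, M / 190 := by
          refine sum_le_sum fun X _ => ?_
          rw [le_div_iff₀ (by norm_num), hM]
          have e1 := cnt_two (C := C) x.1 X
          have e2 := choose_ratio (F := F) hC hq2
          have e3 := Nat.mul_le_mul_right (KF F C) e2
          exact_mod_cast (by nlinarith)
      _ = _ := by rw [sum_const, card_pts, nsmul_eq_mul]
  set dev : ℕ → ℕ → Line F → Conf F C → Prop := fun a b x ω =>
    p₀ / 200 * Fintype.card F ≤ |((NN a b ω x).card : ℝ) -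
        (∑ ω' : Conf F C, ((NN a b ω' x).card : ℝ)) / Fintype.card (Conf F C)| with hdev
  have hbad : ∀ ω : Conf F C, ¬ Reg2 ω →
      (∃ x ∈ (univ : Finset (Line F)), dev 0 10 x ω) ∨ ∃ x ∈ (univ : Finset (Line F)), dev 1 9 x ω := by
    intro ω hω
    by_contra hc
    push Not at hc
    apply hω
    intro x x'
    have e1 := hc.1 x (mem_univ _)
    have e2 := hc.2 x' (mem_univ _)
    simp only [hdev, not_le, abs_lt] at e1 e2
    have hq0 : (0 : ℝ) < Fintype.card F := by exact_mod_cast (show 0 < Fintype.card F by omega)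
    have f1 : Fintype.card F * (M / Fintype.card (Conf F C)) ≤
        (∑ ω' : Conf F C, ((NN 0 10 ω' x).card : ℝ)) / Fintype.card (Conf F C) := by
      rw [← mul_div_assoc]; exact div_le_div_of_nonneg_right (h1 x) hN.le
    have f2 : (∑ ω' : Conf F C, ((NN 1 9 ω' x').card : ℝ)) / Fintype.card (Conf F C) ≤
        Fintype.card F * (M / Fintype.card (Conf F C)) / 190 := by
      refine (div_le_div_of_nonneg_right (h2 x') hN.le).trans (le_of_eq ?_)
      ring
    have f3 : Fintype.card F * p₀ ≤ Fintype.card F * (M / Fintype.card (Conf F C)) := by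
      refine mul_le_mul_of_nonneg_left ?_ hq0.le
      rw [le_div_iff₀ hN]; exact hlow
    have f4 : 0 < Fintype.card F * p₀ := by positivity
    have : (80 : ℝ) * (NN 1 9 ω x').card < (NN 0 10 ω x).card := by nlinarith
    exact_mod_cast this
  have hsum : ∀ a b, (cnt (fun ω : Conf F C => ∃ x ∈ (univ : Finset (Line F)), dev a b x ω) : ℝ) ≤
      ((Fintype.card F + 1) * Fintype.card F : ℝ) *
        (2 * Real.exp (-((p₀ / 200) ^ 2 / (16 * C) * Fintype.card F)) * Fintype.card (Conf F C)) := by
    intro a b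
    calc _ ≤ ((∑ x ∈ (univ : Finset (Line F)), cnt (dev a b x) : ℕ) : ℝ) := by
          exact Nat.cast_le.2 (cnt_exists_le univ (dev a b))
      _ ≤ ∑ _x ∈ (univ : Finset (Line F)), (2 * Real.exp (-((p₀ / 200) ^ 2 / (16 * C) *
            Fintype.card F)) * Fintype.card (Conf F C)) := by
          push_cast
          exact sum_le_sum fun x _ => dev_le a b x (p₀ / 200) (by positivity)
      _ = _ := by rw [sum_const, card_univ, card_line, nsmul_eq_mul]; push_cast; ring
  have h3 : (cnt (fun ω : Conf F C => ¬ Reg2 ω) : ℝ) ≤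
      cnt (fun ω : Conf F C => ∃ x ∈ (univ : Finset (Line F)), dev 0 10 x ω) +
        cnt (fun ω : Conf F C => ∃ x ∈ (univ : Finset (Line F)), dev 1 9 x ω) := by
    exact_mod_cast (cnt_mono hbad).trans (cnt_or_le _ _)
  have h4 := mul_le_mul_of_nonneg_right (hq₀ _ hq) hN.le
  have h5 := hsum 0 10
  have h6 := hsum 1 9
  linarith

end Crest.Agent.R34
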