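import Crest.Agent.R34.RegimeCAux

/-! # Row 34: small non-trivial covers are unlikely -/

set_option autoImplicit false

namespace Crest.Agent.R34

open Finset

namespace RegimeC

theorem cnt_fix {ι α : Type} [Fintype ι] [DecidableEq ι] [Fintype α] [DecidableEq α]
    (S : Finset ι) (g : ι → α) :
    cnt (fun ω : ι → α => ∀ v ∈ S, ω v = g v) * Fintype.card α ^ S.card =
      Fintype.card (ι → α) := by
  classical
  rw [cnt_eq]
  have h1 : (univ.filter fun ω : ι → α => ∀ v ∈ S, ω v = g v) =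
      Fintype.piFinset fun v => if v ∈ S then {g v} else univ := by
    ext ω
    simp only [mem_filter, mem_univ, true_and, Fintype.mem_piFinset]
    refine forall_congr' fun v => ?_
    split_ifs with h <;> simp [h]
  have h2 : Fintype.card α ^ S.card = ∏ v : ι, if v ∈ S then Fintype.card α else 1 := by
    rw [prod_ite_mem, univ_inter, prod_const]
  rw [h1, Fintype.card_piFinset, h2, ← prod_mul_distrib, Fintype.card_fun, ← card_univ (α := ι),
    ← prod_const]
  refine prod_congr rfl fun v _ => ?_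
  split_ifs <;> simp

variable {F : Type} [Field F] [Fintype F] [DecidableEq F] {C : ℕ}

omit [Field F] in
theorem cnt_subset (Y : Finset (Line F)) :
    cnt (fun ω : Conf F C => Y ⊆ KK ω) * Fintype.card F ^ Y.card ≤
      C ^ Y.card * Fintype.card (Conf F C) := by
  classical
  have h1 : cnt (fun ω : Conf F C => Y ⊆ KK ω) ≤
      cnt (fun ω : Conf F C => ∃ i ∈ (univ : Finset (Y → Fin C)),
        ∀ y : Y, ω ((y : Line F).1, i y) = (y : Line F).2) := by
    refine cnt_mono fun ω hω => ?_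
    have : ∀ y : Y, ∃ i, ω ((y : Line F).1, i) = (y : Line F).2 := fun y => mem_KK.1 (hω y.2)
    choose i hi using this
    exact ⟨i, mem_univ _, hi⟩
  have h2 : ∀ i : Y → Fin C, cnt (fun ω : Conf F C =>
      ∀ y : Y, ω ((y : Line F).1, i y) = (y : Line F).2) * Fintype.card F ^ Y.card ≤
        Fintype.card (Conf F C) := by
    intro i
    by_cases h0 : ∃ ω₀ : Conf F C, ∀ y : Y, ω₀ ((y : Line F).1, i y) = (y : Line F).2
    · obtain ⟨ω₀, hω₀⟩ := h0
      set v : Y → Var F C := fun y => ((y : Line F).1, i y) with hv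
      have hinj : Function.Injective v := by
        intro y y' h
        apply Subtype.ext
        apply Prod.ext
        · exact congrArg (fun w : Var F C => w.1) h
        · rw [← hω₀ y, ← hω₀ y']; exact congrArg ω₀ h
      have hc : (univ.image v).card = Y.card := by
        rw [card_image_of_injective _ hinj, card_univ, Fintype.card_coe]
      have h3 := cnt_fix (univ.image v) ω₀
      rw [hc] at h3
      refine le_trans (Nat.mul_le_mul_right _ (cnt_mono fun ω hω w hw => ?_)) h3.le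
      obtain ⟨y, -, rfl⟩ := mem_image.1 hw
      exact (hω y).trans (hω₀ y).symm
    · have : cnt (fun ω : Conf F C =>
          ∀ y : Y, ω ((y : Line F).1, i y) = (y : Line F).2) = 0 := by
        rw [cnt_eq, card_eq_zero, filter_eq_empty_iff]
        exact fun ω _ hω => h0 ⟨ω, hω⟩
      rw [this]; simp
  refine le_trans (Nat.mul_le_mul_right _ (h1.trans (cnt_exists_le _ _))) ?_
  rw [sum_mul]
  refine le_trans (sum_le_sum fun i _ => h2 i) ?_
  rw [sum_const, card_univ, Fintype.card_fun, Fintype.card_coe, Fintype.card_fin, smul_eq_mul]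

theorem choose_le (q h : ℕ) (hh : 0 < h) (hq : h ≤ q) :
    ((q + h).choose h : ℝ) ≤ (6 * q / h) ^ h := by
  have hh' : (0 : ℝ) < h := by exact_mod_cast hh
  have hq' : (h : ℝ) ≤ q := by exact_mod_cast hq
  have h1 : ((q + h).choose h : ℝ) ≤ ((q + h : ℕ) : ℝ) ^ h / (h.factorial : ℝ) := by
    exact_mod_cast Nat.choose_le_pow_div (α := ℝ) h (q + h)
  have h2 := Real.pow_div_factorial_le_exp (h : ℝ) hh'.le h
  have h3 : Real.exp (h : ℝ) ≤ 3 ^ h := by
    rw [← Real.exp_one_pow]
    exact pow_le_pow_left₀ (Real.exp_pos _).le (by linarith [Real.exp_one_lt_d9]) h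
  have h4 : ((q + h : ℕ) : ℝ) ^ h ≤ (2 * q) ^ h :=
    pow_le_pow_left₀ (by positivity) (by push_cast; linarith) h
  have h5 : (0 : ℝ) < h.factorial := by exact_mod_cast h.factorial_pos
  have h6 : 1 / (h.factorial : ℝ) ≤ 3 ^ h / (h : ℝ) ^ h := by
    rw [le_div_iff₀ (by positivity), one_div_mul_eq_div]
    exact h2.trans h3
  calc ((q + h).choose h : ℝ) ≤ ((q + h : ℕ) : ℝ) ^ h * (1 / (h.factorial : ℝ)) := by
        rw [mul_one_div]; exact h1
    _ ≤ (2 * q) ^ h * (3 ^ h / (h : ℝ) ^ h) := mul_le_mul h4 h6 (by positivity) (by positivity)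
    _ = (6 * q / h) ^ h := by
        rw [← div_pow, ← mul_pow]; congr 1; ring

omit [Field F] in
theorem cnt_inter (W : Finset (Line F)) (h : ℕ) (hh : 0 < h) (hq : h ≤ Fintype.card F)
    (hc : W.card = Fintype.card F + h) :
    (cnt (fun ω : Conf F C => h ≤ (W ∩ KK ω).card) : ℝ) ≤
      (6 * C / h) ^ h * Fintype.card (Conf F C) := by
  have hq0 : (0 : ℝ) < Fintype.card F := by
    have : 0 < Fintype.card F := by omega
    exact_mod_cast this
  have h1 : cnt (fun ω : Conf F C => h ≤ (W ∩ KK ω).card) ≤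
      cnt (fun ω : Conf F C => ∃ Y ∈ powersetCard h W, Y ⊆ KK ω) := by
    refine cnt_mono fun ω hω => ?_
    obtain ⟨Y, hY, hYc⟩ := exists_subset_card_eq hω
    exact ⟨Y, mem_powersetCard.2 ⟨hY.trans inter_subset_left, hYc⟩, hY.trans inter_subset_right⟩
  have h2 : ∀ Y ∈ powersetCard h W, (cnt (fun ω : Conf F C => Y ⊆ KK ω) : ℝ) ≤
      ((C : ℝ) / Fintype.card F) ^ h * Fintype.card (Conf F C) := by
    intro Y hY
    have h3 := cnt_subset (C := C) Y
    rw [(mem_powersetCard.1 hY).2] at h3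
    rw [div_pow, div_mul_eq_mul_div, le_div_iff₀ (by positivity)]
    exact_mod_cast h3
  have h4 : (cnt (fun ω : Conf F C => h ≤ (W ∩ KK ω).card) : ℝ) ≤
      ∑ Y ∈ powersetCard h W, (cnt (fun ω : Conf F C => Y ⊆ KK ω) : ℝ) := by
    exact_mod_cast h1.trans (cnt_exists_le _ _)
  refine h4.trans ((sum_le_sum h2).trans ?_)
  rw [sum_const, card_powersetCard, hc, nsmul_eq_mul, ← mul_assoc]
  refine mul_le_mul_of_nonneg_right ?_ (by positivity)
  refine (mul_le_mul_of_nonneg_right (choose_le _ h hh hq) (by positivity)).trans (le_of_eq ?_)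
  rw [← mul_pow]; congr 1; field_simp

theorem final_num (q h m C : ℕ) (ε : ℝ) (hq : q ≤ h ^ 2 + 1) (h1 : 5 * m ≤ h) (hm : 3 ≤ m)
    (hC : 6 * C ≤ h) (hK : (8 * (6 * C) ^ 5 : ℝ) ≤ h) (hε : 3 * (8 * (6 * C) ^ 5 : ℝ) ^ 3 ≤ ε * h) :
    (((q + 1) * q : ℕ) : ℝ) ^ m * (6 * C / h) ^ h ≤ ε / (q + 1) := by
  have hh : 15 ≤ h := by omega
  have hh' : (15 : ℝ) ≤ h := by exact_mod_cast hh
  have hh0 : (0 : ℝ) < h := by linarith
  have hq' : (q : ℝ) ≤ (h : ℝ) ^ 2 + 1 := by exact_mod_cast hq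
  have hC' : (6 : ℝ) * C ≤ h := by exact_mod_cast hC
  set K : ℝ := 8 * (6 * C) ^ 5 with hKdef
  have hK0 : 0 ≤ K := by positivity
  have a1 : (((q + 1) * q : ℕ) : ℝ) ≤ 8 * (h : ℝ) ^ 4 := by
    have b1 : (q : ℝ) + 1 ≤ 2 * (h : ℝ) ^ 2 := by nlinarith
    push_cast
    calc ((q : ℝ) + 1) * q ≤ (2 * (h : ℝ) ^ 2) * (2 * (h : ℝ) ^ 2) :=
          mul_le_mul b1 (by linarith) (by positivity) (by positivity)
      _ ≤ 8 * (h : ℝ) ^ 4 := by nlinarith [pow_pos hh0 4]
  have a2 : (6 * C / h : ℝ) ^ h ≤ (6 * C / h : ℝ) ^ (5 * m) :=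
    pow_le_pow_of_le_one (by positivity) (by rw [div_le_one hh0]; exact hC') h1
  have a3 : (((q + 1) * q : ℕ) : ℝ) ^ m * (6 * C / h) ^ h ≤ (K / h) ^ m := by
    calc (((q + 1) * q : ℕ) : ℝ) ^ m * (6 * C / h) ^ h
        ≤ (8 * (h : ℝ) ^ 4) ^ m * (6 * C / h : ℝ) ^ (5 * m) :=
          mul_le_mul (pow_le_pow_left₀ (by positivity) a1 m) a2 (by positivity) (by positivity)
      _ = (K / h) ^ m := by
          rw [pow_mul, ← mul_pow]; congr 1; rw [hKdef]; field_simp
  have a4 : (K / h) ^ m ≤ (K / h) ^ 3 :=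
    pow_le_pow_of_le_one (by positivity) (by rw [div_le_one hh0]; exact hK) hm
  refine a3.trans (a4.trans ?_)
  rw [le_div_iff₀ (by positivity), div_pow, div_mul_eq_mul_div, div_le_iff₀ (by positivity)]
  have b1 : (q : ℝ) + 1 ≤ 3 * (h : ℝ) ^ 2 := by nlinarith
  calc K ^ 3 * ((q : ℝ) + 1) ≤ K ^ 3 * (3 * (h : ℝ) ^ 2) :=
        mul_le_mul_of_nonneg_left b1 (by positivity)
    _ = (3 * K ^ 3) * (h : ℝ) ^ 2 := by ring
    _ ≤ (ε * h) * (h : ℝ) ^ 2 := mul_le_mul_of_nonneg_right hε (by positivity)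
    _ = ε * (h : ℝ) ^ 3 := by ring

end RegimeC

/-- Step 1 (deterministic): a cover `W` as in `SmallCover` with parameter `h` is determined by
`m = h / 20` lines.  For `f : Fin m → Line F` and a line `x` let `hits x f` be the number of points of `x`
on some `f i ≠ x`.  Draw `f : Fin m → W` uniformly (`N = q + h`).  For `x ∉ W` choose for each of the
`q` points of `x` a line of `W` through it (these are distinct), so
`E hits ≥ q (1 - (1 - 1/N)^m) ≥ q (m/N - m²/(2N²)) ≥ m (1 - 1/400)`.  For `x ∈ W` only `≤ h` points `X`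
of `x` can be hit, with probabilities `1 - (1 - π_X)^m`, `∑ π_X ≤ 1`; using
`(1-π)^m ≥ 1 - mπ + m(m-1)π²/2 - m(m-1)(m-2)π³/6` one gets (cases `mπ ≤ 1/42`, `≤ 3/2`, `≥ 3/2`)
`1 - (1-π)^m ≤ κ/42 + (1-κ) m π` with `κ = 1/100` (`m ≥ 50`), hence `E hits ≤ (1 - 1/200) m` as `h ≤ 21 m`
(any constants with a gap are fine).  `hits x` changes by at most `1` when one draw changes, so
`mcdiarmid` and a union bound over the `q² + q` lines (`m ≥ √(q-1)/21`) give an `f` with
`W = {x | hits x f ≤ θ m}` for the midpoint `θ`.  So there are `≤ (q²+q)^m` such `W` for each `h`.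
Step 2: for a fixed set `Y` of `h` lines, `cnt (Y ⊆ KK ω) ≤ C^h q^(|Var| - h)` (choose the indices; distinct
lines use distinct variables), and `W` has `choose (q+h) h ≤ (q+h)^h / h! ≤ (2 e q / h)^h` subsets of size `h`.
So the probability is at most `∑_{h ≥ √(q-1)} ((2q²)^(1/20) · 2eC / h)^h ≤ q 2^(-√(q-1)) → 0`. -/
theorem regimeC (C : ℕ) : Rare C (fun F _ _ _ ω => SmallCover (KK ω)) := by
  intro ε hε
  obtain ⟨h₀, hh₀⟩ := exists_nat_ge
    (max (8 * (6 * C) ^ 5 : ℝ) (3 * (8 * (6 * C) ^ 5 : ℝ) ^ 3 / ε))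
  set h₁ : ℕ := max h₀ (max (6 * C) (10 ^ 28)) with hh₁
  refine ⟨h₁ ^ 2 + 2, fun F _ _ _ hq => ?_⟩
  classical
  set q := Fintype.card F with hqdef
  set R : Finset ℕ := (range (q + 1)).filter fun h => q ≤ h ^ 2 + 1 ∧ 500 * h ≤ q with hR
  have hRge : ∀ h ∈ R, h₁ ≤ h := by
    intro h hh
    have h1 := (mem_filter.1 hh).2.1
    by_contra hlt
    have : h ^ 2 ≤ h₁ ^ 2 := Nat.pow_le_pow_left (by omega) 2
    omega
  have step1 : cnt (fun ω : Conf F C => SmallCover (KK ω)) ≤
      cnt (fun ω : Conf F C => ∃ h ∈ R, ∃ f ∈ (univ : Finset (Fin (h / 5) → Line F)),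
        (RegimeC.decode f).card = q + h ∧ h ≤ (RegimeC.decode f ∩ KK ω).card) := by
    refine cnt_mono fun ω hω => ?_
    obtain ⟨W, h, c1, c2, c3, c4, c5, c6⟩ := hω
    have hR' : h ∈ R := mem_filter.2 ⟨mem_range.2 (by omega), c2, c3⟩
    have hge := hRge h hR'
    have h28 : 10 ^ 28 ≤ h := le_trans (le_trans (le_max_right _ _) (le_max_right _ _)) hge
    obtain ⟨f, hf⟩ := RegimeC.exists_decode W h (h / 5) c1 c2 c3 c4 c5 (by omega) (by omega)
      (by omega)
    exact ⟨h, hR', f, mem_univ _, by rw [hf]; exact c1, by rw [hf]; exact c6⟩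
  have step2 : ∀ h ∈ R, (cnt (fun ω : Conf F C =>
      ∃ f ∈ (univ : Finset (Fin (h / 5) → Line F)),
        (RegimeC.decode f).card = q + h ∧ h ≤ (RegimeC.decode f ∩ KK ω).card) : ℝ) ≤
      ε / (q + 1) * Fintype.card (Conf F C) := by
    intro h hh
    have hge := hRge h hh
    obtain ⟨-, c2, c3⟩ := mem_filter.1 hh
    have h28 : 10 ^ 28 ≤ h := le_trans (le_trans (le_max_right _ _) (le_max_right _ _)) hge
    have hC : 6 * C ≤ h := le_trans (le_trans (le_max_left _ _) (le_max_right _ _)) hge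
    have h0 : (h₀ : ℝ) ≤ h := by exact_mod_cast le_trans (le_max_left _ _) hge
    have d1 : ∀ f ∈ (univ : Finset (Fin (h / 5) → Line F)), (cnt (fun ω : Conf F C =>
        (RegimeC.decode f).card = q + h ∧ h ≤ (RegimeC.decode f ∩ KK ω).card) : ℝ) ≤
        (6 * C / h) ^ h * Fintype.card (Conf F C) := by
      intro f _
      by_cases hc : (RegimeC.decode f).card = q + h
      · refine le_trans ?_ (RegimeC.cnt_inter (C := C) _ h (by omega) (by omega) hc)
        have : cnt (fun ω : Conf F C =>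
            (RegimeC.decode f).card = q + h ∧ h ≤ (RegimeC.decode f ∩ KK ω).card) ≤
            cnt (fun ω : Conf F C => h ≤ (RegimeC.decode f ∩ KK ω).card) :=
          cnt_mono fun ω hω => hω.2
        exact_mod_cast this
      · have : cnt (fun ω : Conf F C =>
            (RegimeC.decode f).card = q + h ∧ h ≤ (RegimeC.decode f ∩ KK ω).card) = 0 := by
          rw [cnt_eq, card_eq_zero, filter_eq_empty_iff]
          exact fun ω _ hω => hc hω.1
        rw [this]; push_cast; positivity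
    have d2 : (cnt (fun ω : Conf F C => ∃ f ∈ (univ : Finset (Fin (h / 5) → Line F)),
        (RegimeC.decode f).card = q + h ∧ h ≤ (RegimeC.decode f ∩ KK ω).card) : ℝ) ≤
        ∑ f : Fin (h / 5) → Line F, (cnt (fun ω : Conf F C =>
          (RegimeC.decode f).card = q + h ∧ h ≤ (RegimeC.decode f ∩ KK ω).card) : ℝ) := by
      have := cnt_exists_le (univ : Finset (Fin (h / 5) → Line F)) (fun f (ω : Conf F C) =>
        (RegimeC.decode f).card = q + h ∧ h ≤ (RegimeC.decode f ∩ KK ω).card)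
      exact_mod_cast this
    refine d2.trans ((sum_le_sum d1).trans ?_)
    rw [sum_const, card_univ, Fintype.card_fun, Fintype.card_fin, card_line, nsmul_eq_mul,
      ← mul_assoc]
    refine mul_le_mul_of_nonneg_right ?_ (by positivity)
    rw [Nat.cast_pow]
    refine RegimeC.final_num q h (h / 5) C ε c2 (by omega) (by omega) hC
      (le_trans (le_trans (le_max_left _ _) hh₀) h0) ?_
    have := le_trans (le_trans (le_max_right _ _) hh₀) h0
    rw [div_le_iff₀ hε] at this
    linarith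
  have step3 : (cnt (fun ω : Conf F C => SmallCover (KK ω)) : ℝ) ≤
      ∑ h ∈ R, (cnt (fun ω : Conf F C => ∃ f ∈ (univ : Finset (Fin (h / 5) → Line F)),
        (RegimeC.decode f).card = q + h ∧ h ≤ (RegimeC.decode f ∩ KK ω).card) : ℝ) := by
    exact_mod_cast step1.trans (cnt_exists_le _ _)
  refine step3.trans ((sum_le_sum step2).trans ?_)
  rw [sum_const, nsmul_eq_mul, ← mul_assoc]
  refine mul_le_mul_of_nonneg_right ?_ (by positivity)
  have hRc : (R.card : ℝ) ≤ q + 1 := by
    have : R.card ≤ q + 1 := (card_filter_le _ _).trans (card_range _).le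
    exact_mod_cast this
  calc (R.card : ℝ) * (ε / (q + 1)) ≤ (q + 1) * (ε / (q + 1)) :=
        mul_le_mul_of_nonneg_right hRc (by positivity)
    _ = ε := by field_simp

end Crest.Agent.R34
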