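import Crest.Agent.R34.Basic

/-! # Row 34: choice of the special points -/

set_option autoImplicit false

namespace Crest.Agent.R34

open Finset

namespace SpecialEx

section transversal
variable {ι W : Type} [Fintype ι] [DecidableEq ι] [DecidableEq W]

/-- Conflict-free choices on `s`, equal to the default outside `s`. -/
noncomputable def good (A : ι → Finset W) (conf : ι × W → ι × W → Prop) (f0 : ι → W)
    (s : Finset ι) : Finset (ι → W) := by
  classical
  exact (Fintype.piFinset A).filter fun f =>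
    (∀ i, i ∉ s → f i = f0 i) ∧ ∀ i ∈ s, ∀ j ∈ s, i ≠ j → ¬ conf (i, f i) (j, f j)

theorem mem_good {A : ι → Finset W} {conf : ι × W → ι × W → Prop} {f0 : ι → W}
    {s : Finset ι} {f : ι → W} : f ∈ good A conf f0 s ↔ (∀ i, f i ∈ A i) ∧
      (∀ i, i ∉ s → f i = f0 i) ∧ ∀ i ∈ s, ∀ j ∈ s, i ≠ j → ¬ conf (i, f i) (j, f j) := by
  unfold good
  simp only [mem_filter, Fintype.mem_piFinset]

theorem card_fibre_le (A : ι → Finset W) (conf : ι × W → ι × W → Prop) (f0 : ι → W)
    (h0 : ∀ i, f0 i ∈ A i) (s : Finset ι) (j : ι) (w : W) :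
    ((good A conf f0 s).filter fun f => f j = w).card ≤ (good A conf f0 (s.erase j)).card := by
  refine card_le_card_of_injOn (fun f => Function.update f j (f0 j)) ?_ ?_
  · intro f hf
    simp only [coe_filter, Set.mem_ofPred_eq, mem_good] at hf
    obtain ⟨⟨h1, h2, h3⟩, -⟩ := hf
    simp only [mem_coe, mem_good]
    refine ⟨fun i => ?_, fun i hi => ?_, fun i hi k hk hik => ?_⟩
    · by_cases hij : i = j
      · subst hij; simpa using h0 i
      · rw [Function.update_of_ne hij]; exact h1 i
    · by_cases hij : i = j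
      · subst hij; simp
      · rw [Function.update_of_ne hij]
        exact h2 i fun his => hi (mem_erase.2 ⟨hij, his⟩)
    · rw [mem_erase] at hi hk
      rw [Function.update_of_ne hi.1, Function.update_of_ne hk.1]
      exact h3 i hi.2 k hk.2 hik
  · intro f hf g hg hfg
    simp only [coe_filter, Set.mem_ofPred_eq] at hf hg
    funext i
    by_cases hij : i = j
    · subst hij; rw [hf.2, hg.2]
    · have := congrFun hfg i
      simpa [Function.update_of_ne hij] using this

theorem step (A : ι → Finset W) (conf : ι × W → ι × W → Prop)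
    (hsymm : ∀ p p', conf p p' → conf p' p)
    (a Δ : ℕ) (ha : 0 < a) (haΔ : 4 * Δ ≤ a) (hA : ∀ i, a ≤ (A i).card)
    (hdeg : ∀ i, ∀ v ∈ A i, ∃ N : Finset (ι × W), N.card ≤ Δ ∧
      ∀ j, j ≠ i → ∀ w ∈ A j, conf (i, v) (j, w) → (j, w) ∈ N)
    (f0 : ι → W) (h0 : ∀ i, f0 i ∈ A i) (n : ℕ) :
    ∀ s : Finset ι, s.card = n → ∀ i, i ∉ s →
      a * (good A conf f0 s).card ≤ 2 * (good A conf f0 (insert i s)).card := by
  classical
  induction n using Nat.strong_induction_on with
  | _ n ih =>
  intro s hs i hi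
  set T := good A conf f0 s with hT
  -- for every `v`, at least half of the choices extend
  have key : ∀ v ∈ A i,
      T.card ≤ 2 * (T.filter fun f => ∀ j ∈ s, ¬ conf (i, v) (j, f j)).card := by
    intro v hv
    obtain ⟨N, hN, hN'⟩ := hdeg i v hv
    have hsub : (T.filter fun f => ¬ ∀ j ∈ s, ¬ conf (i, v) (j, f j)) ⊆
        (N.filter fun p => p.1 ∈ s).biUnion fun p => T.filter fun f => f p.1 = p.2 := by
      intro f hf
      simp only [mem_filter, not_forall, not_not, exists_prop] at hf
      obtain ⟨hfT, j, hj, hc⟩ := hf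
      have hji : j ≠ i := fun h => hi (h ▸ hj)
      refine mem_biUnion.2 ⟨(j, f j), mem_filter.2 ⟨hN' j hji _ ((mem_good.1 hfT).1 j) hc, hj⟩, ?_⟩
      exact mem_filter.2 ⟨hfT, rfl⟩
    have hb : a * (T.filter fun f => ¬ ∀ j ∈ s, ¬ conf (i, v) (j, f j)).card ≤
        Δ * (2 * T.card) := by
      calc a * (T.filter fun f => ¬ ∀ j ∈ s, ¬ conf (i, v) (j, f j)).card
          ≤ a * ∑ p ∈ N.filter fun p => p.1 ∈ s, (T.filter fun f => f p.1 = p.2).card :=
            Nat.mul_le_mul_left _ ((card_le_card hsub).trans card_biUnion_le)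
        _ = ∑ p ∈ N.filter fun p => p.1 ∈ s, a * (T.filter fun f => f p.1 = p.2).card := by
            rw [mul_sum]
        _ ≤ ∑ _p ∈ N.filter fun p => p.1 ∈ s, 2 * T.card := by
            refine sum_le_sum fun p hp => ?_
            have hp1 : p.1 ∈ s := (mem_filter.1 hp).2
            have h1 := card_fibre_le A conf f0 h0 s p.1 p.2
            have h2 := ih (s.erase p.1).card (by
              rw [← hs]; exact card_erase_lt_of_mem hp1) (s.erase p.1) rfl p.1 (notMem_erase _ _)
            rw [insert_erase hp1] at h2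
            exact (Nat.mul_le_mul_left _ h1).trans h2
        _ ≤ Δ * (2 * T.card) := by
            rw [sum_const, smul_eq_mul]
            exact Nat.mul_le_mul_right _ ((card_filter_le _ _).trans hN)
    have hsum := card_filter_add_card_filter_not (s := T) (fun f => ∀ j ∈ s, ¬ conf (i, v) (j, f j))
    have h2b : 2 * (T.filter fun f => ¬ ∀ j ∈ s, ¬ conf (i, v) (j, f j)).card ≤ T.card := by
      refine Nat.le_of_mul_le_mul_left ?_ ha
      nlinarith
    omega
  -- the extensions are distinct
  have hinj : ∑ v ∈ A i, (T.filter fun f => ∀ j ∈ s, ¬ conf (i, v) (j, f j)).card ≤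
      (good A conf f0 (insert i s)).card := by
    rw [← card_sigma]
    refine card_le_card_of_injOn (fun p => Function.update p.2 i p.1) ?_ ?_
    · rintro ⟨v, f⟩ hp
      simp only [coe_sigma, Set.mem_sigma_iff, mem_coe, mem_filter] at hp
      obtain ⟨hv, hf, hc⟩ := hp
      obtain ⟨h1, h2, h3⟩ := mem_good.1 hf
      simp only [mem_coe, mem_good]
      refine ⟨fun k => ?_, fun k hk => ?_, fun k hk l hl hkl => ?_⟩
      · by_cases hki : k = i
        · subst hki; simpa using hv
        · rw [Function.update_of_ne hki]; exact h1 k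
      · rw [mem_insert, not_or] at hk
        rw [Function.update_of_ne hk.1]; exact h2 k hk.2
      · by_cases hki : k = i
        · subst hki
          have hl' : l ∈ s := (mem_insert.1 hl).resolve_left (Ne.symm hkl)
          rw [Function.update_self, Function.update_of_ne (Ne.symm hkl)]
          exact hc l hl'
        · have hk' : k ∈ s := (mem_insert.1 hk).resolve_left hki
          rw [Function.update_of_ne hki]
          by_cases hli : l = i
          · subst hli
            rw [Function.update_self]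
            exact fun h => hc k hk' (hsymm _ _ h)
          · rw [Function.update_of_ne hli]
            exact h3 k hk' l ((mem_insert.1 hl).resolve_left hli) hkl
    · rintro ⟨v, f⟩ hp ⟨w, g⟩ hq hfg
      simp only [coe_sigma, Set.mem_sigma_iff, mem_coe, mem_filter] at hp hq
      have hvw : v = w := by simpa using congrFun hfg i
      subst hvw
      have : f = g := by
        funext k
        by_cases hki : k = i
        · subst hki
          rw [(mem_good.1 hp.2.1).2.1 k hi, (mem_good.1 hq.2.1).2.1 k hi]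
        · simpa [Function.update_of_ne hki] using congrFun hfg k
      rw [this]
  calc a * T.card ≤ (A i).card * T.card := Nat.mul_le_mul_right _ (hA i)
    _ = ∑ _v ∈ A i, T.card := by rw [sum_const, smul_eq_mul]
    _ ≤ ∑ v ∈ A i, 2 * (T.filter fun f => ∀ j ∈ s, ¬ conf (i, v) (j, f j)).card :=
        sum_le_sum key
    _ ≤ 2 * (good A conf f0 (insert i s)).card := by
        rw [← mul_sum]; exact Nat.mul_le_mul_left _ hinj

end transversal

/-- Two sets of ten elements can be enumerated without coincidences. -/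
theorem exists_enum {α : Type} [DecidableEq α] (S T : Finset α) (hS : S.card = 10)
    (hT : T.card = 10) : ∃ e : Bool → Fin 10 → α, (∀ b, Function.Injective (e b)) ∧
      (∀ x, x ∈ S ↔ ∃ a, x = e false a) ∧ (∀ x, x ∈ T ↔ ∃ a, x = e true a) ∧
      ∀ a, e false a ≠ e true a := by
  classical
  have hc : (S \ T).card = (T \ S).card := by
    rw [card_sdiff, card_sdiff, hS, hT, inter_comm]
  let φ := Finset.equivOfCardEq hc
  let ψ : α → α := fun x => if h : x ∈ S \ T then (φ ⟨x, h⟩ : α) else x
  have hψ1 : ∀ x ∈ S, ψ x ∈ T := by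
    intro x hx
    by_cases h : x ∈ S \ T
    · simp only [ψ, dif_pos h]
      exact (mem_sdiff.1 (φ ⟨x, h⟩).2).1
    · simp only [ψ, dif_neg h]
      by_contra hxT
      exact h (mem_sdiff.2 ⟨hx, hxT⟩)
  have hψ2 : ∀ x ∈ T, ψ x = x := by
    intro x hx
    have h : x ∉ S \ T := fun h => (mem_sdiff.1 h).2 hx
    simp only [ψ, dif_neg h]
  have hψ3 : Set.InjOn ψ S := by
    intro x hx y hy hxy
    by_cases h : x ∈ S \ T <;> by_cases h' : y ∈ S \ T
    · simp only [ψ, dif_pos h, dif_pos h'] at hxy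
      have := φ.injective (Subtype.ext hxy)
      exact congrArg Subtype.val this
    · simp only [ψ, dif_pos h, dif_neg h'] at hxy
      exact absurd (hxy ▸ hy : (φ ⟨x, h⟩ : α) ∈ S) (mem_sdiff.1 (φ ⟨x, h⟩).2).2
    · simp only [ψ, dif_neg h, dif_pos h'] at hxy
      exact absurd (hxy ▸ hx : (φ ⟨y, h'⟩ : α) ∈ S) (mem_sdiff.1 (φ ⟨y, h'⟩).2).2
    · simpa only [ψ, dif_neg h, dif_neg h'] using hxy
  have hψ4 : S.image ψ = T := by
    refine eq_of_subset_of_card_le (fun y hy => ?_) ?_
    · obtain ⟨x, hx, rfl⟩ := mem_image.1 hy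
      exact hψ1 x hx
    · rw [card_image_of_injOn hψ3, hS, hT]
  let e0 : Fin 10 ≃ S := (Finset.equivFinOfCardEq hS).symm
  refine ⟨fun b a => if b then ψ (e0 (a + 1)) else e0 a, fun b => ?_, fun x => ?_, fun x => ?_,
    fun a => ?_⟩
  · cases b
    · intro a a' h
      simp only [Bool.false_eq_true, if_false] at h
      exact e0.injective (Subtype.ext h)
    · intro a a' h
      simp only [if_true] at h
      have := e0.injective (Subtype.ext (hψ3 (e0 (a + 1)).2 (e0 (a' + 1)).2 h))
      exact add_right_cancel this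
  · simp only [Bool.false_eq_true, if_false]
    constructor
    · intro hx; exact ⟨e0.symm ⟨x, hx⟩, by simp⟩
    · rintro ⟨a, rfl⟩; exact (e0 a).2
  · simp only [if_true]
    constructor
    · intro hx
      rw [← hψ4] at hx
      obtain ⟨y, hy, rfl⟩ := mem_image.1 hx
      exact ⟨e0.symm ⟨y, hy⟩ - 1, by simp⟩
    · rintro ⟨a, rfl⟩; exact hψ1 _ (e0 (a + 1)).2
  · simp only [Bool.false_eq_true, if_false, if_true]
    intro h
    have h1 : (e0 a : α) ∈ T := h ▸ hψ1 _ (e0 (a + 1)).2
    have h2 : ψ (e0 a) = ψ (e0 (a + 1)) := by rw [hψ2 _ h1]; exact h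
    have h3 := e0.injective (Subtype.ext (hψ3 (e0 a).2 (e0 (a + 1)).2 h2))
    revert h3
    generalize a = b
    revert b
    decide

variable {F : Type} [Field F] [Fintype F] [DecidableEq F] {C : ℕ} [NeZero C]

theorem mem_N1 {ω : Conf F C} {d : Dir F} {R : Pt F} (h : R ∈ N1 ω (d, ω (d, 0))) :
    co d R = ω (d, 0) ∧ (∀ e, e ≠ d → ω (e, 0) ≠ co e R) ∧ (auxHits ω d R).card = 10 := by
  simp only [N1, mem_filter, mem_pts, card_eq_zero] at h
  refine ⟨h.1, fun e he hc => ?_, h.2.2⟩
  have : e ∈ mainHits ω d R := by simp [mainHits, he, hc]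
  rw [h.2.1] at this
  exact notMem_empty _ this

theorem mem_auxHits {ω : Conf F C} {d : Dir F} {R : Pt F} {v : Var F C} :
    v ∈ auxHits ω d R ↔ v.1 ≠ d ∧ v.2 ≠ 0 ∧ ω v = co v.1 R := by
  simp [auxHits]

theorem aux_of_cover {ω : Conf F C} (hinj : Inj ω) {d : Dir F} {R : Pt F}
    (h : co d R = ω (d, 0)) {v : Var F C} (h2 : v.2 ≠ 0) (h3 : ω v = co v.1 R) :
    v ∈ auxHits ω d R := by
  refine mem_auxHits.2 ⟨fun h1 => h2 (hinj d v.2 0 ?_), h2, h3⟩
  rw [← h, ← h1]; exact h3

theorem mem_N2_of {ω : Conf F C} (hinj : Inj ω) {d : Dir F} {R : Pt F}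
    (h : R ∈ N1 ω (d, ω (d, 0))) {v : Var F C} (h2 : v.2 ≠ 0) (h3 : ω v = co v.1 R) :
    R ∈ N2 ω (v.1, ω v) := by
  obtain ⟨h1, hm, ha⟩ := mem_N1 h
  have hv := aux_of_cover hinj h1 h2 h3
  have hvd : v.1 ≠ d := (mem_auxHits.1 hv).1
  simp only [N2, mem_filter, mem_pts]
  refine ⟨h3.symm, ?_, ?_⟩
  · rw [card_eq_one]
    refine ⟨d, ?_⟩
    ext e
    simp only [mainHits, mem_filter, mem_univ, true_and, mem_singleton]
    constructor
    · rintro ⟨-, he⟩
      by_contra hne
      exact hm e hne he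
    · rintro rfl
      exact ⟨Ne.symm hvd, h1.symm⟩
  · have : auxHits ω v.1 R = (auxHits ω d R).erase v := by
      ext u
      rw [mem_erase]
      constructor
      · intro hu
        obtain ⟨u1, u2, u3⟩ := mem_auxHits.1 hu
        exact ⟨fun huv => u1 (by rw [huv]), aux_of_cover hinj h1 u2 u3⟩
      · rintro ⟨huv, hu⟩
        obtain ⟨-, u2, u3⟩ := mem_auxHits.1 hu
        refine mem_auxHits.2 ⟨fun hd => huv ?_, u2, u3⟩
        refine Prod.ext hd (hinj v.1 u.2 v.2 ?_)
        have e1 : ω (v.1, u.2) = ω u := by rw [← hd]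
        rw [e1, u3, hd]; exact h3.symm
    rw [this, card_erase_of_mem hv, ha]

end SpecialEx

open SpecialEx

/-- Independent transversals by counting (Rosenfeld): if `0 < a`, `4Δ ≤ a ≤ |A i|` and every `(i, v)`
conflicts with at most `Δ` pairs `(j, w)`, `j ≠ i`, `w ∈ A j`, there is a conflict-free transversal.
Proof: let `T s` be the number of conflict-free choices on `s : Finset ι`; by strong induction on `|s|`,
`T (insert i s) ≥ (a/2) T s`, because
`T (insert i s) ≥ |A i| T s - ∑_{v ∈ A i} ∑_{(j,w) ~ (i,v), j ∈ s} T (s.erase j) ≥ |A i| T s (1 - 2Δ/a)`. -/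
theorem exists_transversal {ι W : Type} [Fintype ι] [DecidableEq ι] [DecidableEq W]
    (A : ι → Finset W) (conf : ι × W → ι × W → Prop) (hsymm : ∀ p p', conf p p' → conf p' p)
    (a Δ : ℕ) (ha : 0 < a) (haΔ : 4 * Δ ≤ a) (hA : ∀ i, a ≤ (A i).card)
    (hdeg : ∀ i, ∀ v ∈ A i, ∃ N : Finset (ι × W), N.card ≤ Δ ∧
      ∀ j, j ≠ i → ∀ w ∈ A j, conf (i, v) (j, w) → (j, w) ∈ N) :
    ∃ f : ι → W, (∀ i, f i ∈ A i) ∧ ∀ i j, i ≠ j → ¬ conf (i, f i) (j, f j) := by
  have hne : ∀ i, (A i).Nonempty := fun i => card_pos.1 (lt_of_lt_of_le ha (hA i))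
  choose f0 h0 using hne
  have hpos : ∀ s : Finset ι, 0 < (good A conf f0 s).card := by
    intro s
    induction s using Finset.induction_on with
    | empty =>
      exact card_pos.2 ⟨f0, mem_good.2 ⟨h0, fun _ _ => rfl, fun i hi => absurd hi (notMem_empty _)⟩⟩
    | insert i s hi ih =>
      have h := step A conf hsymm a Δ ha haΔ hA hdeg f0 h0 s.card s rfl i hi
      have : 0 < a * (good A conf f0 s).card := Nat.mul_pos ha ih
      omega
  obtain ⟨f, hf⟩ := card_pos.1 (hpos univ)
  obtain ⟨h1, -, h3⟩ := mem_good.1 hf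
  exact ⟨f, h1, fun i j hij => h3 i (mem_univ _) j (mem_univ _) hij⟩

variable {F : Type} [Field F] [Fintype F] [DecidableEq F]

/-- Classes `(d, ε)`, `A (d, ε) = N1 ω (d, ω (d, 0))`; two candidates conflict when some auxiliary variable
(`v.2 ≠ 0`) covers both.  A candidate `R` for `d` is covered by exactly ten auxiliary variables (none of
direction `d`, by `Inj`), with distinct directions (`Inj`); a candidate `R'` for `d'` on the line `j` of such a
variable lies in `N2 ω j`, and `R'` determines `d'`; so the degree is at most `Δ = 20 max |N2|` and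
`Reg2` gives `4Δ < min |N1|`.  To get `dir_ne'`, enumerate the first set of directions by `e`, take a bijection
`ψ` onto the second set fixing the intersection, and use `a ↦ ψ (e (a + 1))`. -/
theorem exists_special {C : ℕ} [NeZero C] (ω : Conf F C) (hinj : Inj ω) (h2 : Reg2 ω) :
    Nonempty (Special (KK ω)) := by
  classical
  obtain ⟨x₀, -, hx₀⟩ := exists_max_image (univ : Finset (Line F)) (fun x => (N2 ω x).card)
    ⟨(none, 0), mem_univ _⟩
  set m := (N2 ω x₀).card with hm
  obtain ⟨f, hf, hconf⟩ := exists_transversal (ι := Dir F × Bool) (W := Pt F)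
    (fun i => N1 ω (i.1, ω (i.1, 0)))
    (fun p p' => ∃ v : Var F C, v.2 ≠ 0 ∧ ω v = co v.1 p.2 ∧ ω v = co v.1 p'.2)
    (fun p p' ⟨v, h1, h2, h3⟩ => ⟨v, h1, h3, h2⟩) (80 * m + 1) (20 * m) (by omega) (by omega)
    (fun i => h2 _ x₀) (by
      intro i R hR
      obtain ⟨h1, -, ha⟩ := mem_N1 hR
      set U := (auxHits ω i.1 R).biUnion fun v => N2 ω (v.1, ω v) with hU
      have hUc : U.card ≤ 10 * m := by
        refine card_biUnion_le.trans ?_
        calc ∑ v ∈ auxHits ω i.1 R, (N2 ω (v.1, ω v)).card ≤ ∑ _v ∈ auxHits ω i.1 R, m :=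
              sum_le_sum fun v _ => hx₀ _ (mem_univ _)
          _ = 10 * m := by rw [sum_const, ha, smul_eq_mul]
      refine ⟨univ.filter fun p : (Dir F × Bool) × Pt F =>
        p.2 ∈ N1 ω (p.1.1, ω (p.1.1, 0)) ∧ p.2 ∈ U, ?_, ?_⟩
      · calc _ ≤ (U ×ˢ (univ : Finset Bool)).card := by
              refine card_le_card_of_injOn (fun p => (p.2, p.1.2)) ?_ ?_
              · intro p hp
                simp only [coe_filter, mem_univ, true_and, Set.mem_ofPred_eq] at hp
                simp [hp.2]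
              · rintro ⟨⟨d, b⟩, X⟩ hp ⟨⟨d', b'⟩, X'⟩ hq hpq
                simp only [coe_filter, mem_univ, true_and, Set.mem_ofPred_eq] at hp hq
                simp only [Prod.mk.injEq] at hpq
                obtain ⟨rfl, rfl⟩ := hpq
                have : d = d' := by
                  by_contra hne
                  exact (mem_N1 hq.1).2.1 d hne (mem_N1 hp.1).1.symm
                rw [this]
          _ ≤ 20 * m := by
              rw [card_product, card_univ, Fintype.card_bool]; omega
      · rintro j - w hw ⟨v, hv1, hv2, hv3⟩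
        simp only [mem_filter, mem_univ, true_and]
        exact ⟨hw, mem_biUnion.2 ⟨v, aux_of_cover hinj h1 hv1 hv2, mem_N2_of hinj hw hv1 hv3⟩⟩)
  have hcard : ∀ d b, ((auxHits ω d (f (d, b))).image Prod.fst).card = 10 := by
    intro d b
    rw [card_image_of_injOn, (mem_N1 (hf (d, b))).2.2]
    intro u hu v hv huv
    obtain ⟨-, -, u3⟩ := mem_auxHits.1 (mem_coe.1 hu)
    obtain ⟨-, -, v3⟩ := mem_auxHits.1 (mem_coe.1 hv)
    refine Prod.ext huv (hinj v.1 u.2 v.2 ?_)
    have e1 : ω (v.1, u.2) = ω u := by rw [← huv]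
    rw [e1, u3, huv]; exact v3.symm
  choose e he1 he2 he3 he4 using fun d => exists_enum _ _ (hcard d false) (hcard d true)
  have he : ∀ d b x, x ∈ (auxHits ω d (f (d, b))).image Prod.fst ↔ ∃ a, x = e d b a := by
    intro d b
    cases b
    · exact he2 d
    · exact he3 d
  refine ⟨⟨fun d b => f (d, b), e, fun d => ?_, fun d h => ?_, fun d b a h => ?_, he1, he4,
    fun d b e' => ?_, fun d b d' b' e' hd hc hK => ?_⟩⟩
  · rw [(mem_N1 (hf (d, true))).1, (mem_N1 (hf (d, false))).1]
  · have hpos : 0 < (auxHits ω d (f (d, false))).card := by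
      rw [(mem_N1 (hf (d, false))).2.2]; norm_num
    obtain ⟨v, hv⟩ := card_pos.1 hpos
    obtain ⟨-, v2, v3⟩ := mem_auxHits.1 hv
    refine hconf (d, false) (d, true) (by simp) ⟨v, v2, v3, ?_⟩
    simp only at h ⊢
    rw [← h]; exact v3
  · obtain ⟨v, hv, hv'⟩ := mem_image.1 ((he d b _).2 ⟨a, rfl⟩)
    exact (mem_auxHits.1 hv).1 (hv'.trans h)
  · obtain ⟨h1, hm', -⟩ := mem_N1 (hf (d, b))
    rw [mem_KK, ← he]
    simp only [thru_fst, thru_snd]
    constructor
    · rintro ⟨i, hi⟩
      by_cases hd : e' = d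
      · exact Or.inl hd
      · refine Or.inr (mem_image.2 ⟨(e', i), mem_auxHits.2 ⟨hd, ?_, hi⟩, rfl⟩)
        rintro (rfl : i = 0)
        exact hm' e' hd hi
    · rintro (rfl | h)
      · exact ⟨0, h1.symm⟩
      · obtain ⟨v, hv, rfl⟩ := mem_image.1 h
        exact ⟨v.2, (mem_auxHits.1 hv).2.2⟩
  · obtain ⟨i, hi⟩ := mem_KK.1 hK
    simp only [thru_fst, thru_snd] at hi
    by_cases hi0 : i = 0
    · subst hi0
      by_cases hed : e' = d
      · subst hed
        exact (mem_N1 (hf (d', b'))).2.1 e' hd (hi.trans hc)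
      · exact (mem_N1 (hf (d, b))).2.1 e' hed hi
    · exact hconf (d, b) (d', b') (fun h => hd (congrArg Prod.fst h))
        ⟨(e', i), hi0, hi, hi.trans hc⟩

end Crest.Agent.R34
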