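import Crest.Agent.R34.Classify
import Crest.Agent.R34.RegimeC
import Crest.Agent.R34.LemmaE
import Crest.Agent.R34.Reg134
import Crest.Agent.R34.Reg2
import Crest.Agent.R34.SpecialEx
import Crest.Agent.R34.DesignEx
import Crest.Agent.R34.Hyper

/-! # Row 34: assembly -/

set_option autoImplicit false

namespace Crest.Agent.R34

open Finset

theorem exists_large (c : ℝ) (hc : 0 < c) :
    ∃ q₀ : ℕ, ∀ q : ℕ, q₀ ≤ q → (q : ℝ) ^ ((3 : ℝ) / 5) ≤ c * q := by
  have h : Filter.Tendsto (fun x : ℝ => x ^ (-((2 : ℝ) / 5))) Filter.atTop (nhds 0) :=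
    tendsto_rpow_neg_atTop (by norm_num)
  have h2 := (h.comp tendsto_natCast_atTop_atTop).eventually (ge_mem_nhds hc)
  obtain ⟨q₀, hq₀⟩ := Filter.eventually_atTop.1 h2
  refine ⟨max q₀ 1, fun q hq => ?_⟩
  have h3 : (q : ℝ) ^ (-((2 : ℝ) / 5)) ≤ c := hq₀ q (le_trans (le_max_left _ _) hq)
  have hq1 : (0 : ℝ) < q := by
    have : 1 ≤ q := le_trans (le_max_right _ _) hq
    exact_mod_cast this
  calc (q : ℝ) ^ ((3 : ℝ) / 5) = (q : ℝ) ^ (-((2 : ℝ) / 5)) * q := by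
        rw [← Real.rpow_add_one hq1.ne']; norm_num
    _ ≤ c * q := mul_le_mul_of_nonneg_right h3 hq1.le

theorem exists_hyper : ∃ q₀ : ℕ, ∀ (F : Type) [Field F] [Fintype F] [DecidableEq F],
    q₀ ≤ Fintype.card F →
    ∃ E : Finset (Dir F → Option F), E.Nonempty ∧ (∀ e ∈ E, ∀ f ∈ E, ∃ d, e d = f d) ∧
      (∀ d c, ∃ e ∈ E, e d = c) ∧
      ∀ T : Finset (Dir F × Option F), (∀ e ∈ E, ∃ d, (d, e d) ∈ T) →
        Fintype.card F + 1 ≤ T.card := by
  obtain ⟨C, hC⟩ : ∃ C : ℕ, 2000 ≤ C := ⟨2000, le_rfl⟩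
  haveI : NeZero C := ⟨by omega⟩
  have hC1 : 1 ≤ C := by omega
  obtain ⟨π, hπ, q₁, hq₁⟩ := inj_prob C
  obtain ⟨β, hβ, h3⟩ := reg3_rare C
  obtain ⟨δ, hδ, q₂, hq₂⟩ := exists_design C β hβ
  obtain ⟨s₀, hs₀, hB⟩ := lemmaE C hC1 (1 / 2) (by norm_num)
  set a₀ : ℝ := (1 / 4 : ℝ) ^ C with ha₀
  have ha₀pos : 0 < a₀ := by positivity
  set c : ℝ := min (1 / 2000) (min (a₀ / 8) (1 / (7 * s₀))) with hcdef
  have hc : 0 < c := by positivity
  have hc1 : c ≤ 1 / 2000 := min_le_left _ _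
  have hc2 : c ≤ a₀ / 8 := le_trans (min_le_right _ _) (min_le_left _ _)
  have hc3 : c ≤ 1 / (7 * s₀) := le_trans (min_le_right _ _) (min_le_right _ _)
  have hc4 : s₀ ≤ 1 / (7 * c) := by
    rw [le_div_iff₀ (by positivity)] at hc3 ⊢; linarith
  obtain ⟨s₁, hs₁, hA⟩ := lemmaE C hC1 c hc
  have hrare := ((((((reg1_rare C).or (reg2_rare C hC)).or h3).or (reg4_rare C δ hδ)).or
    (hA (fun F _ _ _ B => unc B) (fun F _ _ _ _ => (Fintype.card F : ℝ)))).or
    (hB (fun F _ _ _ B => tauB c B) (fun F _ _ _ B => (sigB c B : ℝ)))).or (regimeC C)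
  obtain ⟨q₃, hq₃⟩ := hrare (π / 2) (by positivity)
  obtain ⟨q₄, hq₄⟩ := exists_large (a₀ / 2) (by positivity)
  refine ⟨max (max (max q₁ q₂) (max q₃ q₄)) (max ⌈s₁⌉₊ ⌈1 / c⌉₊), fun F _ _ _ hq => ?_⟩
  simp only [max_le_iff] at hq
  obtain ⟨⟨⟨g1, g2⟩, g3, g4⟩, g5, g6⟩ := hq
  have hqpos : (0 : ℝ) < Fintype.card F := by
    have := two_le_card (F := F); positivity
  have hΩ : (0 : ℝ) < Fintype.card (Conf F C) := by exact_mod_cast Fintype.card_pos
  have k1 := hq₁ F g1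
  have k3 := hq₃ F g3
  obtain ⟨ω, hinj, hω⟩ := exists_of_cnt_lt (p := fun ω : Conf F C => Inj ω) (by
    have := lt_of_le_of_lt k3 (lt_of_lt_of_le (by nlinarith) k1)
    exact_mod_cast this)
  simp only [not_or, not_not] at hω
  obtain ⟨⟨⟨⟨⟨⟨r1, r2⟩, r3⟩, r4⟩, rA⟩, rB⟩, rC⟩ := hω
  obtain ⟨D⟩ := hq₂ F g2 ω (exists_special ω hinj r2) r3 r4
  have hS : ∀ x ∉ KK ω, 2 * c * Fintype.card F < ((unc (KK ω) ∩ pts x).card : ℝ) := by
    intro x hx
    rw [unc_inter_pts hx]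
    have e1 := (abs_le.1 (r1 x)).1
    have e2 := hq₄ _ g4
    have e3 : a₀ ≤ alpha F C := alpha_ge C
    nlinarith
  refine hyper_of_design (KK ω) D (fun x hx => ?_) (fun B hBc hcov => ?_)
  · have := hS x hx
    rw [← card_pos]
    have h0 : (0 : ℝ) < ((unc (KK ω) ∩ pts x).card : ℝ) := lt_trans (by positivity) this
    exact_mod_cast h0
  · have hcq : 1 ≤ c * Fintype.card F := by
      have : 1 / c ≤ Fintype.card F := le_trans (Nat.le_ceil _) (by exact_mod_cast g6)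
      rw [div_le_iff₀ hc] at this; linarith
    rcases classify (KK ω) B c hc hc1 hcq hS hBc hcov with h | h | h | h
    · exact h
    · refine absurd ⟨hinj, r1, B, hBc, hcov, hcov, ?_, h, fun x => ?_⟩ rA
      · exact le_trans (Nat.le_ceil _) (by exact_mod_cast g5)
      · have : (unc B ∩ pts x).card ≤ (pts x).card := card_le_card inter_subset_right
        rw [card_pts] at this
        exact_mod_cast this
    · refine absurd ⟨hinj, r1, B, hBc, hcov, ?_, le_trans hc4 h.1, h.2, fun x => ?_⟩ rB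
      · exact Disjoint.mono_left (unc_anti subset_union_left) hcov
      · have : (tauB c B ∩ pts x).card ≤ sigB c B :=
          le_sup (f := fun x : Line F => (tauB c B ∩ pts x).card) (mem_univ x)
        exact_mod_cast this
    · exact absurd h rC

/-- Transport to the form of the statements. -/
theorem transport {α : Type} [Fintype α] [DecidableEq α] (n : ℕ) (hn : Fintype.card α = n)
    (E : Finset (α → α)) (h1 : E.Nonempty) (h2 : ∀ e ∈ E, ∀ f ∈ E, ∃ d, e d = f d)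
    (h3 : ∀ d c, ∃ e ∈ E, e d = c)
    (h4 : ∀ T : Finset (α × α), (∀ e ∈ E, ∃ d, (d, e d) ∈ T) → n ≤ T.card) :
    ∃ (N : ℕ) (part : Fin N → Fin n) (E : Finset (Finset (Fin N))),
      E.Nonempty ∧
      (∀ e ∈ E, ∀ i : Fin n, (e.filter (fun v => part v = i)).card = 1) ∧
      (∀ e ∈ E, ∀ f ∈ E, (e ∩ f).Nonempty) ∧
      (∀ i : Fin n, (Finset.univ.filter (fun v => part v = i)).card = n) ∧
      (∀ v : Fin N, ∃ e ∈ E, v ∈ e) ∧
      (∀ S : Finset (Fin N), (∀ e ∈ E, (e ∩ S).Nonempty) → n ≤ S.card) := by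
  let φ : α × α ≃ Fin (Fintype.card (α × α)) := Fintype.equivFin _
  let ψ : α ≃ Fin n := Fintype.equivFinOfCardEq hn
  let G : (α → α) → Finset (Fin (Fintype.card (α × α))) :=
    fun e => univ.image fun d => φ (d, e d)
  have hG : ∀ e v, v ∈ G e ↔ e (φ.symm v).1 = (φ.symm v).2 := by
    intro e v
    simp only [G, mem_image, mem_univ, true_and]
    constructor
    · rintro ⟨d, rfl⟩; simp
    · intro h; exact ⟨(φ.symm v).1, by rw [h]; simp⟩
  refine ⟨_, fun v => ψ (φ.symm v).1, E.image G, h1.image _, ?_, ?_, ?_, ?_, ?_⟩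
  · intro e' he' i
    obtain ⟨e, -, rfl⟩ := mem_image.1 he'
    rw [card_eq_one]
    refine ⟨φ (ψ.symm i, e (ψ.symm i)), ?_⟩
    ext v
    simp only [mem_filter, hG, mem_singleton]
    constructor
    · rintro ⟨ha, hb⟩
      have : (φ.symm v).1 = ψ.symm i := by rw [← hb]; simp
      rw [← this, ha]; simp
    · rintro rfl; simp
  · intro e' he' f' hf'
    obtain ⟨e, he, rfl⟩ := mem_image.1 he'
    obtain ⟨f, hf, rfl⟩ := mem_image.1 hf'
    obtain ⟨d, hd⟩ := h2 e he f hf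
    exact ⟨φ (d, e d), by simp [hG, hd]⟩
  · intro i
    have : (univ.filter fun v : Fin (Fintype.card (α × α)) => ψ (φ.symm v).1 = i) =
        univ.image fun c => φ (ψ.symm i, c) := by
      ext v
      simp only [mem_filter, mem_univ, true_and, mem_image]
      constructor
      · intro h
        refine ⟨(φ.symm v).2, ?_⟩
        rw [← h]; simp
      · rintro ⟨c, rfl⟩; simp
    rw [this, card_image_of_injective _ (fun c c' h => by simpa using h), card_univ, hn]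
  · intro v
    obtain ⟨e, he, h⟩ := h3 (φ.symm v).1 (φ.symm v).2
    exact ⟨G e, mem_image_of_mem _ he, (hG e v).2 h⟩
  · intro S hS
    have := h4 (S.map φ.symm.toEmbedding) (fun e he => by
      obtain ⟨v, hv⟩ := hS (G e) (mem_image_of_mem _ he)
      rw [mem_inter, hG] at hv
      refine ⟨(φ.symm v).1, ?_⟩
      rw [hv.1]
      exact mem_map_of_mem _ hv.2)
    rwa [card_map] at this

/-- The counterexamples for all large prime powers. -/
theorem ryser : ∃ q₀ : ℕ, ∀ (p n : ℕ), p.Prime → n ≠ 0 → q₀ ≤ p ^ n →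
    ∃ (N : ℕ) (part : Fin N → Fin (p ^ n + 1)) (E : Finset (Finset (Fin N))),
      E.Nonempty ∧
      (∀ e ∈ E, ∀ i : Fin (p ^ n + 1), (e.filter (fun v => part v = i)).card = 1) ∧
      (∀ e ∈ E, ∀ f ∈ E, (e ∩ f).Nonempty) ∧
      (∀ i : Fin (p ^ n + 1), (Finset.univ.filter (fun v => part v = i)).card = p ^ n + 1) ∧
      (∀ v : Fin N, ∃ e ∈ E, v ∈ e) ∧
      (∀ S : Finset (Fin N), (∀ e ∈ E, (e ∩ S).Nonempty) → p ^ n + 1 ≤ S.card) := by
  classical
  obtain ⟨q₀, hq₀⟩ := exists_hyper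
  refine ⟨q₀, fun p n hp hn hq => ?_⟩
  haveI : Fact p.Prime := ⟨hp⟩
  haveI : Fintype (GaloisField p n) := Fintype.ofFinite _
  have hcard : Fintype.card (GaloisField p n) = p ^ n := by
    rw [← Nat.card_eq_fintype_card]; exact GaloisField.card p n hn
  obtain ⟨E, h1, h2, h3, h4⟩ := hq₀ (GaloisField p n) (by rw [hcard]; exact hq)
  refine transport (α := Option (GaloisField p n)) (p ^ n + 1) (by simp [hcard]) E h1 h2 h3 ?_
  intro T hT
  rw [← hcard]; exact h4 T hT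

end Crest.Agent.R34
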