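import Crest.Agent.R34.Basic

/-! # Row 34: McDiarmid's bounded differences inequality -/

set_option autoImplicit false

namespace Crest.Agent.R34

open Finset

namespace McDiarmid

theorem exp_le_chord (l c y : ℝ) (hc : 0 < c) (hy : |y| ≤ c) :
    Real.exp (l * y) ≤ Real.cosh (l * c) + y * (Real.sinh (l * c) / c) := by
  obtain ⟨h1, h2⟩ := abs_le.1 hy
  have h := convexOn_exp.2 (Set.mem_univ (l * c)) (Set.mem_univ (-(l * c)))
    (show 0 ≤ (c + y) / (2 * c) by apply div_nonneg <;> linarith)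
    (show 0 ≤ (c - y) / (2 * c) by apply div_nonneg <;> linarith) (by field_simp; ring)
  simp only [smul_eq_mul] at h
  have e1 : (c + y) / (2 * c) * (l * c) + (c - y) / (2 * c) * -(l * c) = l * y := by
    field_simp; ring
  rw [e1] at h
  refine h.trans (le_of_eq ?_)
  rw [Real.cosh_eq, Real.sinh_eq]
  field_simp
  ring

theorem hoeffding {α : Type} [Fintype α] (Y : α → ℝ) (l c : ℝ) (hc : 0 < c)
    (hY : ∀ a, |Y a| ≤ c) (h0 : ∑ a, Y a = 0) :
    ∑ a, Real.exp (l * Y a) ≤ Fintype.card α * Real.exp (l ^ 2 * c ^ 2 / 2) := by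
  calc ∑ a, Real.exp (l * Y a) ≤ ∑ a, (Real.cosh (l * c) + Y a * (Real.sinh (l * c) / c)) :=
        sum_le_sum fun a _ => exp_le_chord l c _ hc (hY a)
    _ = Fintype.card α * Real.cosh (l * c) := by
        rw [sum_add_distrib, ← sum_mul, h0]; simp
    _ ≤ _ := by
        refine mul_le_mul_of_nonneg_left ?_ (by positivity)
        have := Real.cosh_le_exp_half_sq (l * c)
        rwa [mul_pow] at this

theorem sum_cons {α : Type} [Fintype α] {n : ℕ} (F : (Fin (n + 1) → α) → ℝ) :
    ∑ ω, F ω = ∑ a, ∑ ω' : Fin n → α, F (Fin.cons a ω') := by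
  rw [← Fintype.sum_prod_type']
  exact (Fintype.sum_equiv (Fin.consEquiv fun _ => α) _ _ fun _ => rfl).symm

theorem mgf_fin {α : Type} [Fintype α] [Nonempty α] (l c : ℝ) (hc : 0 < c) :
    ∀ (n : ℕ) (f : (Fin n → α) → ℝ), (∀ ω i a, |f (Function.update ω i a) - f ω| ≤ c) →
      ∑ ω, Real.exp (l * (f ω - (∑ ω', f ω') / (Fintype.card α : ℝ) ^ n)) ≤
        (Fintype.card α : ℝ) ^ n * Real.exp (n * (l ^ 2 * c ^ 2 / 2)) := by
  have hq : (0 : ℝ) < Fintype.card α := by exact_mod_cast Fintype.card_pos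
  intro n
  induction n with
  | zero =>
    intro f _
    simp
  | succ n ih =>
    intro f hf
    set q : ℝ := (Fintype.card α : ℝ) with hqdef
    let g : α → ℝ := fun a => (∑ ω' : Fin n → α, f (Fin.cons a ω')) / q ^ n
    set m := (∑ ω', f ω') / q ^ (n + 1) with hm
    have hm' : m = (∑ a, g a) / q := by
      rw [hm, sum_cons, ← sum_div, div_div, pow_succ]
    have hg : ∀ a b, |g a - g b| ≤ c := by
      intro a b
      simp only [g]
      rw [← sub_div, ← sum_sub_distrib, abs_div, abs_of_pos (pow_pos hq n),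
        div_le_iff₀ (pow_pos hq n)]
      calc |∑ ω' : Fin n → α, (f (Fin.cons a ω') - f (Fin.cons b ω'))|
          ≤ ∑ ω' : Fin n → α, |f (Fin.cons a ω') - f (Fin.cons b ω')| := abs_sum_le_sum_abs _ _
        _ ≤ ∑ _ω' : Fin n → α, c := sum_le_sum fun ω' _ => by
            have := hf (Fin.cons b ω') 0 a
            rwa [Fin.update_cons_zero] at this
        _ = c * q ^ n := by simp [hqdef, mul_comm]
    have hY : ∀ a, |g a - m| ≤ c := by
      intro a
      have e : g a - m = (∑ b, (g a - g b)) / q := by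
        rw [hm', sum_sub_distrib, sum_const, card_univ, nsmul_eq_mul, ← hqdef]
        field_simp
      rw [e, abs_div, abs_of_pos hq, div_le_iff₀ hq]
      calc |∑ b, (g a - g b)| ≤ ∑ b, |g a - g b| := abs_sum_le_sum_abs _ _
        _ ≤ ∑ _b : α, c := sum_le_sum fun b _ => hg a b
        _ = c * q := by simp [hqdef, mul_comm]
    have h0 : ∑ a, (g a - m) = 0 := by
      rw [sum_sub_distrib, sum_const, card_univ, nsmul_eq_mul, ← hqdef, hm']
      field_simp
      ring
    have h1 : ∀ a, ∑ ω' : Fin n → α, Real.exp (l * (f (Fin.cons a ω') - m)) ≤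
        q ^ n * Real.exp (n * (l ^ 2 * c ^ 2 / 2)) * Real.exp (l * (g a - m)) := by
      intro a
      have h2 := ih (fun ω' => f (Fin.cons a ω')) (by
        intro ω' i b
        have := hf (Fin.cons a ω') i.succ b
        rwa [← Fin.cons_update] at this)
      refine le_trans (le_of_eq ?_) (mul_le_mul_of_nonneg_right h2 (Real.exp_pos _).le)
      rw [sum_mul]
      refine sum_congr rfl fun ω' _ => ?_
      rw [← Real.exp_add]
      congr 1
      simp only [g]
      ring
    rw [sum_cons]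
    calc ∑ a, ∑ ω' : Fin n → α, Real.exp (l * (f (Fin.cons a ω') - m))
        ≤ ∑ a, q ^ n * Real.exp (n * (l ^ 2 * c ^ 2 / 2)) * Real.exp (l * (g a - m)) :=
          sum_le_sum fun a _ => h1 a
      _ = q ^ n * Real.exp (n * (l ^ 2 * c ^ 2 / 2)) * ∑ a, Real.exp (l * (g a - m)) := by
          rw [mul_sum]
      _ ≤ q ^ n * Real.exp (n * (l ^ 2 * c ^ 2 / 2)) * (q * Real.exp (l ^ 2 * c ^ 2 / 2)) :=
          mul_le_mul_of_nonneg_left (hoeffding _ l c hc hY h0) (by positivity)
      _ = _ := by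
          push_cast
          rw [add_mul, one_mul, Real.exp_add]
          ring

theorem mgf {ι α : Type} [Fintype ι] [DecidableEq ι] [Fintype α] [Nonempty α]
    (f : (ι → α) → ℝ) (l c : ℝ) (hc : 0 < c)
    (hf : ∀ ω i a, |f (Function.update ω i a) - f ω| ≤ c) :
    ∑ ω, Real.exp (l * (f ω - (∑ ω', f ω') / Fintype.card (ι → α))) ≤
      Fintype.card (ι → α) * Real.exp (Fintype.card ι * (l ^ 2 * c ^ 2 / 2)) := by
  let e : Fin (Fintype.card ι) ≃ ι := (Fintype.equivFin ι).symm
  let E : (Fin (Fintype.card ι) → α) ≃ (ι → α) := e.arrowCongr (Equiv.refl α)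
  have h := mgf_fin l c hc (Fintype.card ι) (fun ω => f (E ω)) (by
    intro ω i a
    have : E (Function.update ω i a) = Function.update (E ω) (e i) a := by
      funext j
      obtain ⟨k, rfl⟩ := e.surjective j
      by_cases hk : k = i
      · subst hk; simp [E]
      · rw [Function.update_of_ne (e.injective.ne hk)]
        simp [E, Function.update_of_ne hk]
    simp only [this]
    exact hf _ _ _)
  rw [Equiv.sum_comp E f] at h
  rw [Equiv.sum_comp E
    (fun ω => Real.exp (l * (f ω - (∑ ω', f ω') / (Fintype.card α : ℝ) ^ Fintype.card ι)))] at h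
  simpa [Fintype.card_fun] using h

theorem one_sided {ι α : Type} [Fintype ι] [DecidableEq ι] [Fintype α] [Nonempty α]
    (f : (ι → α) → ℝ) (c : ℝ) (hc : 0 < c)
    (hf : ∀ ω i a, |f (Function.update ω i a) - f ω| ≤ c) (t : ℝ) (ht : 0 ≤ t) :
    (cnt (fun ω => t ≤ f ω - (∑ ω', f ω') / Fintype.card (ι → α)) : ℝ) ≤
      Real.exp (-(t ^ 2) / (2 * Fintype.card ι * c ^ 2)) * Fintype.card (ι → α) := by
  rcases Nat.eq_zero_or_pos (Fintype.card ι) with h0 | hn
  · rw [h0]
    simp only [Nat.cast_zero, mul_zero, zero_mul, div_zero, Real.exp_zero, one_mul]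
    exact_mod_cast cnt_le_card _
  have hnR : (0 : ℝ) < Fintype.card ι := by exact_mod_cast hn
  set n : ℝ := (Fintype.card ι : ℝ) with hndef
  set l : ℝ := t / (n * c ^ 2) with hl
  have hl0 : 0 ≤ l := by positivity
  set m := (∑ ω', f ω') / Fintype.card (ι → α) with hm
  have h1 := cnt_mul_le_sum (fun ω => Real.exp (l * (f ω - m))) (fun _ => (Real.exp_pos _).le)
    (Real.exp (l * t))
  have h2 : (cnt (fun ω => t ≤ f ω - m) : ℝ) ≤
      cnt (fun ω => Real.exp (l * t) ≤ Real.exp (l * (f ω - m))) := by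
    exact_mod_cast cnt_mono fun ω h => Real.exp_le_exp.2 (mul_le_mul_of_nonneg_left h hl0)
  have h3 := mgf f l c hc hf
  rw [← hm, ← hndef] at h3
  have h4 := (mul_le_mul_of_nonneg_right h2 (Real.exp_pos (l * t)).le).trans (h1.trans h3)
  rw [← le_div_iff₀ (Real.exp_pos _), mul_div_assoc, ← Real.exp_sub, mul_comm] at h4
  have e : n * (l ^ 2 * c ^ 2 / 2) - l * t = -(t ^ 2) / (2 * n * c ^ 2) := by
    rw [hl]
    field_simp
    ring
  rwa [e] at h4

end McDiarmid

/-- Bounded differences inequality on a uniform product space.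
Proof: exponential moments.  For `s : Finset ι` let `E_s f ω` be the average of `f` over the
coordinates in `s` (or transport to `Fin n → α` and induct on `n` with `Fin.consEquiv`);
claim `avg exp (λ (f - avg f)) ≤ exp (n λ² c² / 2)`.  Step: `g a := avg_ω' f (cons a ω')` satisfies
`|g a - g b| ≤ c`, so `|g a - avg g| ≤ c`, and for a mean zero `Y` with `|Y| ≤ c` convexity gives
`avg exp (λ Y) ≤ cosh (λ c) ≤ exp (λ² c² / 2)` (`Real.cosh_le_exp_half_sq`).  Then Markov
(`cnt_mul_le_sum`) with `λ = t / (n c²)` for `f` and `-f`. -/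
theorem mcdiarmid {ι α : Type} [Fintype ι] [DecidableEq ι] [Fintype α] [Nonempty α]
    (f : (ι → α) → ℝ) (c : ℝ) (hc : 0 < c)
    (hf : ∀ ω i a, |f (Function.update ω i a) - f ω| ≤ c) (t : ℝ) (ht : 0 ≤ t) :
    (cnt (fun ω => t ≤ |f ω - (∑ ω', f ω') / Fintype.card (ι → α)|) : ℝ) ≤
      2 * Real.exp (-(t ^ 2) / (2 * Fintype.card ι * c ^ 2)) * Fintype.card (ι → α) := by
  have h1 := McDiarmid.one_sided f c hc hf t ht
  have h2 := McDiarmid.one_sided (fun ω => -f ω) c hc (by
    intro ω i a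
    rw [neg_sub_neg, abs_sub_comm]
    exact hf ω i a) t ht
  have h3 : (cnt (fun ω => t ≤ |f ω - (∑ ω', f ω') / Fintype.card (ι → α)|) : ℝ) ≤
      cnt (fun ω => t ≤ f ω - (∑ ω', f ω') / Fintype.card (ι → α)) +
      cnt (fun ω => t ≤ -f ω - (∑ ω', -f ω') / Fintype.card (ι → α)) := by
    exact_mod_cast (cnt_mono fun ω h => by
      rcases le_abs.1 h with h | h
      · exact Or.inl h
      · right
        rw [sum_neg_distrib, neg_div]
        linarith).trans (cnt_or_le _ _)
  linarith

end Crest.Agent.R34
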