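import Crest.Agent.R34.Basic
import Crest.Agent.R34h.Hankel

/-! # Row 34: Metsch's bound -/

set_option autoImplicit false

namespace Crest.Agent.R34

open Finset

variable {F : Type} [Field F] [Fintype F] [DecidableEq F]

/-- First coefficient of `co d`. -/
def cx : Dir F → F
  | none => 1
  | some m => -m

/-- Second coefficient of `co d`. -/
def cy : Dir F → F
  | none => 0
  | some _ => 1

theorem co_eq (d : Dir F) (P : Pt F) : co d P = cx d * P.1 + cy d * P.2 := by
  cases d
  · simp [co, cx, cy]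
  · simp only [co, cx, cy]; ring

theorem cx_cy_ne (d : Dir F) : cx d ≠ 0 ∨ cy d ≠ 0 := by
  cases d <;> simp [cx, cy]

/-- Integer form of Metsch's bound (no hypothesis on `x`). -/
theorem metsch_int (B : Finset (Line F)) (x : Line F) :
    ((unc B ∩ pts x).card : ℤ) * (2 * Fintype.card F - B.card - (unc B ∩ pts x).card) ≤
      (unc B).card := by
  have h := R34h.hankel_bound (fun l : Line F => cx l.1) (fun l => cy l.1) (fun l => -l.2) B
    (cx x.1) (cy x.1) x.2 (cx_cy_ne x.1)
  convert h using 4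
  · ext P
    simp only [mem_filter, mem_univ, true_and, mem_unc, mem_inter, mem_pts, co_eq,
      ← sub_eq_add_neg, ne_eq, sub_eq_zero]
  · congr 1
    ext P
    simp only [mem_filter, mem_univ, true_and, mem_unc, mem_inter, mem_pts, co_eq,
      ← sub_eq_add_neg, ne_eq, sub_eq_zero]
  · ext P
    simp only [mem_filter, mem_univ, true_and, mem_unc, mem_inter, mem_pts, co_eq,
      ← sub_eq_add_neg, ne_eq, sub_eq_zero]

/-- `δ ≥ s (2q - n - s)` where `δ` points are missed by the `n` lines of `B`, `s` of them on a line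
`x ∉ B`.
Proof: let `x_t = (x.1, t)`.  Parametrise `x_t` by `u ↦ X t u` (`X t u = (t,u)` for `x.1 = none`,
`(u, t + m₀ u)` for `x.1 = some m₀`).  A line `y` with `y.1 ≠ x.1` meets `x_t` at `u = a_y + b_y t`.
Let `B'` be these lines of `B` (`n'` of them), `R(u,T) = ∏_{y ∈ B'} (u - a_y - b_y T) ∈ F[T]`,
`Z_t = {u | R(u,t) ≠ 0}`, `s_t = |Z_t|`, `s = s_{x.2}`.  Let `M i j = ∑_u u^(i+j) R(u,T)`
(`i j : Fin s`), `D = det M ∈ F[T]`.
(1) `D(x.2) ≠ 0`: there `M = Vᵀ diag V` with `V` the Vandermonde matrix of `Z_{x.2}`.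
(2) `(T - t)^(s - s_t) ∣ D`: expand `D = ∑_{f : Fin s → F} (∏_i f_i^i R(f_i,T)) det (f_i^j)`; the
determinant vanishes unless `f` is injective, and then at least `s - s_t` of the `f_i` are outside `Z_t`.
(3) `deg D ≤ s (n' - q + s)`: `R = ∑_a r_a(T) u^a` with `deg r_a ≤ n' - a` and `∑_u u^e = 0` for
`e < q - 1` (`FiniteField.sum_pow_lt_card_sub_one`), so `M i j = 0` or
`deg (M i j) + q - 1 ≤ n' + i + j`; sum over a permutation term.
Hence `∑_t (s - s_t) ≤ s (n' - q + s)` and
`δ = ∑_{t : x_t ∉ B} s_t ≥ (q - (n - n')) s - s (n' - q + s)`. -/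
theorem metsch (B : Finset (Line F)) (x : Line F) (hx : x ∉ B) :
    (unc B ∩ pts x).card * (2 * Fintype.card F) ≤
      (unc B).card + (unc B ∩ pts x).card * (B.card + (unc B ∩ pts x).card) := by
  have h := metsch_int B x
  zify
  linarith

end Crest.Agent.R34
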