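import Crest.Agent.R34.Basic

/-! # Row 34: sequential containers -/

set_option autoImplicit false

namespace Crest.Agent.R34

open Finset

theorem Phi_nonneg {L : Type} [DecidableEq L] (Γ : Finset L → Finset L) (n : ℕ) (B : Finset L) :
    0 ≤ Phi Γ n B := by
  induction n generalizing B with
  | zero => simp [Phi]
  | succ n ih =>
    rw [Phi]
    refine div_nonneg (sum_nonneg fun x _ => add_nonneg (ih _) ?_) (by positivity)
    split_ifs <;> norm_num

namespace Phi

variable {L : Type} [Fintype L] [DecidableEq L]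

/-- One-step weight. -/
noncomputable def uw (Γ : Finset L → Finset L) (a : ℝ) (B' : Finset L) (x : L) : ℝ :=
  if x ∈ Γ B' then ((B'.card : ℝ) + 1) / a else 1 / (Fintype.card L : ℝ)

/-- Sequential weight of a set. -/
noncomputable def pw (Γ : Finset L → Finset L) (a : ℝ) : ℕ → Finset L → ℝ
  | 0, _ => 1
  | n + 1, B => ∑ x ∈ B, pw Γ a n (B.erase x) * uw Γ a (B.erase x) x

theorem uw_nonneg (Γ : Finset L → Finset L) {a : ℝ} (ha : 0 < a) (B' : Finset L) (x : L) :
    0 ≤ uw Γ a B' x := by
  unfold uw; split_ifs <;> positivity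

theorem pw_nonneg (Γ : Finset L → Finset L) {a : ℝ} (ha : 0 < a) (n : ℕ) (B : Finset L) :
    0 ≤ pw Γ a n B := by
  induction n generalizing B with
  | zero => simp [pw]
  | succ n ih =>
    rw [pw]
    exact sum_nonneg fun x _ => mul_nonneg (ih _) (uw_nonneg Γ ha _ _)

theorem sum_uw_le [Nonempty L] (Γ : Finset L → Finset L) {a : ℝ} (ha : 0 < a)
    (hΓ : ∀ B' : Finset L, ((Γ B').card : ℝ) * (B'.card + 1) ≤ a) (B' : Finset L) :
    ∑ x, uw Γ a B' x ≤ 2 := by
  have hL : (0 : ℝ) < Fintype.card L := by exact_mod_cast Fintype.card_pos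
  have h1 : ∀ x, uw Γ a B' x ≤
      (if x ∈ Γ B' then ((B'.card : ℝ) + 1) / a else 0) + 1 / (Fintype.card L : ℝ) := by
    intro x
    unfold uw
    split_ifs
    · have : 0 ≤ 1 / (Fintype.card L : ℝ) := by positivity
      linarith
    · simp
  refine (sum_le_sum fun x _ => h1 x).trans ?_
  rw [sum_add_distrib, ← sum_filter, filter_mem_eq_inter, univ_inter, sum_const, sum_const,
    card_univ, nsmul_eq_mul, nsmul_eq_mul, mul_one_div_cancel hL.ne', ← mul_div_assoc]
  have : ((Γ B').card : ℝ) * (B'.card + 1) / a ≤ 1 := by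
    rw [div_le_one ha]; exact hΓ B'
  linarith

theorem sum_pw_le [Nonempty L] (Γ : Finset L → Finset L) {a : ℝ} (ha : 0 < a)
    (hΓ : ∀ B' : Finset L, ((Γ B').card : ℝ) * (B'.card + 1) ≤ a) (n : ℕ) :
    ∑ B ∈ (univ.filter fun B : Finset L => B.card = n), pw Γ a n B ≤ 2 ^ n := by
  induction n with
  | zero =>
    have : (univ.filter fun B : Finset L => B.card = 0) = {∅} := by
      ext B; simp
    rw [this]; simp [pw]
  | succ n ih =>
    have h1 : ∀ x : L,
        ∑ B ∈ (univ.filter fun B : Finset L => B.card = n + 1 ∧ x ∈ B),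
            pw Γ a n (B.erase x) * uw Γ a (B.erase x) x ≤
          ∑ B' ∈ (univ.filter fun B : Finset L => B.card = n), pw Γ a n B' * uw Γ a B' x := by
      intro x
      have hinj : Set.InjOn (fun B : Finset L => B.erase x)
          ((univ.filter fun B : Finset L => B.card = n + 1 ∧ x ∈ B : Finset (Finset L)) :
            Set (Finset L)) := by
        intro B hB B' hB' h
        simp only [coe_filter, mem_univ, true_and, Set.mem_ofPred_eq] at hB hB'
        have h' : B.erase x = B'.erase x := h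
        rw [← insert_erase hB.2, ← insert_erase hB'.2, h']
      rw [← sum_image (f := fun B' => pw Γ a n B' * uw Γ a B' x) hinj]
      refine sum_le_sum_of_subset_of_nonneg ?_ fun B _ _ =>
        mul_nonneg (pw_nonneg Γ ha _ _) (uw_nonneg Γ ha _ _)
      intro B' hB'
      simp only [mem_image, mem_filter, mem_univ, true_and] at hB' ⊢
      obtain ⟨B, ⟨hB, hx⟩, rfl⟩ := hB'
      rw [card_erase_of_mem hx, hB]; rfl
    calc ∑ B ∈ (univ.filter fun B : Finset L => B.card = n + 1), pw Γ a (n + 1) B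
        = ∑ x : L, ∑ B ∈ (univ.filter fun B : Finset L => B.card = n + 1 ∧ x ∈ B),
            pw Γ a n (B.erase x) * uw Γ a (B.erase x) x := by
          simp only [pw]
          refine sum_comm' ?_
          intro B x
          simp
      _ ≤ ∑ x : L, ∑ B' ∈ (univ.filter fun B : Finset L => B.card = n),
            pw Γ a n B' * uw Γ a B' x := sum_le_sum fun x _ => h1 x
      _ = ∑ B' ∈ (univ.filter fun B : Finset L => B.card = n),
            pw Γ a n B' * ∑ x : L, uw Γ a B' x := by
          rw [sum_comm]; simp only [mul_sum]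
      _ ≤ ∑ B' ∈ (univ.filter fun B : Finset L => B.card = n), pw Γ a n B' * 2 :=
          sum_le_sum fun B' _ =>
            mul_le_mul_of_nonneg_left (sum_uw_le Γ ha hΓ B') (pw_nonneg Γ ha _ _)
      _ ≤ 2 ^ (n + 1) := by rw [← sum_mul, pow_succ]; linarith

omit [Fintype L] [DecidableEq L] in
/-- Jensen's inequality for `exp`. -/
theorem jensen_exp (B : Finset L) (z : L → ℝ) (m : ℝ) (hm : ∑ x ∈ B, z x = B.card * m) :
    (B.card : ℝ) * Real.exp m ≤ ∑ x ∈ B, Real.exp (z x) := by
  have h1 : ∀ x, Real.exp m * (z x - m + 1) ≤ Real.exp (z x) := by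
    intro x
    have h2 := Real.add_one_le_exp (z x - m)
    calc Real.exp m * (z x - m + 1) ≤ Real.exp m * Real.exp (z x - m) :=
          mul_le_mul_of_nonneg_left h2 (Real.exp_pos _).le
      _ = Real.exp (z x) := by rw [← Real.exp_add]; congr 1; ring
  refine le_trans (le_of_eq ?_) (sum_le_sum fun x _ => h1 x)
  rw [← mul_sum, sum_add_distrib, sum_sub_distrib, hm, sum_const, sum_const, nsmul_eq_mul,
    nsmul_eq_mul]
  ring

theorem le_pw [Nonempty L] (Γ : Finset L → Finset L) {a : ℝ} (ha : 0 < a) (n : ℕ)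
    (hn : (n : ℝ) ≤ a) (B : Finset L) (hB : B.card = n) :
    (n.factorial : ℝ) ^ 2 / a ^ n * Real.exp (-(Real.log (Fintype.card L)) * Phi Γ n B) ≤
      pw Γ a n B := by
  have hL : (0 : ℝ) < Fintype.card L := by exact_mod_cast Fintype.card_pos
  induction n generalizing B with
  | zero => simp [pw, Phi]
  | succ n ih =>
    have hn' : (n : ℝ) + 1 ≤ a := by exact_mod_cast hn
    have hn0 : (n : ℝ) ≤ a := by linarith
    set l := Real.log (Fintype.card L) with hl
    have hz := jensen_exp B
      (fun x => -l * (Phi Γ n (B.erase x) + if x ∈ Γ (B.erase x) then 0 else 1))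
      (-l * Phi Γ (n + 1) B) (by
        rw [← mul_sum, Phi, hB]
        have : (n : ℝ) + 1 ≠ 0 := by positivity
        push_cast
        field_simp)
    have h1 : ∀ x ∈ B, (n.factorial : ℝ) ^ 2 / a ^ n * (((n : ℝ) + 1) / a) *
        Real.exp (-l * (Phi Γ n (B.erase x) + if x ∈ Γ (B.erase x) then 0 else 1)) ≤
          pw Γ a n (B.erase x) * uw Γ a (B.erase x) x := by
      intro x hx
      have hc : (B.erase x).card = n := by rw [card_erase_of_mem hx, hB]; rfl
      have h2 := ih hn0 (B.erase x) hc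
      have h3 : (((n : ℝ) + 1) / a) *
          Real.exp (-l * (if x ∈ Γ (B.erase x) then 0 else 1)) ≤ uw Γ a (B.erase x) x := by
        unfold uw
        split_ifs
        · rw [hc]; simp
        · rw [mul_one, Real.exp_neg, hl, Real.exp_log hL, one_div]
          have h4 : ((n : ℝ) + 1) / a ≤ 1 := by rw [div_le_one ha]; exact hn'
          have h5 : (0 : ℝ) ≤ (Fintype.card L : ℝ)⁻¹ := by positivity
          nlinarith
      rw [mul_add, Real.exp_add]
      calc (n.factorial : ℝ) ^ 2 / a ^ n * (((n : ℝ) + 1) / a) *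
            (Real.exp (-l * Phi Γ n (B.erase x)) *
              Real.exp (-l * (if x ∈ Γ (B.erase x) then 0 else 1)))
          = ((n.factorial : ℝ) ^ 2 / a ^ n * Real.exp (-l * Phi Γ n (B.erase x))) *
              ((((n : ℝ) + 1) / a) *
                Real.exp (-l * (if x ∈ Γ (B.erase x) then 0 else 1))) := by ring
        _ ≤ _ := mul_le_mul h2 h3 (by positivity) (pw_nonneg Γ ha _ _)
    rw [pw]
    refine le_trans ?_ (sum_le_sum h1)
    rw [← mul_sum]
    refine le_trans (le_of_eq ?_) (mul_le_mul_of_nonneg_left hz (by positivity))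
    rw [hB, Nat.factorial_succ, pow_succ a n]
    push_cast
    field_simp

end Phi

/-- Proof: define `p 0 B = 1`, `p (n+1) B = ∑_{x ∈ B} p n (B.erase x) * u (B.erase x) x` with
`u B' x = (|B'|+1)/a` if `x ∈ Γ B'` and `1/Λ` otherwise (`Λ = card L`).  Then
`∑_{|B| = n} p n B ≤ 2^n` (since `∑_x u B' x ≤ 2`) and, for `|B| = n ≤ a`,
`p n B ≥ (n!)² a^(-n) Λ^(-Phi Γ n B)` by induction and Jensen for `exp`
(`u ≥ ((n+1)/a) Λ^(-[x ∉ Γ])`). -/
theorem cnt_Phi_le {L : Type} [Fintype L] [DecidableEq L] [Nonempty L] (Γ : Finset L → Finset L)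
    (a : ℝ) (hΓ : ∀ B' : Finset L, ((Γ B').card : ℝ) * (B'.card + 1) ≤ a) (n : ℕ)
    (hn : (n : ℝ) ≤ a) (e : ℝ) :
    (cnt (fun B : Finset L => B.card = n ∧ Phi Γ n B ≤ e) : ℝ) ≤
      2 ^ n * (Fintype.card L : ℝ) ^ e * a ^ n / (n.factorial : ℝ) ^ 2 := by
  classical
  have hL1 : (1 : ℝ) ≤ Fintype.card L := by exact_mod_cast Fintype.card_pos
  have hL : (0 : ℝ) < Fintype.card L := by linarith
  rcases Nat.eq_zero_or_pos n with rfl | hpos
  · simp only [Phi, pow_zero, Nat.factorial_zero, Nat.cast_one, one_pow, div_one, mul_one,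
      one_mul]
    rw [cnt_eq]
    by_cases he : 0 ≤ e
    · have h1 : (univ.filter fun B : Finset L => B.card = 0 ∧ (0 : ℝ) ≤ e) = {∅} := by
        ext B; simp [he]
      rw [h1, card_singleton, Nat.cast_one]
      exact Real.one_le_rpow hL1 he
    · have h1 : (univ.filter fun B : Finset L => B.card = 0 ∧ (0 : ℝ) ≤ e) = ∅ := by
        ext B; simp [he]
      rw [h1, card_empty, Nat.cast_zero]
      positivity
  have ha : 0 < a := lt_of_lt_of_le (by exact_mod_cast hpos) hn
  have hf : (0 : ℝ) < n.factorial := by exact_mod_cast n.factorial_pos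
  have hl : 0 ≤ Real.log (Fintype.card L) := Real.log_nonneg hL1
  have hE : (0 : ℝ) < (Fintype.card L : ℝ) ^ e := Real.rpow_pos_of_pos hL e
  have h1 : ∀ B ∈ (univ.filter fun B : Finset L => B.card = n ∧ Phi Γ n B ≤ e),
      (n.factorial : ℝ) ^ 2 / a ^ n * ((Fintype.card L : ℝ) ^ e)⁻¹ ≤ Phi.pw Γ a n B := by
    intro B hB
    simp only [mem_filter, mem_univ, true_and] at hB
    refine le_trans ?_ (Phi.le_pw Γ ha n hn B hB.1)
    refine mul_le_mul_of_nonneg_left ?_ (by positivity)
    rw [Real.rpow_def_of_pos hL, ← Real.exp_neg]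
    refine Real.exp_le_exp.2 ?_
    nlinarith [hB.2]
  have h2 := card_nsmul_le_sum _ _ _ h1
  have h3 : ∑ B ∈ (univ.filter fun B : Finset L => B.card = n ∧ Phi Γ n B ≤ e),
      Phi.pw Γ a n B ≤ 2 ^ n := by
    refine le_trans (sum_le_sum_of_subset_of_nonneg ?_ fun B _ _ => Phi.pw_nonneg Γ ha _ _)
      (Phi.sum_pw_le Γ ha hΓ n)
    intro B hB
    simp only [mem_filter, mem_univ, true_and] at hB ⊢
    exact hB.1
  rw [nsmul_eq_mul] at h2
  have h4 := h2.trans h3
  rw [cnt_eq, le_div_iff₀ (by positivity)]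
  set N : ℝ := ((univ.filter fun B : Finset L => B.card = n ∧ Phi Γ n B ≤ e).card : ℝ)
  calc N * (n.factorial : ℝ) ^ 2
      = (N * ((n.factorial : ℝ) ^ 2 / a ^ n * ((Fintype.card L : ℝ) ^ e)⁻¹)) *
          ((Fintype.card L : ℝ) ^ e * a ^ n) := by field_simp
    _ ≤ 2 ^ n * ((Fintype.card L : ℝ) ^ e * a ^ n) :=
        mul_le_mul_of_nonneg_right h4 (by positivity)
    _ = _ := by ring

/-- Proof: induction on `n` for all `B ⊆ B₀` with `|B| = n`, using
`|Bad ∩ B.erase x| + [x ∈ Bad] = |Bad ∩ B|`. -/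
theorem avg_Phi_le {L G : Type} [DecidableEq L] [Fintype G] (Γ : G → Finset L → Finset L)
    (B₀ Bad : Finset L) (r : ℕ → ℝ) (hr : ∀ i, 0 ≤ r i)
    (h : ∀ B' ⊆ B₀, ∀ x ∈ B₀, x ∉ B' → x ∉ Bad →
      (cnt (fun g => x ∉ Γ g B') : ℝ) ≤ r B'.card * Fintype.card G) :
    ∑ g, Phi (Γ g) B₀.card B₀ ≤
      (∑ i ∈ range B₀.card, r i + (Bad ∩ B₀).card) * Fintype.card G := by
  classical
  have key : ∀ (n : ℕ) (B : Finset L), B ⊆ B₀ → B.card = n →
      ∑ g, Phi (Γ g) n B ≤ (∑ i ∈ range n, r i + (Bad ∩ B).card) * Fintype.card G := by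
    intro n
    induction n with
    | zero =>
      intro B _ _
      simp only [Phi, sum_const_zero]
      positivity
    | succ n ih =>
      intro B hB hc
      have hG : (0 : ℝ) ≤ Fintype.card G := by positivity
      have h1 : ∀ x ∈ B,
          ∑ g, (Phi (Γ g) n (B.erase x) + if x ∈ Γ g (B.erase x) then (0 : ℝ) else 1) ≤
            (∑ i ∈ range (n + 1), r i + (Bad ∩ B).card) * Fintype.card G := by
        intro x hx
        have hce : (B.erase x).card = n := by rw [card_erase_of_mem hx, hc]; rfl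
        have hsub : B.erase x ⊆ B₀ := (erase_subset _ _).trans hB
        have h2 := ih (B.erase x) hsub hce
        have h3 : ∑ g, (if x ∈ Γ g (B.erase x) then (0 : ℝ) else 1) =
            cnt (fun g => x ∉ Γ g (B.erase x)) := by
          rw [cnt_eq_sum]
          refine sum_congr rfl fun g _ => ?_
          by_cases hg : x ∈ Γ g (B.erase x) <;> simp [hg]
        rw [sum_add_distrib, h3, sum_range_succ]
        by_cases hb : x ∈ Bad
        · have h4 : (cnt (fun g => x ∉ Γ g (B.erase x)) : ℝ) ≤ Fintype.card G := by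
            exact_mod_cast cnt_le_card _
          have h5 : ((Bad ∩ B.erase x).card : ℝ) + 1 = (Bad ∩ B).card := by
            have : (Bad ∩ B.erase x).card + 1 = (Bad ∩ B).card := by
              rw [inter_erase]
              exact card_erase_add_one (mem_inter.2 ⟨hb, hx⟩)
            exact_mod_cast this
          have h6 := mul_nonneg (hr n) hG
          rw [← h5]
          nlinarith
        · have h4 := h (B.erase x) hsub x (hB hx) (notMem_erase x B) hb
          rw [hce] at h4
          have h5 : ((Bad ∩ B.erase x).card : ℝ) ≤ (Bad ∩ B).card := by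
            exact_mod_cast card_le_card (inter_subset_inter_left (erase_subset _ _))
          have h6 := mul_le_mul_of_nonneg_right h5 hG
          nlinarith
      simp only [Phi]
      rw [← sum_div, sum_comm, div_le_iff₀ (by positivity)]
      refine (sum_le_sum h1).trans (le_of_eq ?_)
      rw [sum_const, hc, nsmul_eq_mul]
      push_cast
      ring
  exact key _ B₀ (Subset.refl _) rfl

end Crest.Agent.R34
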