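import Crest.Agent.R34.McDiarmid

/-! # Row 34: a small non-trivial cover is determined by few lines -/

set_option autoImplicit false

namespace Crest.Agent.R34.RegimeC

open Finset

/-! ### numerical lemmas -/

theorem bonf2 {a : ℝ} (h0 : 0 ≤ a) (h1 : a ≤ 1) (m : ℕ) :
    (1 - a) ^ m ≤ 1 - m * a + (m : ℝ) ^ 2 * a ^ 2 / 2 := by
  induction m with
  | zero => simp
  | succ m ih =>
    have h2 : (1 - a) ^ (m + 1) ≤ (1 - m * a + (m : ℝ) ^ 2 * a ^ 2 / 2) * (1 - a) := by
      rw [pow_succ]; exact mul_le_mul_of_nonneg_right ih (by linarith)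
    have h3 : 0 ≤ (m : ℝ) ^ 2 * a ^ 3 := by positivity
    have h4 : 0 ≤ a ^ 2 := by positivity
    push_cast
    nlinarith

theorem bonf3 {a : ℝ} (_h0 : 0 ≤ a) (h1 : a ≤ 1) (m : ℕ) :
    1 - m * a + (m : ℝ) * (m - 1) / 2 * a ^ 2 - (m : ℝ) * (m - 1) * (m - 2) / 6 * a ^ 3
      ≤ (1 - a) ^ m := by
  induction m with
  | zero => simp
  | succ m ih =>
    have h2 : (1 - m * a + (m : ℝ) * (m - 1) / 2 * a ^ 2 -
        (m : ℝ) * (m - 1) * (m - 2) / 6 * a ^ 3) * (1 - a) ≤ (1 - a) ^ (m + 1) := by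
      rw [pow_succ]; exact mul_le_mul_of_nonneg_right ih (by linarith)
    have h3 : 0 ≤ (m : ℝ) * (m - 1) * (m - 2) := by
      rcases m with _ | _ | m
      · simp
      · simp
      · push_cast
        have : (0 : ℝ) ≤ m := Nat.cast_nonneg m
        have e : ((m : ℝ) + 1 + 1) * (m + 1 + 1 - 1) * (m + 1 + 1 - 2) = (m + 2) * (m + 1) * m := by
          ring
        rw [e]; positivity
    have h4 : 0 ≤ (m : ℝ) * (m - 1) * (m - 2) / 6 * a ^ 4 := by positivity
    push_cast
    nlinarith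

theorem tangent {y b : ℝ} (hy : 0 ≤ y) (hb : 0 ≤ b) (n : ℕ) :
    b ^ (n + 1) + (n + 1) * b ^ n * (y - b) ≤ y ^ (n + 1) := by
  induction n with
  | zero => simp
  | succ n ih =>
    have h1 : (b ^ (n + 1) + (n + 1) * b ^ n * (y - b)) * y ≤ y ^ (n + 1 + 1) := by
      rw [pow_succ y (n + 1)]; exact mul_le_mul_of_nonneg_right ih hy
    have h2 : 0 ≤ ((n : ℝ) + 1) * b ^ n * (y - b) ^ 2 := by positivity
    have e : (b ^ (n + 1) + (n + 1) * b ^ n * (y - b)) * y =
        b ^ (n + 1 + 1) + ((n + 1 : ℕ) + 1) * b ^ (n + 1) * (y - b) +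
          ((n : ℝ) + 1) * b ^ n * (y - b) ^ 2 := by
      push_cast; ring
    linarith

/-- the expected number of distinct values among `m` draws from at most `h` values -/
theorem sum_distinct_le {β : Type} (S : Finset β) (π : β → ℝ) (h m : ℕ) (hS : S.card ≤ h)
    (hπ : ∀ X ∈ S, π X ≤ 1) (hsum : ∑ X ∈ S, π X ≤ 1) (hm : 100 ≤ m) (h1 : 5 * m ≤ h)
    (h2 : h ≤ 5 * m + 4) : ∑ X ∈ S, (1 - (1 - π X) ^ m) ≤ 92 / 100 * m := by
  obtain ⟨n, rfl⟩ : ∃ n, m = n + 1 := ⟨m - 1, by omega⟩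
  have hm' : (100 : ℝ) ≤ (n + 1 : ℕ) := by exact_mod_cast hm
  have h1' : (5 : ℝ) * (n + 1 : ℕ) ≤ h := by exact_mod_cast h1
  have h2' : (h : ℝ) ≤ 5 * (n + 1 : ℕ) + 4 := by exact_mod_cast h2
  have hS' : (S.card : ℝ) ≤ h := by exact_mod_cast hS
  have hh : (0 : ℝ) < h := by linarith
  set a : ℝ := 1 / h with ha
  have ha0 : 0 ≤ a := by positivity
  have ha1 : a ≤ 1 := by rw [ha, div_le_one hh]; linarith
  have hah : (h : ℝ) * a = 1 := by rw [ha]; field_simp
  set b : ℝ := 1 - a with hb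
  have hb0 : 0 ≤ b := by linarith
  set s : ℝ := ((n : ℝ) + 1) * b ^ n with hs
  have hs0 : 0 ≤ s := by positivity
  have t1 : ∀ X ∈ S, 1 - (1 - π X) ^ (n + 1) ≤ (1 - b ^ (n + 1) - s * a) + s * π X := by
    intro X hX
    have := tangent (y := 1 - π X) (b := b) (by linarith [hπ X hX]) hb0 n
    rw [← hs] at this
    have e : 1 - π X - b = a - π X := by rw [hb]; ring
    rw [e] at this
    linarith
  have t2 : 0 ≤ 1 - b ^ (n + 1) - s * a := by
    have := tangent (y := 1) (b := b) zero_le_one hb0 n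
    rw [← hs, one_pow] at this
    have e : 1 - b = a := by rw [hb]; ring
    rw [e] at this
    linarith
  have t3 : ∑ X ∈ S, (1 - (1 - π X) ^ (n + 1)) ≤ h * (1 - b ^ (n + 1)) := by
    calc ∑ X ∈ S, (1 - (1 - π X) ^ (n + 1))
        ≤ ∑ X ∈ S, ((1 - b ^ (n + 1) - s * a) + s * π X) := sum_le_sum t1
      _ = S.card * (1 - b ^ (n + 1) - s * a) + s * ∑ X ∈ S, π X := by
          rw [sum_add_distrib, sum_const, nsmul_eq_mul, mul_sum]
      _ ≤ h * (1 - b ^ (n + 1) - s * a) + s * 1 :=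
          add_le_add (mul_le_mul_of_nonneg_right hS' t2) (mul_le_mul_of_nonneg_left hsum hs0)
      _ = h * (1 - b ^ (n + 1)) + s * (1 - h * a) := by ring
      _ = h * (1 - b ^ (n + 1)) := by rw [hah]; ring
  refine t3.trans ?_
  have t4 := bonf3 ha0 ha1 (n + 1)
  rw [← hb] at t4
  set M : ℝ := ((n + 1 : ℕ) : ℝ) with hM
  have t5 : (h : ℝ) * (1 - b ^ (n + 1)) ≤
      h * (M * a - M * (M - 1) / 2 * a ^ 2 + M * (M - 1) * (M - 2) / 6 * a ^ 3) :=
    mul_le_mul_of_nonneg_left (by linarith) hh.le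
  refine t5.trans ?_
  have e : (h : ℝ) * (M * a - M * (M - 1) / 2 * a ^ 2 + M * (M - 1) * (M - 2) / 6 * a ^ 3) =
      M * (1 - (M - 1) * a / 2 + ((M - 1) * a) * ((M - 2) * a) / 6) := by
    have : (h : ℝ) * (M * a - M * (M - 1) / 2 * a ^ 2 + M * (M - 1) * (M - 2) / 6 * a ^ 3) =
      (h * a) * (M * (1 - (M - 1) * a / 2 + ((M - 1) * a) * ((M - 2) * a) / 6)) := by ring
    rw [this, hah, one_mul]
  rw [e]
  have u1 : 19 / 100 ≤ (M - 1) * a := by
    rw [ha, mul_one_div, le_div_iff₀ hh]; linarith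
  have u2 : (M - 1) * a ≤ 1 / 5 := by
    rw [ha, mul_one_div, div_le_iff₀ hh]; linarith
  have u3 : (M - 2) * a ≤ 1 / 5 := by
    rw [ha, mul_one_div, div_le_iff₀ hh]; linarith
  have u4 : 0 ≤ (M - 2) * a := mul_nonneg (by linarith) ha0
  have u5 : ((M - 1) * a) * ((M - 2) * a) ≤ 1 / 5 * (1 / 5) :=
    mul_le_mul u2 u3 u4 (by norm_num)
  have u6 : 1 - (M - 1) * a / 2 + ((M - 1) * a) * ((M - 2) * a) / 6 ≤ 92 / 100 := by linarith
  rw [mul_comm]
  exact mul_le_mul_of_nonneg_right u6 (by linarith)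

theorem transversal_ge (q h m : ℕ) (hq : 500 * h ≤ q) (h1 : 5 * m ≤ h) (hm : 1 ≤ m) :
    99 / 100 * (m : ℝ) ≤ q * (1 - (1 - 1 / ((q : ℝ) + h)) ^ m) := by
  have hq' : (500 : ℝ) * h ≤ q := by exact_mod_cast hq
  have h1' : (5 : ℝ) * m ≤ h := by exact_mod_cast h1
  have hm' : (1 : ℝ) ≤ m := by exact_mod_cast hm
  have hN : (0 : ℝ) < q + h := by linarith
  set a : ℝ := 1 / ((q : ℝ) + h) with ha
  have ha0 : 0 ≤ a := by positivity
  have ha1 : a ≤ 1 := by rw [ha, div_le_one hN]; linarith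
  have t1 := bonf2 ha0 ha1 m
  have u1 : 500 / 501 ≤ q * a := by
    rw [ha, mul_one_div, le_div_iff₀ hN]; linarith
  have u2 : m * a ≤ 1 / 2500 := by
    rw [ha, mul_one_div, div_le_iff₀ hN]; linarith
  have t2 : (q : ℝ) * (m * a - (m : ℝ) ^ 2 * a ^ 2 / 2) ≤ q * (1 - (1 - a) ^ m) :=
    mul_le_mul_of_nonneg_left (by linarith) (by linarith)
  refine le_trans ?_ t2
  have e : (q : ℝ) * (m * a - (m : ℝ) ^ 2 * a ^ 2 / 2) = m * ((q * a) * (1 - m * a / 2)) := by ring
  rw [e, mul_comm]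
  refine mul_le_mul_of_nonneg_left ?_ (by linarith)
  have : (500 / 501 : ℝ) * (1 - 1 / 5000) ≤ (q * a) * (1 - m * a / 2) :=
    mul_le_mul u1 (by linarith) (by norm_num) (by linarith)
  linarith

theorem union_small (q h m : ℕ) (hq : q ≤ h ^ 2 + 1) (h2 : h ≤ 5 * m + 4) (hm : 10 ^ 27 ≤ m) :
    (((q + 1) * q : ℕ) : ℝ) * (2 * Real.exp (-(((m : ℝ) / 50) ^ 2) / (2 * m * 1 ^ 2))) < 1 := by
  have hm' : (10 : ℝ) ^ 27 ≤ m := by exact_mod_cast hm
  have hm0 : (0 : ℝ) < m := by linarith [show (0 : ℝ) < 10 ^ 27 by positivity]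
  have e : -(((m : ℝ) / 50) ^ 2) / (2 * m * 1 ^ 2) = -((m : ℝ) / 5000) := by
    field_simp; ring
  rw [e, Real.exp_neg]
  have h3 : (q + 1) * q ≤ 10 ^ 4 * m ^ 4 := by
    have a1 : h ≤ 6 * m := by omega
    have a2 : h ^ 2 ≤ (6 * m) ^ 2 := Nat.pow_le_pow_left a1 2
    have a3 : 1 ≤ m := by omega
    have a4 : 1 ≤ m ^ 2 := Nat.one_le_pow _ _ a3
    have a5 : q + 1 ≤ 38 * m ^ 2 := by nlinarith
    calc (q + 1) * q ≤ (38 * m ^ 2) * (38 * m ^ 2) := Nat.mul_le_mul a5 (by omega)
      _ ≤ 10 ^ 4 * m ^ 4 := by nlinarith [Nat.zero_le (m ^ 4)]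
  have h3' : (((q + 1) * q : ℕ) : ℝ) ≤ 10 ^ 4 * (m : ℝ) ^ 4 := by exact_mod_cast h3
  have h4 := Real.pow_div_factorial_le_exp ((m : ℝ) / 5000) (by positivity) 5
  have h5 : ((m : ℝ) / 5000) ^ 5 / (Nat.factorial 5) = (m : ℝ) ^ 4 * (m / (5000 ^ 5 * 120)) := by
    norm_num [Nat.factorial]; ring
  rw [h5] at h4
  have h6 : (3 : ℝ) * 10 ^ 4 ≤ m / (5000 ^ 5 * 120) := by
    rw [le_div_iff₀ (by positivity)]
    refine le_trans (by norm_num) hm'
  have h7 : (m : ℝ) ^ 4 * (3 * 10 ^ 4) ≤ Real.exp ((m : ℝ) / 5000) :=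
    le_trans (mul_le_mul_of_nonneg_left h6 (by positivity)) h4
  have h8 : 0 < Real.exp ((m : ℝ) / 5000) := Real.exp_pos _
  have h9 : (0 : ℝ) < (m : ℝ) ^ 4 := by positivity
  rw [← mul_assoc, ← div_eq_mul_inv, div_lt_one h8]
  nlinarith

/-! ### the statistic -/

variable {F : Type} [Field F] [Fintype F] [DecidableEq F]

/-- number of points of `x` on some other line of the sample -/
def hits {m : ℕ} (x : Line F) (f : Fin m → Line F) : ℕ :=
  ((pts x).filter fun X => ∃ i, f i ≠ x ∧ co (f i).1 X = (f i).2).card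

theorem hits_le_succ {m : ℕ} (x : Line F) (f g : Fin m → Line F) (i : Fin m)
    (h : ∀ j, j ≠ i → g j = f j) : hits x g ≤ hits x f + 1 := by
  unfold hits
  by_cases hi : g i = x
  · refine le_trans (card_le_card ?_) (Nat.le_succ _)
    intro X hX
    simp only [mem_filter] at hX ⊢
    obtain ⟨h1, j, h2, h3⟩ := hX
    have hj : j ≠ i := by rintro rfl; exact h2 hi
    exact ⟨h1, j, h j hj ▸ h2, h j hj ▸ h3⟩
  · have hsub : ((pts x).filter fun X => ∃ i, g i ≠ x ∧ co (g i).1 X = (g i).2) ⊆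
        ((pts x).filter fun X => ∃ i, f i ≠ x ∧ co (f i).1 X = (f i).2) ∪
          (pts x ∩ pts (g i)) := by
      intro X hX
      simp only [mem_filter, mem_union, mem_inter] at hX ⊢
      obtain ⟨h1, j, h2, h3⟩ := hX
      by_cases hj : j = i
      · subst hj; exact Or.inr ⟨h1, mem_pts.2 h3⟩
      · exact Or.inl ⟨h1, j, h j hj ▸ h2, h j hj ▸ h3⟩
    refine (card_le_card hsub).trans ((card_union_le _ _).trans ?_)
    exact Nat.add_le_add_left (card_inter_pts_le_one (Ne.symm hi)) _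

/-- number of lines of `W` other than `x` through `X` -/
def ell (W : Finset (Line F)) (x : Line F) (X : Pt F) : ℕ :=
  (W.filter fun y => y ≠ x ∧ co y.1 X = y.2).card

omit [Fintype F] in
theorem ell_le (W : Finset (Line F)) (x : Line F) (X : Pt F) : ell W x X ≤ W.card :=
  card_filter_le _ _

theorem sum_ell_le (W : Finset (Line F)) (x : Line F) : ∑ X ∈ pts x, ell W x X ≤ W.card := by
  unfold ell
  simp only [card_filter]
  rw [sum_comm, card_eq_sum_ones]
  refine sum_le_sum fun y _ => ?_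
  rw [← card_filter]
  by_cases hy : y = x
  · simp [hy]
  · refine le_trans (card_le_card ?_) (card_inter_pts_le_one (Ne.symm hy))
    intro X hX
    simp only [mem_filter, mem_inter] at hX ⊢
    exact ⟨hX.1, mem_pts.2 hX.2.2⟩

omit [Fintype F] in
theorem card_avoid (W : Finset (Line F)) (m : ℕ) (x : Line F) (X : Pt F) :
    ((univ.filter fun f : Fin m → W =>
      ∃ i, (f i : Line F) ≠ x ∧ co (f i : Line F).1 X = (f i : Line F).2).card : ℝ) =
      (W.card : ℝ) ^ m - ((W.card : ℝ) - ell W x X) ^ m := by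
  classical
  set p : W → Prop := fun y => (y : Line F) ≠ x ∧ co (y : Line F).1 X = (y : Line F).2 with hp
  have h1 : (univ.filter fun f : Fin m → W => ¬ ∃ i, p (f i)) =
      Fintype.piFinset fun _ => univ.filter fun y => ¬ p y := by
    ext f; simp [Fintype.mem_piFinset]
  have h2 := card_filter_add_card_filter_not (s := (univ : Finset (Fin m → W)))
    (fun f => ∃ i, p (f i))
  have h3 := card_filter_add_card_filter_not (s := (univ : Finset W)) p
  have h4 : (univ.filter p).card = ell W x X := by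
    unfold ell
    rw [← card_map (Function.Embedding.subtype _)]
    congr 1
    ext y
    simp only [mem_map, mem_filter, mem_univ, true_and, Function.Embedding.coe_subtype, hp]
    constructor
    · rintro ⟨z, hz, rfl⟩; exact ⟨z.2, hz⟩
    · rintro ⟨h, hz⟩; exact ⟨⟨y, h⟩, hz, rfl⟩
  rw [h1, Fintype.card_piFinset_const, card_univ, Fintype.card_fun, Fintype.card_coe,
    Fintype.card_fin] at h2
  rw [h4, card_univ, Fintype.card_coe] at h3
  have h3' : ((univ.filter fun y => ¬ p y).card : ℝ) = (W.card : ℝ) - ell W x X := by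
    rw [← h3]; push_cast; ring
  rw [← h3', eq_sub_iff_add_eq]
  exact_mod_cast h2

theorem avg_hits (W : Finset (Line F)) (hW : 0 < W.card) (m : ℕ) (x : Line F) :
    (∑ f : Fin m → W, (hits x (fun i => (f i : Line F)) : ℝ)) / Fintype.card (Fin m → W) =
      ∑ X ∈ pts x, (1 - (1 - (ell W x X : ℝ) / W.card) ^ m) := by
  have hN : (0 : ℝ) < W.card := by exact_mod_cast hW
  have h1 : (∑ f : Fin m → W, (hits x (fun i => (f i : Line F)) : ℝ)) =
      ∑ X ∈ pts x, ((W.card : ℝ) ^ m - ((W.card : ℝ) - ell W x X) ^ m) := by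
    unfold hits
    simp only [card_filter]
    push_cast
    rw [sum_comm]
    refine sum_congr rfl fun X _ => ?_
    rw [← card_avoid, card_filter]
    push_cast
    rfl
  rw [h1, Fintype.card_fun, Fintype.card_coe, Fintype.card_fin, sum_div]
  refine sum_congr rfl fun X _ => ?_
  push_cast
  have : (1 - (ell W x X : ℝ) / W.card) = ((W.card : ℝ) - ell W x X) / W.card := by field_simp
  rw [this, div_pow]
  field_simp

/-- the set of lines decoded from a sample -/
noncomputable def decode {m : ℕ} (f : Fin m → Line F) : Finset (Line F) := by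
  classical exact univ.filter fun x => (hits x f : ℝ) ≤ 95 / 100 * m

theorem mem_decode {m : ℕ} {f : Fin m → Line F} {x : Line F} :
    x ∈ decode f ↔ (hits x f : ℝ) ≤ 95 / 100 * m := by
  simp [decode]

theorem exists_decode (W : Finset (Line F)) (h m : ℕ) (hc : W.card = Fintype.card F + h)
    (hq : Fintype.card F ≤ h ^ 2 + 1) (hq' : 500 * h ≤ Fintype.card F) (hu : unc W = ∅)
    (hW : ∀ x ∈ W, ((pts x).filter fun X => ∃ y ∈ W, y ≠ x ∧ co y.1 X = y.2).card ≤ h)
    (h1 : 5 * m ≤ h) (h2 : h ≤ 5 * m + 4) (hm : 10 ^ 27 ≤ m) :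
    ∃ f : Fin m → Line F, decode f = W := by
  have hW0 : 0 < W.card := by have := two_le_card (F := F); omega
  have hN : (0 : ℝ) < W.card := by exact_mod_cast hW0
  have : Nonempty W := (card_pos.1 hW0).to_subtype
  set H : Line F → (Fin m → W) → ℝ := fun x f => (hits x (fun i => (f i : Line F)) : ℝ) with hH
  set A : Line F → ℝ := fun x => (∑ f, H x f) / Fintype.card (Fin m → W) with hA
  have hm0 : (0 : ℝ) < m := by
    have : 0 < m := lt_of_lt_of_le (by norm_num) hm
    exact_mod_cast this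
  have hdev : ∀ x, (cnt (fun f => (m : ℝ) / 50 ≤ |H x f - A x|) : ℝ) ≤
      2 * Real.exp (-(((m : ℝ) / 50) ^ 2) / (2 * m * 1 ^ 2)) * Fintype.card (Fin m → W) := by
    intro x
    have := mcdiarmid (H x) 1 one_pos (by
      intro f i a
      have a1 := hits_le_succ x (fun j => (f j : Line F))
        (fun j => (Function.update f i a j : Line F)) i
        (fun j hj => by rw [Function.update_of_ne hj])
      have a2 := hits_le_succ x (fun j => (Function.update f i a j : Line F))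
        (fun j => (f j : Line F)) i (fun j hj => by rw [Function.update_of_ne hj])
      have a1' : H x (Function.update f i a) ≤ H x f + 1 := by
        simp only [hH]; exact_mod_cast a1
      have a2' : H x f ≤ H x (Function.update f i a) + 1 := by
        simp only [hH]; exact_mod_cast a2
      rw [abs_le]; constructor <;> linarith) ((m : ℝ) / 50) (by positivity)
    rwa [Fintype.card_fin] at this
  have hbad : cnt (fun f : Fin m → W => ∃ x ∈ (univ : Finset (Line F)),
      (m : ℝ) / 50 ≤ |H x f - A x|) < cnt (fun _ : Fin m → W => True) := by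
    have b1 := cnt_exists_le (univ : Finset (Line F))
      (fun x (f : Fin m → W) => (m : ℝ) / 50 ≤ |H x f - A x|)
    have b2 : cnt (fun _ : Fin m → W => True) = Fintype.card (Fin m → W) := by
      rw [cnt_eq]; simp
    have b3 : (0 : ℝ) < Fintype.card (Fin m → W) := by exact_mod_cast Fintype.card_pos
    have b4 := union_small (Fintype.card F) h m hq h2 hm
    have b5 : ((∑ x : Line F, cnt (fun f : Fin m → W => (m : ℝ) / 50 ≤ |H x f - A x|) : ℕ) : ℝ) ≤
        (((Fintype.card F + 1) * Fintype.card F : ℕ) : ℝ) *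
          (2 * Real.exp (-(((m : ℝ) / 50) ^ 2) / (2 * m * 1 ^ 2)) *
            Fintype.card (Fin m → W)) := by
      rw [← card_line, ← nsmul_eq_mul, ← card_univ, ← sum_const]
      push_cast
      exact sum_le_sum fun x _ => hdev x
    rw [b2]
    refine lt_of_le_of_lt b1 ?_
    have b6 : ((∑ x : Line F, cnt (fun f : Fin m → W => (m : ℝ) / 50 ≤ |H x f - A x|) : ℕ) : ℝ) <
        Fintype.card (Fin m → W) := by
      refine lt_of_le_of_lt b5 ?_
      rw [← mul_assoc]
      exact mul_lt_of_lt_one_left b3 b4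
    exact_mod_cast b6
  obtain ⟨f, -, hf⟩ := exists_of_cnt_lt hbad
  push Not at hf
  refine ⟨fun i => (f i : Line F), ?_⟩
  ext x
  rw [mem_decode]
  have hx := abs_lt.1 (hf x (mem_univ _))
  have hAx : A x = ∑ X ∈ pts x, (1 - (1 - (ell W x X : ℝ) / W.card) ^ m) := avg_hits W hW0 m x
  have hle : ∀ X, (ell W x X : ℝ) / W.card ≤ 1 := fun X => by
    rw [div_le_one hN]; exact_mod_cast ell_le W x X
  change H x f ≤ _ ↔ _
  constructor
  · intro hh
    by_contra hxW
    have c1 : ∀ X ∈ pts x, 1 - (1 - 1 / ((Fintype.card F : ℝ) + h)) ^ m ≤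
        1 - (1 - (ell W x X : ℝ) / W.card) ^ m := by
      intro X _
      have c2 : X ∉ unc W := by rw [hu]; simp
      rw [mem_unc] at c2
      push Not at c2
      obtain ⟨y, hy, hyX⟩ := c2
      have c3 : 1 ≤ ell W x X :=
        card_pos.2 ⟨y, mem_filter.2 ⟨hy, fun e => hxW (e ▸ hy), hyX⟩⟩
      have c4 : (1 : ℝ) ≤ ell W x X := by exact_mod_cast c3
      have c5 : ((Fintype.card F : ℝ) + h) = W.card := by rw [hc]; push_cast; ring
      rw [c5]
      have c6 : 1 / (W.card : ℝ) ≤ (ell W x X : ℝ) / W.card :=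
        div_le_div_of_nonneg_right c4 hN.le
      have := pow_le_pow_left₀ (by linarith [hle X] : 0 ≤ 1 - (ell W x X : ℝ) / W.card)
        (by linarith : 1 - (ell W x X : ℝ) / W.card ≤ 1 - 1 / (W.card : ℝ)) m
      linarith
    have c7 := sum_le_sum c1
    rw [sum_const, card_pts, nsmul_eq_mul, ← hAx] at c7
    have c8 := transversal_ge (Fintype.card F) h m hq' h1 (le_trans (by norm_num) hm)
    linarith [hx.1]
  · intro hxW
    set S := (pts x).filter fun X => ∃ y ∈ W, y ≠ x ∧ co y.1 X = y.2 with hS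
    have c1 : A x = ∑ X ∈ S, (1 - (1 - (ell W x X : ℝ) / W.card) ^ m) := by
      rw [hAx]
      refine (sum_subset (filter_subset _ _) fun X hX hXS => ?_).symm
      have : ell W x X = 0 := by
        unfold ell
        rw [card_eq_zero, filter_eq_empty_iff]
        intro y hy hh
        exact hXS (mem_filter.2 ⟨hX, y, hy, hh⟩)
      simp [this]
    have c2 : ∑ X ∈ S, (ell W x X : ℝ) / W.card ≤ 1 := by
      rw [← sum_div, div_le_one hN]
      have : ∑ X ∈ S, ell W x X ≤ W.card :=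
        le_trans (sum_le_sum_of_subset (filter_subset _ _)) (sum_ell_le W x)
      exact_mod_cast this
    have c3 := sum_distinct_le S (fun X => (ell W x X : ℝ) / W.card) h m (hW x hxW)
      (fun X _ => hle X) c2 (le_trans (by norm_num) hm) h1 h2
    linarith [hx.2]

end Crest.Agent.R34.RegimeC
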