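import Crest.Agent.R34.Basic

/-! # Row 34: second moments of random colourings and double counting for covers -/

set_option autoImplicit false

namespace Crest.Agent.R34.Split

open Finset Crest.Agent.R34

section moments
variable {V J : Type} [Fintype V] [DecidableEq V] [Fintype J]

/-- The monomial attached to a set of variables. -/
noncomputable def mono (u : J → ℝ) (H : Finset V) (g : V → J) : ℝ := ∏ v ∈ H, u (g v)

omit [Fintype J] in
theorem mono_eq (u : J → ℝ) (H : Finset V) (g : V → J) :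
    mono u H g = ∏ v, if v ∈ H then u (g v) else 1 := by
  unfold mono
  rw [← prod_filter, filter_mem_eq_inter, univ_inter]

omit [Fintype V] [DecidableEq V] [Fintype J] in
theorem abs_mono_le (u : J → ℝ) (hu : ∀ j, |u j| ≤ 1) (H : Finset V) (g : V → J) :
    |mono u H g| ≤ 1 := by
  unfold mono
  rw [abs_prod]
  exact prod_le_one (fun _ _ => abs_nonneg _) fun _ _ => hu _

theorem sum_mono_mul (u : J → ℝ) (hu0 : ∑ j, u j = 0) {H H' : Finset V} (h : H ≠ H') :
    ∑ g : V → J, mono u H g * mono u H' g = 0 := by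
  simp only [mono_eq, ← prod_mul_distrib]
  rw [← Fintype.prod_sum (fun v j => (if v ∈ H then u j else 1) * if v ∈ H' then u j else 1)]
  obtain ⟨v, hv⟩ : ∃ v, ¬ (v ∈ H ↔ v ∈ H') := by
    by_contra hc
    push Not at hc
    exact h (Finset.ext hc)
  refine prod_eq_zero (mem_univ v) ?_
  by_cases h1 : v ∈ H <;> by_cases h2 : v ∈ H' <;> simp_all

theorem sum_mono (u : J → ℝ) (H : Finset V) (hJ : (Fintype.card J : ℝ) ≠ 0) :
    ∑ g : V → J, mono u H g =
      Fintype.card (V → J) * ((∑ j, u j) / Fintype.card J) ^ H.card := by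
  simp only [mono_eq]
  rw [← Fintype.prod_sum (fun v j => if v ∈ H then u j else 1)]
  have : ∀ v : V, (∑ j : J, if v ∈ H then u j else 1) =
      (Fintype.card J : ℝ) * if v ∈ H then (∑ j, u j) / Fintype.card J else 1 := by
    intro v
    split_ifs
    · field_simp
    · simp
  simp only [this]
  rw [prod_mul_distrib, ← prod_filter, filter_mem_eq_inter, univ_inter, prod_const, prod_const,
    card_univ]
  simp

/-- Second moment of a sum of monomials. -/
theorem second_moment {ι : Type} [DecidableEq ι] (u : J → ℝ) (hu0 : ∑ j, u j = 0)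
    (hu : ∀ j, |u j| ≤ 1) (A : Finset ι) (H : ι → Finset V) :
    ∑ g : V → J, (∑ X ∈ A, mono u (H X) g) ^ 2 ≤
      ((A ×ˢ A).filter fun p => H p.1 = H p.2).card * Fintype.card (V → J) := by
  have h1 : ∀ g : V → J, (∑ X ∈ A, mono u (H X) g) ^ 2 =
      ∑ p ∈ A ×ˢ A, mono u (H p.1) g * mono u (H p.2) g := by
    intro g; rw [sq, sum_mul_sum, sum_product]
  simp only [h1]
  rw [sum_comm, card_filter]
  push_cast
  rw [sum_mul]
  refine sum_le_sum fun p _ => ?_
  split_ifs with h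
  · calc ∑ g : V → J, mono u (H p.1) g * mono u (H p.2) g ≤ ∑ _g : V → J, (1 : ℝ) := by
          refine sum_le_sum fun g _ => le_trans (le_abs_self _) ?_
          rw [abs_mul]
          exact mul_le_one₀ (abs_mono_le u hu _ g) (abs_nonneg _) (abs_mono_le u hu _ g)
      _ = _ := by simp
  · rw [sum_mono_mul u hu0 h]; simp

/-- Chebyshev's inequality for counting. -/
theorem cheb {Ω : Type} [Fintype Ω] (Z : Ω → ℝ) (t b : ℝ) (ht : 0 < t) (h : ∑ g, Z g ^ 2 ≤ b) :
    (cnt (fun g => t ≤ |Z g|) : ℝ) ≤ b / t ^ 2 := by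
  rw [le_div_iff₀ (by positivity)]
  refine le_trans ?_ (le_trans (cnt_mul_le_sum (fun g => Z g ^ 2) (fun g => sq_nonneg _) (t ^ 2)) h)
  refine mul_le_mul_of_nonneg_right ?_ (by positivity)
  exact_mod_cast cnt_mono fun g hg => by
    rw [← sq_abs (Z g)]; exact pow_le_pow_left₀ ht.le hg 2

end moments

variable {F : Type} [Field F] [Fintype F] [DecidableEq F] {C : ℕ}

/-- The variables whose line contains `X`. -/
def hit (ω : Conf F C) (X : Pt F) : Finset (Var F C) := univ.filter fun v => ω v = co v.1 X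

theorem mem_hit {ω : Conf F C} {X : Pt F} {v : Var F C} : v ∈ hit ω X ↔ ω v = co v.1 X := by
  simp [hit]

theorem hit_eq_empty {ω : Conf F C} {X : Pt F} : hit ω X = ∅ ↔ X ∈ unc (KK ω) := by
  rw [mem_unc_KK, eq_empty_iff_forall_notMem]
  simp only [mem_hit]

/-- The number of lines of `B` through `X`. -/
def nB (B : Finset (Line F)) (X : Pt F) : ℕ := (B.filter fun y => co y.1 X = y.2).card

theorem sum_card_inter (B : Finset (Line F)) (S : Finset (Pt F)) :
    ∑ x ∈ B, (S ∩ pts x).card = ∑ X ∈ S, nB B X := by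
  unfold nB
  have : ∀ x : Line F, S ∩ pts x = S.filter fun X => co x.1 X = x.2 := by
    intro x; ext X; simp
  simp only [this, card_filter]
  exact sum_comm

theorem nB_pos {B : Finset (Line F)} {X : Pt F} (h : X ∉ unc B) : 1 ≤ nB B X := by
  rw [mem_unc] at h
  push Not at h
  obtain ⟨x, hx, hX⟩ := h
  exact card_pos.2 ⟨x, mem_filter.2 ⟨hx, hX⟩⟩

theorem nB_eq_zero {B : Finset (Line F)} {X : Pt F} (h : X ∈ unc B) : nB B X = 0 := by
  rw [mem_unc] at h
  unfold nB
  rw [card_eq_zero, filter_eq_empty_iff]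
  exact fun x hx => h x hx

omit [Fintype F] in
theorem nB_mono {B B' : Finset (Line F)} (h : B' ⊆ B) (X : Pt F) : nB B' X ≤ nB B X :=
  card_le_card (filter_subset_filter _ h)

theorem card_pts_sdiff_le {B' : Finset (Line F)} {x : Line F} (hx : x ∉ B') :
    (pts x \ unc B').card ≤ B'.card := by
  have : pts x \ unc B' ⊆ B'.biUnion fun y => pts x ∩ pts y := by
    intro X hX
    rw [mem_sdiff, mem_unc] at hX
    obtain ⟨h1, h2⟩ := hX
    push Not at h2
    obtain ⟨y, hy, hX⟩ := h2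
    exact mem_biUnion.2 ⟨y, hy, mem_inter.2 ⟨h1, mem_pts.2 hX⟩⟩
  refine (card_le_card this).trans (card_biUnion_le.trans ?_)
  calc ∑ y ∈ B', (pts x ∩ pts y).card ≤ ∑ _y ∈ B', 1 :=
        sum_le_sum fun y hy => card_inter_pts_le_one (fun h => hx (h ▸ hy))
    _ = B'.card := by simp

theorem unc_KK_inter_pts_of_mem {ω : Conf F C} {x : Line F} (hx : x ∈ KK ω) :
    unc (KK ω) ∩ pts x = ∅ := by
  rw [eq_empty_iff_forall_notMem]
  intro X hX
  rw [mem_inter, mem_unc, mem_pts] at hX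
  exact hX.1 x hx hX.2

/-- Pairs on a line outside the configuration. -/
theorem pairs_line {ω : Conf F C} {x : Line F} (hx : x ∉ KK ω) {A : Finset (Pt F)}
    (hA : A ⊆ pts x) :
    (((A \ unc (KK ω)) ×ˢ (A \ unc (KK ω))).filter fun p => hit ω p.1 = hit ω p.2).card ≤
      A.card := by
  refine le_trans (card_le_card (t := A.image fun X => (X, X)) ?_) card_image_le
  rintro ⟨X, Y⟩ hp
  simp only [mem_filter, mem_product, mem_sdiff] at hp
  obtain ⟨⟨⟨h1, h2⟩, h3, -⟩, h5⟩ := hp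
  obtain ⟨v, hv⟩ := nonempty_iff_ne_empty.2 (fun h => h2 (hit_eq_empty.1 h))
  have hv' : v ∈ hit ω Y := h5 ▸ hv
  rw [mem_hit] at hv hv'
  have hne : x ≠ (v.1, ω v) := fun h => hx (h ▸ mem_KK.2 ⟨v.2, rfl⟩)
  have : X = Y := eq_of_on_of_ne hne (mem_pts.1 (hA h1)) hv.symm (mem_pts.1 (hA h3)) hv'.symm
  subst this
  exact mem_image.2 ⟨X, h1, rfl⟩

/-- Pairs in the set covered by `B'`. -/
theorem pairs_cov {ω : Conf F C} (hinj : Inj ω) (B' : Finset (Line F)) :
    ((((unc B')ᶜ \ unc (KK ω)) ×ˢ ((unc B')ᶜ \ unc (KK ω))).filter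
      fun p => hit ω p.1 = hit ω p.2).card ≤
      Fintype.card (Var F C) * B'.card ^ 2 + (B' ∩ KK ω).card * Fintype.card F ^ 2 := by
  set A := (unc B')ᶜ with hA
  have h1 : (((A \ unc (KK ω)) ×ˢ (A \ unc (KK ω))).filter fun p => hit ω p.1 = hit ω p.2) ⊆
      univ.biUnion fun v : Var F C =>
        (pts (v.1, ω v) \ unc B') ×ˢ (pts (v.1, ω v) \ unc B') := by
    rintro ⟨X, Y⟩ hp
    simp only [mem_filter, mem_product, mem_sdiff, hA, mem_compl] at hp
    obtain ⟨⟨⟨h1, h2⟩, h3, -⟩, h5⟩ := hp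
    obtain ⟨v, hv⟩ := nonempty_iff_ne_empty.2 (fun h => h2 (hit_eq_empty.1 h))
    have hv' : v ∈ hit ω Y := h5 ▸ hv
    rw [mem_hit] at hv hv'
    refine mem_biUnion.2 ⟨v, mem_univ _, ?_⟩
    simp only [mem_product, mem_sdiff, mem_pts]
    exact ⟨⟨hv.symm, h1⟩, hv'.symm, h3⟩
  refine (card_le_card h1).trans (card_biUnion_le.trans ?_)
  have h2 : ∀ v : Var F C, ((pts (v.1, ω v) \ unc B') ×ˢ (pts (v.1, ω v) \ unc B')).card ≤
      B'.card ^ 2 + if (v.1, ω v) ∈ B' then Fintype.card F ^ 2 else 0 := by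
    intro v
    rw [card_product, ← sq]
    split_ifs with h
    · have : (pts (v.1, ω v) \ unc B').card ≤ Fintype.card F := by
        rw [← card_pts (v.1, ω v)]; exact card_le_card sdiff_subset
      exact le_add_left (Nat.pow_le_pow_left this 2)
    · exact Nat.pow_le_pow_left (card_pts_sdiff_le h) 2
  refine (sum_le_sum fun v _ => h2 v).trans ?_
  rw [sum_add_distrib, sum_const, card_univ, smul_eq_mul, ← sum_filter, sum_const, smul_eq_mul]
  refine Nat.add_le_add_left (Nat.mul_le_mul_right _ ?_) _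
  refine card_le_card_of_injOn (fun v => (v.1, ω v)) ?_ ?_
  · intro v hv
    simp only [coe_filter, mem_univ, true_and, Set.mem_ofPred_eq] at hv
    exact mem_coe.2 (mem_inter.2 ⟨hv, mem_KK.2 ⟨v.2, rfl⟩⟩)
  · rintro ⟨d, i⟩ _ ⟨e, j⟩ _ h
    simp only [Prod.mk.injEq] at h
    obtain ⟨rfl, h⟩ := h
    rw [hinj d i j h]

/-- Lower bound for the number of points missed by the configuration. -/
theorem card_unc_KK_ge (ω : Conf F C) (b : ℝ) (hb0 : 0 ≤ b) (hb : ∀ x, b ≤ (dS ω x).card) :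
    ((Fintype.card F : ℝ) - C) * b ≤ (unc (KK ω)).card := by
  have h1 : ∑ c : F, ((unc (KK ω) ∩ pts (none, c)).card : ℝ) = (unc (KK ω)).card := by
    have h := sum_pts_dir (F := F) none fun X => if X ∈ unc (KK ω) then (1 : ℝ) else 0
    simp only [sum_boole, filter_mem_eq_inter, univ_inter] at h
    simp only [inter_comm (unc (KK ω))]
    exact h
  set Z : Finset F := univ.image fun i : Fin C => ω (none, i) with hZ
  have h2 : (Z.card : ℝ) ≤ C := by
    have : Z.card ≤ C := card_image_le.trans (by simp)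
    exact_mod_cast this
  have h3 : ((Zᶜ.card : ℕ) : ℝ) = Fintype.card F - Z.card := by
    rw [card_compl, Nat.cast_sub (card_le_univ _)]
  rw [← h1]
  calc ((Fintype.card F : ℝ) - C) * b ≤ (Zᶜ.card : ℝ) * b := by rw [h3]; nlinarith
    _ = ∑ _c ∈ Zᶜ, b := by rw [sum_const, nsmul_eq_mul]
    _ ≤ ∑ c ∈ Zᶜ, ((unc (KK ω) ∩ pts (none, c)).card : ℝ) := by
        refine sum_le_sum fun c hc => ?_
        rw [unc_inter_pts]
        · exact hb _
        · rw [mem_KK]
          rintro ⟨i, hi⟩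
          exact (mem_compl.1 hc) (mem_image.2 ⟨i, mem_univ _, hi⟩)
    _ ≤ _ := sum_le_sum_of_subset_of_nonneg (subset_univ _) fun _ _ _ => by positivity

theorem sum_unc_inter_le (ω : Conf F C) (B : Finset (Line F)) (b : ℝ)
    (hb : ∀ x, ((dS ω x).card : ℝ) ≤ b) :
    ∑ x ∈ B, ((unc (KK ω) ∩ pts x).card : ℝ) ≤ ((B.card : ℝ) - (B ∩ KK ω).card) * b := by
  rw [← sum_sdiff (inter_subset_left (s₁ := B) (s₂ := KK ω))]
  have h1 : ∑ x ∈ B ∩ KK ω, ((unc (KK ω) ∩ pts x).card : ℝ) = 0 :=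
    sum_eq_zero fun x hx => by rw [unc_KK_inter_pts_of_mem (mem_inter.1 hx).2]; simp
  have h2 : (((B \ (B ∩ KK ω)).card : ℕ) : ℝ) = B.card - (B ∩ KK ω).card := by
    rw [card_sdiff_of_subset inter_subset_left, Nat.cast_sub (card_le_card inter_subset_left)]
  rw [h1, add_zero, ← h2, ← nsmul_eq_mul, ← sum_const]
  refine sum_le_sum fun x hx => ?_
  rw [unc_inter_pts]
  · exact hb x
  · intro h; exact (mem_sdiff.1 hx).2 (mem_inter.2 ⟨(mem_sdiff.1 hx).1, h⟩)

theorem sum_unc_inter_ge (ω : Conf F C) (B : Finset (Line F)) (b : ℝ)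
    (hb : ∀ x, b ≤ ((dS ω x).card : ℝ)) :
    ((B.card : ℝ) - (B ∩ KK ω).card) * b ≤ ∑ x ∈ B, ((unc (KK ω) ∩ pts x).card : ℝ) := by
  rw [← sum_sdiff (inter_subset_left (s₁ := B) (s₂ := KK ω))]
  have h1 : ∑ x ∈ B ∩ KK ω, ((unc (KK ω) ∩ pts x).card : ℝ) = 0 :=
    sum_eq_zero fun x hx => by rw [unc_KK_inter_pts_of_mem (mem_inter.1 hx).2]; simp
  have h2 : (((B \ (B ∩ KK ω)).card : ℕ) : ℝ) = B.card - (B ∩ KK ω).card := by
    rw [card_sdiff_of_subset inter_subset_left, Nat.cast_sub (card_le_card inter_subset_left)]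
  rw [h1, add_zero, ← h2, ← nsmul_eq_mul, ← sum_const]
  refine sum_le_sum fun x hx => ?_
  rw [unc_inter_pts]
  · exact hb x
  · intro h; exact (mem_sdiff.1 hx).2 (mem_inter.2 ⟨(mem_sdiff.1 hx).1, h⟩)

/-- Points of `S` on `x` that lie on at least two lines of `B`. -/
def sig (S : Finset (Pt F)) (B : Finset (Line F)) (x : Line F) : ℕ :=
  ((S.filter fun X => 2 ≤ nB B X) ∩ pts x).card

/-- The excess of the cover. -/
noncomputable def exc (S : Finset (Pt F)) (B : Finset (Line F)) : ℝ :=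
  ∑ x ∈ B, ((S ∩ pts x).card : ℝ) - S.card

theorem exc_eq (S : Finset (Pt F)) (B : Finset (Line F)) :
    exc S B = ∑ X ∈ S, ((nB B X : ℝ) - 1) := by
  unfold exc
  rw [sum_sub_distrib, ← Nat.cast_sum, sum_card_inter]
  simp

theorem exc_nonneg {S : Finset (Pt F)} {B : Finset (Line F)} (h : Disjoint (unc B) S) :
    0 ≤ exc S B := by
  rw [exc_eq]
  refine sum_nonneg fun X hX => ?_
  have : 1 ≤ nB B X := nB_pos (disjoint_right.1 h hX)
  have : (1 : ℝ) ≤ nB B X := by exact_mod_cast this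
  linarith

theorem sum_sig_le {S : Finset (Pt F)} {B : Finset (Line F)} (h : Disjoint (unc B) S) :
    ∑ x ∈ B, (sig S B x : ℝ) ≤ 2 * exc S B := by
  unfold sig
  rw [← Nat.cast_sum, sum_card_inter, exc_eq, mul_sum, sum_filter]
  push_cast
  refine sum_le_sum fun X hX => ?_
  have : 1 ≤ nB B X := nB_pos (disjoint_right.1 h hX)
  have h1 : (1 : ℝ) ≤ nB B X := by exact_mod_cast this
  split_ifs with h2
  · have : (2 : ℝ) ≤ nB B X := by exact_mod_cast h2
    linarith
  · linarith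

theorem card_cov_inter_ge {S : Finset (Pt F)} {B B' : Finset (Line F)} (h : Disjoint (unc B) S)
    (hB' : B' ⊆ B) :
    ∑ x ∈ B', ((S ∩ pts x).card : ℝ) - exc S B ≤ (((unc B')ᶜ ∩ S).card : ℝ) := by
  rw [← Nat.cast_sum, sum_card_inter, exc_eq, inter_comm, ← filter_mem_eq_inter, card_filter]
  push_cast
  rw [← sum_sub_distrib]
  refine sum_le_sum fun X hX => ?_
  have : 1 ≤ nB B X := nB_pos (disjoint_right.1 h hX)
  have h1 : (1 : ℝ) ≤ nB B X := by exact_mod_cast this
  have h2 : (nB B' X : ℝ) ≤ nB B X := by exact_mod_cast nB_mono hB' X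
  split_ifs with h3
  · linarith
  · rw [mem_compl, not_not] at h3
    rw [nB_eq_zero h3]; simp only [Nat.cast_zero]; linarith

theorem card_sdiff_inter_le_sig {S : Finset (Pt F)} {B B' : Finset (Line F)} (hB' : B' ⊆ B)
    {x : Line F} (hx : x ∈ B) (hx' : x ∉ B') : ((pts x \ unc B') ∩ S).card ≤ sig S B x := by
  refine card_le_card fun X hX => ?_
  simp only [mem_inter, mem_sdiff, mem_pts, mem_unc, mem_filter] at hX ⊢
  obtain ⟨⟨h1, h2⟩, h3⟩ := hX
  push Not at h2
  obtain ⟨y, hy, hy'⟩ := h2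
  refine ⟨⟨h3, ?_⟩, h1⟩
  exact one_lt_card.2 ⟨x, mem_filter.2 ⟨hx, h1⟩, y, mem_filter.2 ⟨hB' hy, hy'⟩,
    fun h => hx' (h ▸ hy)⟩

theorem sum_card_hit (ω : Conf F C) (T : Finset (Pt F)) :
    ∑ X ∈ T, (hit ω X).card = ∑ v : Var F C, (T ∩ pts (v.1, ω v)).card := by
  have : ∀ v : Var F C, T ∩ pts (v.1, ω v) = T.filter fun X => ω v = co v.1 X := by
    intro v; ext X; simp [eq_comm]
  simp only [this, hit, card_filter]
  exact sum_comm

end Crest.Agent.R34.Split
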