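import Crest.Agent.R34.Phi
import Crest.Agent.R34.SplitAux

/-! # Row 34: splitting the variables -/

set_option autoImplicit false

namespace Crest.Agent.R34

open Finset

namespace Split

/-- Colours. -/
abbrev Col (C : ℕ) := Option (Fin (4 * C - 1))

/-- The signed weight of a colour. -/
noncomputable def yy (C : ℕ) : Col C → ℝ
  | none => 1
  | some _ => -1 / (4 * (C : ℝ) - 1)

/-- The indicator of the distinguished colour. -/
noncomputable def ind (C : ℕ) : Col C → ℝ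
  | none => 1
  | some _ => 0

theorem card_Col {C : ℕ} (hC : 1 ≤ C) : (Fintype.card (Col C) : ℝ) = 4 * C := by
  have : Fintype.card (Col C) = 4 * C := by simp [Col]; omega
  rw [this]; push_cast; ring

theorem sum_yy {C : ℕ} (hC : 1 ≤ C) : ∑ j, yy C j = 0 := by
  have h1 : (1 : ℝ) ≤ C := by exact_mod_cast hC
  rw [Fintype.sum_option]
  simp only [yy, sum_const, card_univ, Fintype.card_fin, nsmul_eq_mul]
  rw [Nat.cast_sub (by omega)]
  push_cast
  have : (4 * (C : ℝ) - 1) ≠ 0 := by linarith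
  field_simp
  ring

theorem abs_yy_le {C : ℕ} (hC : 1 ≤ C) (j : Col C) : |yy C j| ≤ 1 := by
  have h1 : (1 : ℝ) ≤ C := by exact_mod_cast hC
  rcases j with _ | j
  · simp [yy]
  · simp only [yy]
    rw [abs_div, abs_neg, abs_one, abs_of_pos (by linarith), div_le_one (by linarith)]
    linarith

theorem sum_ind (C : ℕ) : ∑ j, ind C j = 1 := by
  rw [Fintype.sum_option]; simp [ind]

variable {F : Type} [Field F] [Fintype F] [DecidableEq F] {C : ℕ}

/-- The variables of the distinguished colour. -/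
def II (g : Var F C → Col C) : Finset (Var F C) := univ.filter fun v => g v = none

theorem wgt_eq (g : Var F C → Col C) (ω : Conf F C) (X : Pt F) :
    wgt (II g) ω X = mono (yy C) (hit ω X) g := by
  unfold wgt
  rw [mono_eq, ← prod_const, prod_filter]
  refine prod_congr rfl fun v _ => ?_
  simp only [II, mem_filter, mem_univ, true_and, mem_hit]
  by_cases h : ω v = co v.1 X
  · rcases hg : g v with _ | j <;> simp [h, yy]
  · simp [h]

theorem sum_wgt (g : Var F C → Col C) (ω : Conf F C) (A : Finset (Pt F)) :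
    ∑ X ∈ A, wgt (II g) ω X =
      (A ∩ unc (KK ω)).card + ∑ X ∈ A \ unc (KK ω), mono (yy C) (hit ω X) g := by
  simp only [wgt_eq]
  rw [← sum_inter_add_sum_sdiff A (unc (KK ω))]
  congr 1
  rw [card_eq_sum_ones]
  push_cast
  refine sum_congr rfl fun X hX => ?_
  rw [hit_eq_empty.2 (mem_inter.1 hX).2]; simp [mono]

theorem card_rest (g : Var F C → Col C) (ω : Conf F C) (T : Finset (Pt F)) :
    ((rest (II g) ω T).card : ℝ) = ∑ X ∈ T, mono (ind C) (hit ω X) g := by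
  unfold rest
  rw [card_filter]
  push_cast
  refine sum_congr rfl fun X _ => ?_
  unfold mono
  split_ifs with h
  · symm
    refine prod_eq_one fun v hv => ?_
    have : v ∈ II g := by
      by_contra hc
      exact h v hc (mem_hit.1 hv)
    rw [(mem_filter.1 this).2]; rfl
  · push Not at h
    obtain ⟨v, h1, h2⟩ := h
    symm
    refine prod_eq_zero (mem_hit.2 h2) ?_
    simp only [II, mem_filter, mem_univ, true_and] at h1
    rcases hg : g v with _ | j
    · exact absurd hg h1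
    · rfl

omit [Field F] in
theorem var_II (hC : 1 ≤ C) :
    ∑ g : Var F C → Col C, (((II g).card : ℝ) - Fintype.card (Var F C) / (4 * C)) ^ 2 ≤
      (Fintype.card (Var F C) : ℝ) * Fintype.card (Var F C → Col C) := by
  have h1 : (1 : ℝ) ≤ C := by exact_mod_cast hC
  have h2 : 1 / (4 * (C : ℝ)) ≤ 1 := by rw [div_le_one (by linarith)]; linarith
  have h3 : 0 ≤ 1 / (4 * (C : ℝ)) := by positivity
  have := second_moment (V := Var F C) (fun j => ind C j - 1 / (4 * C)) (by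
      rw [sum_sub_distrib, sum_ind, sum_const, card_univ, nsmul_eq_mul, card_Col hC]
      field_simp; ring)
    (by
      intro j
      rcases j with _ | j <;> simp only [ind] <;> rw [abs_le] <;> constructor <;> linarith)
    (univ : Finset (Var F C)) (fun v => {v})
  have h4 : ((univ ×ˢ univ).filter fun p : Var F C × Var F C =>
      ({p.1} : Finset (Var F C)) = {p.2}).card ≤ Fintype.card (Var F C) := by
    refine le_trans (card_le_card (t := univ.image fun v => (v, v)) ?_) card_image_le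
    rintro ⟨v, w⟩ hp
    simp only [mem_filter, singleton_inj] at hp
    exact mem_image.2 ⟨v, mem_univ _, by rw [← hp.2]⟩
  have h5 : ∀ g : Var F C → Col C, ((II g).card : ℝ) - Fintype.card (Var F C) / (4 * C) =
      ∑ v, mono (fun j => ind C j - 1 / (4 * C)) {v} g := by
    intro g
    simp only [mono, prod_singleton]
    rw [sum_sub_distrib, sum_const, card_univ, nsmul_eq_mul, II, card_filter]
    push_cast
    congr 1
    · refine sum_congr rfl fun v _ => ?_
      rcases g v with _ | j <;> simp [ind]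
    · ring
  simp only [h5]
  refine this.trans (mul_le_mul_of_nonneg_right ?_ (by positivity))
  exact_mod_cast h4

/-- Probability that a line is not in the container. -/
theorem cnt_notMem_Gam (hC : 1 ≤ C) {ω : Conf F C} (hinj : Inj ω) {B' : Finset (Line F)}
    {x : Line F} (hx : x ∉ KK ω) (hx' : x ∉ B') (hi : 0 < B'.card)
    (hA : 3 / 4 * (alpha F C * B'.card) * Fintype.card F ≤ ((unc B')ᶜ ∩ unc (KK ω)).card)
    (hxS : (((pts x \ unc B') ∩ unc (KK ω)).card : ℝ) ≤ alpha F C * B'.card / 8) :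
    (cnt (fun g : Var F C → Col C => x ∉ Gam (II g) ω B') : ℝ) ≤
      (B'.card / (alpha F C * B'.card / 8) ^ 2 +
        (Fintype.card (Var F C) * B'.card ^ 2 + (B' ∩ KK ω).card * Fintype.card F ^ 2) /
          (alpha F C * B'.card / 8 * Fintype.card F) ^ 2) * Fintype.card (Var F C → Col C) := by
  have hq : (0 : ℝ) < Fintype.card F := by
    have := two_le_card (F := F); positivity
  have ha := alpha_pos (F := F) C
  have hi' : (0 : ℝ) < B'.card := by exact_mod_cast hi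
  set t := alpha F C * B'.card / 8 with ht
  have ht0 : 0 < t := by positivity
  set Z1 : (Var F C → Col C) → ℝ := fun g =>
    ∑ X ∈ (pts x \ unc B') \ unc (KK ω), mono (yy C) (hit ω X) g with hZ1
  set Z2 : (Var F C → Col C) → ℝ := fun g =>
    ∑ X ∈ (unc B')ᶜ \ unc (KK ω), mono (yy C) (hit ω X) g with hZ2
  have h1 : cnt (fun g : Var F C → Col C => x ∉ Gam (II g) ω B') ≤
      cnt (fun g => t ≤ |Z1 g|) + cnt (fun g => t * Fintype.card F ≤ |Z2 g|) := by
    refine le_trans (cnt_mono fun g hg => ?_) (cnt_or_le _ _)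
    by_contra hc
    push Not at hc
    apply hg
    unfold Gam
    simp only [mem_filter, mem_univ, true_and]
    rw [sum_wgt, sum_wgt]
    obtain ⟨c1, c2⟩ := hc
    have d1 := (abs_lt.1 c1).2
    have d2 := (abs_lt.1 c2).1
    refine lt_of_lt_of_le ?_ (neg_le_abs _)
    have d3 : 5 * t ≤ ((((unc B')ᶜ ∩ unc (KK ω)).card : ℝ) + Z2 g) / Fintype.card F := by
      rw [le_div_iff₀ hq]
      have : 3 / 4 * (alpha F C * B'.card) = 6 * t := by rw [ht]; ring
      rw [this] at hA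
      linarith
    have d4 : alpha F C * B'.card / 4 = 2 * t := by rw [ht]; ring
    rw [d4]
    simp only [hZ1, hZ2] at d1 d3
    linarith
  have h2 := cheb Z1 t (B'.card * Fintype.card (Var F C → Col C)) ht0 (by
    refine (second_moment _ (sum_yy hC) (abs_yy_le hC) _ _).trans
      (mul_le_mul_of_nonneg_right ?_ (by positivity))
    exact_mod_cast (pairs_line hx sdiff_subset).trans (card_pts_sdiff_le hx'))
  have h3 := cheb Z2 (t * Fintype.card F)
    ((Fintype.card (Var F C) * B'.card ^ 2 + (B' ∩ KK ω).card * Fintype.card F ^ 2) *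
      Fintype.card (Var F C → Col C)) (by positivity) (by
    refine (second_moment _ (sum_yy hC) (abs_yy_le hC) _ _).trans
      (mul_le_mul_of_nonneg_right ?_ (by positivity))
    exact_mod_cast pairs_cov hinj B')
  have h4 : (cnt (fun g : Var F C → Col C => x ∉ Gam (II g) ω B') : ℝ) ≤
      cnt (fun g => t ≤ |Z1 g|) + cnt (fun g => t * Fintype.card F ≤ |Z2 g|) := by
    exact_mod_cast h1
  refine h4.trans ((add_le_add h2 h3).trans (le_of_eq ?_))
  ring

/-- Expected size of the uncovered part of `T`. -/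
theorem sum_rest_ge (hC : 1 ≤ C) (ω : Conf F C) (T : Finset (Pt F)) (ν : ℕ) (hν : 0 < ν)
    (h : 2 * ∑ X ∈ T, ((hit ω X).card : ℝ) ≤ ν * T.card) :
    (1 / (4 * (C : ℝ))) ^ ν / 2 * T.card * Fintype.card (Var F C → Col C) ≤
      ∑ g : Var F C → Col C, ((rest (II g) ω T).card : ℝ) := by
  have h1 : (1 : ℝ) ≤ C := by exact_mod_cast hC
  have h2 : 1 / (4 * (C : ℝ)) ≤ 1 := by rw [div_le_one (by linarith)]; linarith
  have h3 : 0 ≤ 1 / (4 * (C : ℝ)) := by positivity
  have hν' : (0 : ℝ) < ν := by exact_mod_cast hν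
  simp only [card_rest]
  rw [sum_comm]
  have h4 : ∀ X : Pt F, ∑ g : Var F C → Col C, mono (ind C) (hit ω X) g =
      Fintype.card (Var F C → Col C) * (1 / (4 * (C : ℝ))) ^ (hit ω X).card := by
    intro X
    rw [sum_mono _ _ (by rw [card_Col hC]; linarith), sum_ind, card_Col hC]
  simp only [h4]
  rw [← mul_sum, mul_comm]
  refine mul_le_mul_of_nonneg_left ?_ (by positivity)
  have h5 : ∀ X ∈ T, (1 / (4 * (C : ℝ))) ^ ν * (1 - (hit ω X).card / ν) ≤
      (1 / (4 * (C : ℝ))) ^ (hit ω X).card := by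
    intro X _
    by_cases hX : (hit ω X).card ≤ ν
    · refine le_trans ?_ (pow_le_pow_of_le_one h3 h2 hX)
      refine mul_le_of_le_one_right (by positivity) ?_
      have : (0 : ℝ) ≤ (hit ω X).card / ν := by positivity
      linarith
    · refine le_trans ?_ (by positivity : (0 : ℝ) ≤ _)
      refine mul_nonpos_of_nonneg_of_nonpos (by positivity) ?_
      have : (ν : ℝ) ≤ (hit ω X).card := by exact_mod_cast (not_le.1 hX).le
      rw [sub_nonpos, le_div_iff₀ hν']; linarith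
  refine le_trans ?_ (sum_le_sum h5)
  rw [← mul_sum, sum_sub_distrib, ← sum_div, sum_const, nsmul_eq_mul, mul_one]
  have h6 : (∑ X ∈ T, ((hit ω X).card : ℝ)) / ν ≤ T.card / 2 := by
    rw [div_le_iff₀ hν']; linarith
  have h7 : (0 : ℝ) ≤ (1 / (4 * (C : ℝ))) ^ ν := by positivity
  nlinarith

set_option maxHeartbeats 2000000 in
/-- Expected number of exceptional steps. -/
theorem sum_Phi_le (hC : 1 ≤ C) (a₀ z : ℝ) (ha₀ : 0 < a₀) (ha₁ : a₀ ≤ alpha F C)
    (hz : z ^ 10 = Fintype.card F) (hz1 : 1 ≤ z) (hz2 : 48 ≤ a₀ * z) (hz3 : 2 * (C : ℝ) ≤ z)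
    {ω : Conf F C} (hinj : Inj ω)
    (hreg : ∀ x, |((dS ω x).card : ℝ) - alpha F C * Fintype.card F| ≤ z ^ 6)
    {B : Finset (Line F)} (hB : B.card ≤ Fintype.card F) (hcov : Disjoint (unc B) (unc (KK ω))) :
    Fintype.card F ≤ 2 * B.card ∧
    ∑ g : Var F C → Col C, Phi (Gam (II g) ω) B.card B ≤
      (3 + 192 / a₀ ^ 2 + 48 / a₀) * z ^ 8 * Fintype.card (Var F C → Col C) := by
  classical
  set a := alpha F C with ha
  have ha1 : a ≤ 1 := alpha_le_one C
  have ha0 : 0 < a := alpha_pos C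
  have hC1 : (1 : ℝ) ≤ C := by exact_mod_cast hC
  have hz0 : 0 < z := by linarith
  have hz2' : 48 ≤ a * z := le_trans hz2 (mul_le_mul_of_nonneg_right ha₁ hz0.le)
  have hBq : (B.card : ℝ) ≤ z ^ 10 := by rw [hz]; exact_mod_cast hB
  rw [← hz] at hreg
  have hlo : ∀ x, a * z ^ 10 - z ^ 6 ≤ ((dS ω x).card : ℝ) := fun x => by
    linarith [(abs_le.1 (hreg x)).1]
  have hhi : ∀ x, ((dS ω x).card : ℝ) ≤ a * z ^ 10 + z ^ 6 := fun x => by
    linarith [(abs_le.1 (hreg x)).2]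
  have p6 : 0 < z ^ 6 := by positivity
  have p8 : 0 < z ^ 8 := by positivity
  have p10 : 0 < z ^ 10 := by positivity
  have hz3' : 1 ≤ z ^ 3 := one_le_pow₀ hz1
  have e1 : 48 * z ^ 6 ≤ a * z ^ 8 := by
    have : 48 * z ^ 6 ≤ (a * z) * z ^ 6 := by gcongr
    have h2 : a * z * z ^ 6 * 1 ≤ a * z * z ^ 6 * z := by gcongr
    nlinarith
  have e2 : z ^ 8 ≤ z ^ 10 := pow_le_pow_right₀ hz1 (by norm_num)
  have e3 : 48 * z ^ 6 ≤ a * z ^ 10 := e1.trans (by gcongr)
  have e4 : (C : ℝ) ≤ z ^ 6 := by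
    have : z ^ 1 ≤ z ^ 6 := pow_le_pow_right₀ hz1 (by norm_num)
    linarith
  have hS := card_unc_KK_ge ω _ (by linarith) hlo
  rw [← hz] at hS
  have hsum := sum_unc_inter_le ω B _ hhi
  have hE0 := exc_nonneg hcov
  set bK : ℝ := ((B ∩ KK ω).card : ℝ) with hbK
  have hbK0 : 0 ≤ bK := by positivity
  have f0 : (C : ℝ) * (a * z ^ 10 - z ^ 6) ≤ z ^ 6 * z ^ 10 := by
    have : a * z ^ 10 - z ^ 6 ≤ z ^ 10 := by nlinarith
    gcongr; linarith
  have f1 : exc (unc (KK ω)) B + (z ^ 10 - B.card + bK) * (a * z ^ 10 + z ^ 6) ≤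
      3 * z ^ 10 * z ^ 6 := by
    unfold exc; nlinarith
  have f2 : 0 ≤ z ^ 10 - B.card + bK := by linarith
  have hE : exc (unc (KK ω)) B ≤ 3 * z ^ 10 * z ^ 6 := by
    have : 0 ≤ (z ^ 10 - B.card + bK) * (a * z ^ 10 + z ^ 6) := by positivity
    linarith
  have f3 : (z ^ 10 - B.card + bK) * a ≤ 3 * z ^ 6 := by
    have h1 : (z ^ 10 - B.card + bK) * (a * z ^ 10) ≤
        (z ^ 10 - B.card + bK) * (a * z ^ 10 + z ^ 6) := by gcongr; linarith
    have h2 : (z ^ 10 - B.card + bK) * a * z ^ 10 ≤ 3 * z ^ 6 * z ^ 10 := by nlinarith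
    exact le_of_mul_le_mul_right h2 p10
  have f4 : 16 * (z ^ 10 - B.card + bK) ≤ z ^ 8 := by
    have : 16 * (z ^ 10 - B.card + bK) * a ≤ z ^ 8 * a := by nlinarith
    exact le_of_mul_le_mul_right this ha0
  refine ⟨?_, ?_⟩
  · have : (Fintype.card F : ℝ) ≤ 2 * B.card := by rw [← hz]; linarith
    exact_mod_cast this
  have hbK1 : 16 * bK ≤ z ^ 8 := by linarith
  set i₀ : ℕ := ⌈z ^ 8⌉₊ with hi₀
  have hi1 : z ^ 8 ≤ i₀ := Nat.le_ceil _
  have hi2 : (i₀ : ℝ) ≤ z ^ 8 + 1 := (Nat.ceil_lt_add_one p8.le).le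
  set Bad : Finset (Line F) := (B ∩ KK ω) ∪
    B.filter fun x => a * z ^ 8 / 8 < (sig (unc (KK ω)) B x : ℝ) with hBad
  set r₁ : ℝ := 192 / (a₀ ^ 2 * z ^ 8) with hr₁
  have hr₁0 : 0 ≤ r₁ := by positivity
  have key := avg_Phi_le (fun g : Var F C → Col C => Gam (II g) ω) B Bad
    (fun i => if i < i₀ then 1 else r₁) (fun i => by split_ifs <;> positivity) (by
      intro B' hB' x hx hx' hxB
      split_ifs with hi
      · rw [one_mul]; exact_mod_cast cnt_le_card _
      have hi3 : z ^ 8 ≤ B'.card := hi1.trans (by exact_mod_cast not_lt.1 hi)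
      have hi4 : (0 : ℝ) < B'.card := lt_of_lt_of_le p8 hi3
      simp only [hBad, mem_union, mem_inter, mem_filter, not_or, not_and, not_lt] at hxB
      have hbK' : ((B' ∩ KK ω).card : ℝ) ≤ bK := by
        rw [hbK]; exact_mod_cast card_le_card (inter_subset_inter_right hB')
      have hbK'0 : (0 : ℝ) ≤ (B' ∩ KK ω).card := by positivity
      refine (cnt_notMem_Gam hC hinj (hxB.1 hx) hx' (by exact_mod_cast hi4) ?_ ?_).trans
        (mul_le_mul_of_nonneg_right ?_ (by positivity))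
      · refine le_trans ?_ (card_cov_inter_ge hcov hB')
        have g1 := sum_unc_inter_ge ω B' _ hlo
        rw [← hz, ← ha]
        have g2 : 15 / 16 * (B'.card : ℝ) * (15 / 16 * (a * z ^ 10)) ≤
            ((B'.card : ℝ) - (B' ∩ KK ω).card) * (a * z ^ 10 - z ^ 6) := by
          apply mul_le_mul <;> first | positivity | linarith
        have g3 : 3 * z ^ 10 * z ^ 6 ≤ (B'.card : ℝ) * (a * z ^ 10) / 16 := by
          have : a * z ^ 8 ≤ a * B'.card := by gcongr
          have : 48 * z ^ 6 * z ^ 10 ≤ a * B'.card * z ^ 10 :=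
            mul_le_mul_of_nonneg_right (e1.trans this) p10.le
          linarith
        have g4 : 0 ≤ (B'.card : ℝ) * (a * z ^ 10) := by positivity
        nlinarith
      · have g1 : (((pts x \ unc B') ∩ unc (KK ω)).card : ℝ) ≤ sig (unc (KK ω)) B x := by
          exact_mod_cast card_sdiff_inter_le_sig hB' hx hx'
        have g2 := hxB.2 hx
        have : a * z ^ 8 ≤ a * B'.card := by gcongr
        rw [← ha]; linarith
      · rw [← ha, card_var, ← hz]
        push_cast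
        rw [← hz]
        have g1 : (B'.card : ℝ) / (a * B'.card / 8) ^ 2 = 64 / (a ^ 2 * B'.card) := by
          field_simp; ring
        have g2 : ((z ^ 10 + 1) * C * (B'.card : ℝ) ^ 2 + (B' ∩ KK ω).card * (z ^ 10) ^ 2) /
            (a * B'.card / 8 * z ^ 10) ^ 2 =
            64 / a ^ 2 * ((z ^ 10 + 1) * C / (z ^ 10) ^ 2 +
              (B' ∩ KK ω).card / (B'.card : ℝ) ^ 2) := by
          field_simp; ring
        have g3 : 64 / (a ^ 2 * B'.card) ≤ 64 / (a₀ ^ 2 * z ^ 8) := by gcongr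
        have g4 : (z ^ 10 + 1) * C / (z ^ 10) ^ 2 ≤ 1 / z ^ 8 := by
          rw [div_le_div_iff₀ (by positivity) p8]
          have h1 : 1 ≤ z ^ 10 := one_le_pow₀ hz1
          have h2 : (z ^ 10 + 1) * C ≤ z ^ 10 * z := by nlinarith
          have h3 : z ^ 10 * z * z ^ 8 ≤ 1 * (z ^ 10) ^ 2 := by
            have : z ^ 19 ≤ z ^ 20 := pow_le_pow_right₀ hz1 (by norm_num)
            nlinarith
          nlinarith
        have g5 : ((B' ∩ KK ω).card : ℝ) / (B'.card : ℝ) ^ 2 ≤ 1 / z ^ 8 := by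
          rw [div_le_div_iff₀ (by positivity) p8]
          have h1 : z ^ 8 * z ^ 8 ≤ (B'.card : ℝ) ^ 2 := by rw [sq]; gcongr
          have h2 : ((B' ∩ KK ω).card : ℝ) * z ^ 8 ≤ z ^ 8 * z ^ 8 := by gcongr; linarith
          linarith
        have g6 : 64 / a ^ 2 * ((z ^ 10 + 1) * C / (z ^ 10) ^ 2 +
            (B' ∩ KK ω).card / (B'.card : ℝ) ^ 2) ≤ 64 / a₀ ^ 2 * (1 / z ^ 8 + 1 / z ^ 8) := by
          gcongr
        have g7 : r₁ = 64 / (a₀ ^ 2 * z ^ 8) + 64 / a₀ ^ 2 * (1 / z ^ 8 + 1 / z ^ 8) := by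
          rw [hr₁]; field_simp; ring
        rw [g1, g2, g7]
        exact add_le_add g3 g6)
  refine key.trans (mul_le_mul_of_nonneg_right ?_ (by positivity))
  have k1 : ∑ i ∈ range B.card, (if i < i₀ then (1 : ℝ) else r₁) ≤ i₀ + B.card * r₁ := by
    have : ∀ i ∈ range B.card, (if i < i₀ then (1 : ℝ) else r₁) ≤
        (if i ∈ range i₀ then (1 : ℝ) else 0) + r₁ := by
      intro i _
      simp only [mem_range]
      split_ifs <;> linarith
    refine (sum_le_sum this).trans ?_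
    rw [sum_add_distrib, sum_boole, sum_const, card_range, nsmul_eq_mul]
    have : ((range B.card).filter fun i => i ∈ range i₀).card ≤ i₀ := by
      rw [filter_mem_eq_inter]
      exact (card_le_card inter_subset_right).trans (card_range _).le
    have : (((range B.card).filter fun i => i ∈ range i₀).card : ℝ) ≤ i₀ := by exact_mod_cast this
    linarith
  have k2 : (B.card : ℝ) * r₁ ≤ 192 / a₀ ^ 2 * z ^ 8 := by
    have h1 : (B.card : ℝ) * r₁ ≤ z ^ 10 * r₁ := by gcongr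
    have h2 : z ^ 10 * r₁ = 192 / a₀ ^ 2 * z ^ 2 := by rw [hr₁]; field_simp
    have h3 : z ^ 2 ≤ z ^ 8 := pow_le_pow_right₀ hz1 (by norm_num)
    have h4 : 192 / a₀ ^ 2 * z ^ 2 ≤ 192 / a₀ ^ 2 * z ^ 8 := by gcongr
    linarith
  have k3 : ((B.filter fun x => a * z ^ 8 / 8 < (sig (unc (KK ω)) B x : ℝ)).card : ℝ) ≤
      48 / a₀ * z ^ 8 := by
    have h1 : ((B.filter fun x => a * z ^ 8 / 8 < (sig (unc (KK ω)) B x : ℝ)).card : ℝ) *
        (a * z ^ 8 / 8) ≤ ∑ x ∈ B, (sig (unc (KK ω)) B x : ℝ) := by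
      rw [← nsmul_eq_mul, ← sum_const]
      refine (sum_le_sum fun x hx => (mem_filter.1 hx).2.le).trans ?_
      exact sum_le_sum_of_subset_of_nonneg (filter_subset _ _) fun _ _ _ => by positivity
    have h2 := sum_sig_le hcov
    have h3 : 48 / a * z ^ 8 * (a * z ^ 8 / 8) = 2 * (3 * z ^ 10 * z ^ 6) := by
      field_simp; ring
    have h4 : ((B.filter fun x => a * z ^ 8 / 8 < (sig (unc (KK ω)) B x : ℝ)).card : ℝ) ≤
        48 / a * z ^ 8 :=
      le_of_mul_le_mul_right (by rw [h3]; linarith) (by positivity : 0 < a * z ^ 8 / 8)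
    have h5 : 48 / a * z ^ 8 ≤ 48 / a₀ * z ^ 8 := by gcongr
    linarith
  have k4 : ((Bad ∩ B).card : ℝ) ≤ bK +
      (B.filter fun x => a * z ^ 8 / 8 < (sig (unc (KK ω)) B x : ℝ)).card := by
    rw [hbK]
    exact_mod_cast (card_le_card inter_subset_left).trans (card_union_le _ _)
  have k5 : 1 ≤ z ^ 8 := one_le_pow₀ hz1
  nlinarith

end Split

open Split

set_option maxHeartbeats 2000000 in
/-- Notation: `q = |F|`, `α = alpha F C ≥ 4^(-C)`, `err = q^(3/5)`, `N = |Var| = C (q+1)`, `M = 4C`,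
`S = unc (KK ω)`, `H X = {v | ω v = co v.1 X}`, `n_B X` = number of lines of `B` through `X`.
(a) `|S| ≥ (q - C)(αq - err)` (lines of one direction outside `KK`, `unc_inter_pts`, `Reg1`), lines of `KK`
miss `S`, so `E := ∑_{X ∈ S} (n_B X - 1) = ∑_{x ∈ B} |S ∩ pts x| - |S|` satisfies `0 ≤ E ≤ 3 q err` and
`q - |B| + |B ∩ KK| ≤ 3 err / α`.  Let `σ x = #{X ∈ S ∩ pts x | n_B X ≥ 2}`; `∑_{x ∈ B} σ x ≤ 2E`.
(b) Random colouring `g : Var → Fin M`, `I g = {v | g v = 0}`.  `wgt (I g) ω X = ∏_{v ∈ H X} y (g v)` with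
`y 0 = 1`, `y j = -1/(M-1)`; `avg y = 0`, `|y| ≤ 1`.  So `wgt = 1` on `S`, and `E[wgt X wgt Y] = 0` unless
`H X = H Y`.  Hence for a point set `A`: `E (∑_{X ∈ A} wgt X - |A ∩ S|)² ≤ #{(X,Y) ∈ (A \ S)² | H X = H Y}`;
this is `≤ |A|` for `A ⊆ pts x`, `x ∉ KK`, and `≤ ∑_v |A ∩ pts (v.1, ω v)|² ≤ N i² + |B ∩ KK| q²` for
`A = (unc B')ᶜ`, `B' ⊆ B`, `|B'| = i` (uses `Inj`).
(c) `i₀ = ⌈q^(4/5)⌉`, `Bad = (B ∩ KK) ∪ {x ∈ B | σ x > α i₀ / 8}`.  For `i = |B'| ≥ i₀`, `x ∈ B \ B'`, `x ∉ Bad`: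
`|A ∩ S| ≥ (i - |B ∩ KK|)(αq - err) - 2E ≥ (3/4) α i q`, `|(pts x \ unc B') ∩ S| ≤ σ x ≤ α i / 8`, so `x ∈ Gam`
unless one of the two sums deviates by `α i / 8` resp. `α i q / 8`; Chebyshev gives
`r i = 64/(α² i₀) + 64 (N/q² + |B ∩ KK|/i₀²)/α²` for `i ≥ i₀`, `r i = 1` below.  `avg_Phi_le` gives
`E Phi ≤ K₁ q^(4/5)`.
(d) `∑_{X ∈ T} |H X| = ∑_v |T ∩ pts (v.1, ω v)| ≤ N s ≤ (2C/ρ) |T|`, so half of `T` has `|H X| ≤ ν := ⌈4C/ρ⌉`,
and `P(X ∈ rest) = M^(-|H X|)`: `E |rest| ≥ 2γ|T|`, `γ = M^(-ν)/4`.  `E (|I| - N/M)² ≤ N`.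
(e) Average `|rest|/|T| - Phi/q^(9/10) - ((|I| - N/M)/(q/5))²` over `g`: it exceeds `γ` for large `q`. -/
theorem exists_split (C : ℕ) (hC : 1 ≤ C) (ρ : ℝ) (hρ : 0 < ρ) :
    ∃ γ : ℝ, 0 < γ ∧ ∃ q₀ : ℕ, ∀ (F : Type) [Field F] [Fintype F] [DecidableEq F],
      q₀ ≤ Fintype.card F →
      ∀ (ω : Conf F C) (B : Finset (Line F)) (T : Finset (Pt F)) (s : ℝ), Inj ω → Reg1 ω →
        B.card ≤ Fintype.card F → Disjoint (unc B) (unc (KK ω)) → 0 < s →
        ρ * Fintype.card F * s ≤ T.card → (∀ x, ((T ∩ pts x).card : ℝ) ≤ s) →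
        Fintype.card F ≤ 2 * B.card ∧ ∃ I : Finset (Var F C), 2 * I.card ≤ Fintype.card F ∧
          γ * T.card ≤ (rest I ω T).card ∧
          Phi (Gam I ω) B.card B ≤ (Fintype.card F : ℝ) ^ ((9 : ℝ) / 10) := by
  have hC1 : (1 : ℝ) ≤ C := by exact_mod_cast hC
  set a₀ : ℝ := (1 / 4 : ℝ) ^ C with ha₀
  have ha₀0 : 0 < a₀ := by positivity
  set ν : ℕ := ⌈4 * C / ρ⌉₊ with hν
  have hν0 : 0 < ν := Nat.ceil_pos.2 (by positivity)
  have hν1 : 4 * (C : ℝ) ≤ ρ * ν := by
    have := Nat.le_ceil (4 * C / ρ)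
    rw [div_le_iff₀ hρ] at this; linarith
  set γ : ℝ := (1 / (4 * (C : ℝ))) ^ ν / 4 with hγ
  have hγ0 : 0 < γ := by positivity
  set K₁ : ℝ := 3 + 192 / a₀ ^ 2 + 48 / a₀ with hK₁
  have hK₁0 : 0 < K₁ := by positivity
  set z₀ : ℝ := 2 + 48 / a₀ + 2 * C + 2 * (K₁ + 50 * C) / γ with hz₀
  have t1 : 0 < 48 / a₀ := by positivity
  have t2 : 0 < 2 * (K₁ + 50 * C) / γ := by positivity
  refine ⟨γ, hγ0, ⌈z₀ ^ 10⌉₊, fun F _ _ _ hq ω B T s hinj hreg hB hcov hs hT hTs => ?_⟩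
  have hq0 : (0 : ℝ) < Fintype.card F := by
    have := two_le_card (F := F); positivity
  set z : ℝ := (Fintype.card F : ℝ) ^ ((1 : ℝ) / 10) with hzdef
  have hpow : ∀ n : ℕ, z ^ n = (Fintype.card F : ℝ) ^ ((n : ℝ) / 10) := by
    intro n
    rw [hzdef, ← Real.rpow_natCast, ← Real.rpow_mul hq0.le]; congr 1; ring
  have hz : z ^ 10 = Fintype.card F := by rw [hpow]; norm_num
  have hz6 : (Fintype.card F : ℝ) ^ ((3 : ℝ) / 5) = z ^ 6 := by rw [hpow]; norm_num
  have hz9 : (Fintype.card F : ℝ) ^ ((9 : ℝ) / 10) = z ^ 9 := by rw [hpow]; norm_num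
  have hzz : z₀ ≤ z := by
    have h1 : z₀ ^ 10 ≤ z ^ 10 := by
      rw [hz]; exact (Nat.le_ceil _).trans (by exact_mod_cast hq)
    exact le_of_pow_le_pow_left₀ (by norm_num) (by positivity) h1
  have hz2 : 2 ≤ z := by linarith
  have hz1 : 1 ≤ z := by linarith
  have hz0 : 0 < z := by linarith
  obtain ⟨hhalf, hPhi⟩ := sum_Phi_le (F := F) hC a₀ z ha₀0 (alpha_ge C) hz hz1 (by
      have : 48 / a₀ ≤ z := by linarith
      rw [div_le_iff₀ ha₀0] at this; linarith) (by linarith) hinj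
    (fun x => hz6 ▸ hreg x) hB hcov
  refine ⟨hhalf, ?_⟩
  have hT0 : (0 : ℝ) < T.card := lt_of_lt_of_le (by positivity) hT
  have hN : (Fintype.card (Var F C) : ℝ) = (z ^ 10 + 1) * C := by
    rw [card_var, hz]; push_cast; ring
  have h10 : 1024 ≤ z ^ 10 := by
    have : (2 : ℝ) ^ 10 ≤ z ^ 10 := pow_le_pow_left₀ (by norm_num) hz2 10
    linarith
  have hrest := sum_rest_ge hC ω T ν hν0 (by
    rw [← Nat.cast_sum, sum_card_hit]
    push_cast
    have h1 : ∑ v : Var F C, ((T ∩ pts (v.1, ω v)).card : ℝ) ≤ (z ^ 10 + 1) * C * s := by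
      refine (sum_le_sum fun v _ => hTs _).trans ?_
      rw [sum_const, card_univ, nsmul_eq_mul, hN]
    rw [← hz] at hT
    have h2 : (z ^ 10 + 1) * C * s ≤ 2 * z ^ 10 * C * s := by gcongr; linarith
    have h3 : 4 * C * (z ^ 10 * s) ≤ ρ * ν * (z ^ 10 * s) := by gcongr
    have h4 : ν * (ρ * z ^ 10 * s) ≤ ν * T.card := by gcongr
    nlinarith)
  have hvar := var_II (F := F) hC
  set G : ℝ := (Fintype.card (Var F C → Col C) : ℝ) with hG
  have hG0 : 0 < G := by rw [hG]; exact_mod_cast Fintype.card_pos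
  have p9 : 0 < z ^ 9 := by positivity
  have p10 : 0 < z ^ 10 := by positivity
  have main : ∑ _g : Var F C → Col C, γ ≤ ∑ g : Var F C → Col C,
      (((rest (II g) ω T).card : ℝ) / T.card - Phi (Gam (II g) ω) B.card B / z ^ 9 -
        (((II g).card : ℝ) - Fintype.card (Var F C) / (4 * C)) ^ 2 / (z ^ 10 / 5) ^ 2) := by
    rw [sum_const, card_univ, nsmul_eq_mul, ← hG, sum_sub_distrib, sum_sub_distrib,
      ← sum_div, ← sum_div, ← sum_div]
    have m1 : 2 * γ * G ≤ (∑ g : Var F C → Col C, ((rest (II g) ω T).card : ℝ)) / T.card := by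
      rw [le_div_iff₀ hT0]
      refine le_trans (le_of_eq ?_) hrest
      rw [hγ]; ring
    have m2 : (∑ g : Var F C → Col C, Phi (Gam (II g) ω) B.card B) / z ^ 9 ≤ K₁ / z * G := by
      rw [div_le_iff₀ p9]
      refine hPhi.trans (le_of_eq ?_)
      rw [← hK₁]
      field_simp
    have m3 : (∑ g : Var F C → Col C,
        (((II g).card : ℝ) - Fintype.card (Var F C) / (4 * C)) ^ 2) / (z ^ 10 / 5) ^ 2 ≤
        50 * C / z * G := by
      rw [div_le_iff₀ (by positivity)]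
      refine hvar.trans ?_
      rw [hN]
      have h1 : 50 * C / z * G * (z ^ 10 / 5) ^ 2 = 2 * z ^ 19 * C * G := by
        field_simp; ring
      have h2 : z ^ 10 ≤ z ^ 19 := pow_le_pow_right₀ hz1 (by norm_num)
      rw [h1]
      gcongr
      linarith
    have m4 : K₁ / z + 50 * C / z ≤ γ := by
      have h1 : 2 * (K₁ + 50 * C) / γ ≤ z := by linarith
      rw [div_le_iff₀ hγ0] at h1
      rw [← add_div, div_le_iff₀ hz0]
      nlinarith
    have m5 : (K₁ / z + 50 * C / z) * G ≤ γ * G := by gcongr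
    nlinarith
  obtain ⟨g, -, hg⟩ := exists_le_of_sum_le univ_nonempty main
  have u1 : ((rest (II g) ω T).card : ℝ) / T.card ≤ 1 := by
    rw [div_le_one hT0]
    exact_mod_cast card_le_card (filter_subset _ _)
  have u2 : 0 ≤ Phi (Gam (II g) ω) B.card B / z ^ 9 := div_nonneg (Phi_nonneg _ _ _) p9.le
  have u3 : 0 ≤ (((II g).card : ℝ) - Fintype.card (Var F C) / (4 * C)) ^ 2 / (z ^ 10 / 5) ^ 2 := by
    positivity
  refine ⟨II g, ?_, ?_, ?_⟩
  · have h1 : (((II g).card : ℝ) - Fintype.card (Var F C) / (4 * C)) ^ 2 / (z ^ 10 / 5) ^ 2 ≤ 1 := by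
      linarith
    rw [div_le_one (by positivity)] at h1
    have h2 := abs_le_of_sq_le_sq' h1 (by positivity)
    have h3 : (Fintype.card (Var F C) : ℝ) / (4 * C) = (z ^ 10 + 1) / 4 := by
      rw [hN]; field_simp
    have h4 : 2 * ((II g).card : ℝ) ≤ Fintype.card F := by
      rw [← hz]; linarith [h2.2]
    exact_mod_cast h4
  · rw [← le_div_iff₀ hT0]; linarith
  · rw [hz9, ← div_le_one p9]; linarith

end Crest.Agent.R34
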